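import Vale.Agent.P086.Tr

open scoped InnerProductSpace ComplexConjugate

namespace Vale.Agent.P086

variable {X : Type} {K K' : Type} [NormedAddCommGroup K] [InnerProductSpace ℂ K]
  [NormedAddCommGroup K'] [InnerProductSpace ℂ K']

/-- finitely supported vectors inside the Hilbert space -/
noncomputable def iota (e : HilbertBasis X ℂ K) : (X →₀ ℂ) →ₗ[ℂ] K :=
  Finsupp.linearCombination ℂ e

variable (e : HilbertBasis X ℂ K)

@[simp] lemma iota_single (x : X) (c : ℂ) : iota e (Finsupp.single x c) = c • e x := by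
  simp [iota]

lemma inner_e_iota (x : X) (v : X →₀ ℂ) : ⟪e x, iota e v⟫_ℂ = v x :=
  e.orthonormal.inner_right_finsupp v x

lemma inner_iota_e (x : X) (v : X →₀ ℂ) : ⟪iota e v, e x⟫_ℂ = conj (v x) :=
  e.orthonormal.inner_left_finsupp v x

lemma ext_basis {S T : K →L[ℂ] K'} (h : ∀ x, S (e x) = T (e x)) : S = T := by
  refine ContinuousLinearMap.ext_on (s := Set.range e) ?_ ?_
  · rw [Submodule.dense_iff_topologicalClosure_eq_top]; exact e.dense_span
  · rintro _ ⟨x, rfl⟩; exact h x

lemma vec_ext {ξ η : K} (h : ∀ x, ⟪e x, ξ⟫_ℂ = ⟪e x, η⟫_ℂ) : ξ = η := by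
  apply e.repr.injective
  ext x
  rw [e.repr_apply_apply, e.repr_apply_apply, h]

lemma mem_of_basis (N : Submodule ℂ K) (hN : IsClosed (N : Set K)) (h : ∀ x, e x ∈ N) (ξ : K) :
    ξ ∈ N := by
  have h1 : Submodule.span ℂ (Set.range e) ≤ N := by
    rw [Submodule.span_le]; rintro _ ⟨x, rfl⟩; exact h x
  have h2 := Submodule.topologicalClosure_minimal _ h1 hN
  rw [e.dense_span] at h2
  exact h2 trivial

lemma dense_iota (ξ : K) (ε : ℝ) (hε : 0 < ε) : ∃ v, ‖ξ - iota e v‖ < ε := by
  have := mem_of_basis e (LinearMap.range (iota e)).topologicalClosure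
    (Submodule.isClosed_topologicalClosure _)
    (fun x => Submodule.le_topologicalClosure _ ⟨Finsupp.single x 1, by simp⟩) ξ
  obtain ⟨_, ⟨v, rfl⟩, hd⟩ := Metric.mem_closure_iff.1 this ε hε
  exact ⟨v, by rwa [dist_eq_norm] at hd⟩

section complete
variable [CompleteSpace K']

/-- the isometry determined by an orthonormal family -/
noncomputable def isoOf (v : X → K') (hv : Orthonormal ℂ v) : K →ₗᵢ[ℂ] K' :=
  hv.orthogonalFamily.linearIsometry.comp e.repr.toLinearIsometry

lemma isoOf_apply (v : X → K') (hv : Orthonormal ℂ v) (x : X) : isoOf e v hv (e x) = v x := by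
  classical
  simp only [isoOf, LinearIsometry.coe_comp, Function.comp_apply,
    LinearIsometryEquiv.coe_toLinearIsometry, e.repr_self]
  rw [OrthogonalFamily.linearIsometry_apply_single]
  simp

end complete

variable [CompleteSpace K]

/-- the isometry induced by an injection of the index set -/
noncomputable def iso (f : X → X) (hf : Function.Injective f) : K →L[ℂ] K :=
  (isoOf e (e ∘ f) (e.orthonormal.comp f hf)).toContinuousLinearMap

lemma iso_apply (f : X → X) (hf : Function.Injective f) (x : X) : iso e f hf (e x) = e (f x) :=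
  isoOf_apply e _ (e.orthonormal.comp f hf) x

lemma norm_iso_apply (f : X → X) (hf : Function.Injective f) (ξ : K) : ‖iso e f hf ξ‖ = ‖ξ‖ :=
  (isoOf e (e ∘ f) (e.orthonormal.comp f hf)).norm_map ξ

lemma norm_iso_le (f : X → X) (hf : Function.Injective f) : ‖iso e f hf‖ ≤ 1 :=
  ContinuousLinearMap.opNorm_le_bound _ zero_le_one fun ξ => by simp [norm_iso_apply]

/-- a bounded operator lifting an algebraic one -/
def Lift (T : K →L[ℂ] K) (t : Module.End ℂ (X →₀ ℂ)) : Prop :=
  ∀ v, T (iota e v) = iota e (t v)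

/-- algebraic adjoints -/
def Transp (t s : Module.End ℂ (X →₀ ℂ)) : Prop :=
  ∀ x y, s (Finsupp.single y 1) x = conj (t (Finsupp.single x 1) y)

variable {e}

omit [CompleteSpace K] in
lemma lift_of_basis {T : K →L[ℂ] K} {t : Module.End ℂ (X →₀ ℂ)}
    (h : ∀ x, T (e x) = iota e (t (Finsupp.single x 1))) : Lift e T t := by
  intro v
  have : (T : K →ₗ[ℂ] K) ∘ₗ iota e = iota e ∘ₗ t := by
    ext1 x
    ext1
    simpa using h x
  exact congrArg (fun F : (X →₀ ℂ) →ₗ[ℂ] K => F v) this

lemma lift_iso (f : X → X) (hf : Function.Injective f) :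
    Lift e (iso e f hf) (Finsupp.lmapDomain ℂ ℂ f) :=
  lift_of_basis fun x => by simp [iso_apply]

omit [CompleteSpace K] in
lemma Transp.inner (e : HilbertBasis X ℂ K) {t s : Module.End ℂ (X →₀ ℂ)} (h : Transp t s)
    (v w : X →₀ ℂ) : ⟪iota e (t v), iota e w⟫_ℂ = ⟪iota e v, iota e (s w)⟫_ℂ := by
  induction v using Finsupp.induction_linear with
  | zero => simp
  | add v1 v2 h1 h2 => simp only [map_add, inner_add_left, h1, h2]
  | single x a =>
    induction w using Finsupp.induction_linear with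
    | zero => simp
    | add w1 w2 h1 h2 => simp only [map_add, inner_add_right, h1, h2]
    | single y c =>
      have e1 : Finsupp.single x a = a • Finsupp.single x (1 : ℂ) := by simp
      have e2 : Finsupp.single y c = c • Finsupp.single y (1 : ℂ) := by simp
      rw [e1, e2]
      simp only [map_smul, inner_smul_left, inner_smul_right, iota_single, one_smul, inner_e_iota,
        inner_iota_e, h x y]

lemma Lift.star {T : K →L[ℂ] K} {t s : Module.End ℂ (X →₀ ℂ)} (h : Lift e T t)
    (hts : Transp t s) : Lift e (star T) s := by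
  intro w
  refine vec_ext e fun x => ?_
  have := hts.inner e (Finsupp.single x 1) w
  rw [← h, iota_single, one_smul] at this
  rw [inner_star_right, this]

omit [CompleteSpace K] in
lemma Lift.add {T S : K →L[ℂ] K} {t s : Module.End ℂ (X →₀ ℂ)} (h : Lift e T t)
    (h' : Lift e S s) : Lift e (T + S) (t + s) := fun v => by
  simp [h v, h' v]

omit [CompleteSpace K] in
lemma Lift.comm {T S : K →L[ℂ] K} {t s : Module.End ℂ (X →₀ ℂ)} (h : Lift e T t)
    (h' : Lift e S s) (hc : t * s = s * t) : T * S = S * T := by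
  refine ext_basis e fun x => ?_
  have e1 : e x = iota e (Finsupp.single x 1) := by simp
  have e2 : t (s (Finsupp.single x 1)) = s (t (Finsupp.single x 1)) :=
    congrArg (fun F : Module.End ℂ (X →₀ ℂ) => F (Finsupp.single x 1)) hc
  rw [e1, mul_apply_eq_comp, mul_apply_eq_comp, h', h, h, h', e2]

lemma mem_cent_equiv {A B : Type} [Ring A] [StarRing A] [Algebra ℂ A] [StarModule ℂ A]
    [Ring B] [StarRing B] [Algebra ℂ B] [StarModule ℂ B] (Φ : A ≃⋆ₐ[ℂ] B) {s : Set A} {t : Set B}
    (h : ∀ x, x ∈ s ↔ Φ x ∈ t) (x : A) :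
    x ∈ StarSubalgebra.centralizer ℂ s ↔ Φ x ∈ StarSubalgebra.centralizer ℂ t := by
  rw [StarSubalgebra.mem_centralizer_iff, StarSubalgebra.mem_centralizer_iff]
  constructor
  · intro hx g hg
    obtain ⟨y, rfl⟩ := EquivLike.surjective Φ g
    obtain ⟨h1, h2⟩ := hx y ((h y).2 hg)
    rw [← map_star, ← map_mul, ← map_mul, ← map_mul, ← map_mul, h1, h2]
    exact ⟨rfl, rfl⟩
  · intro hx g hg
    obtain ⟨h1, h2⟩ := hx _ ((h g).1 hg)
    rw [← map_star, ← map_mul, ← map_mul] at h2
    rw [← map_mul, ← map_mul] at h1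
    exact ⟨Φ.injective h1, Φ.injective h2⟩

lemma equiv_of_mem {A B : Type} [Ring A] [StarRing A] [Algebra ℂ A] [StarModule ℂ A]
    [Ring B] [StarRing B] [Algebra ℂ B] [StarModule ℂ B] (Φ : A ≃⋆ₐ[ℂ] B)
    {s : StarSubalgebra ℂ A} {t : StarSubalgebra ℂ B}
    (h : ∀ x, x ∈ s ↔ Φ x ∈ t) : Nonempty (s ≃⋆ₐ[ℂ] t) := by
  let f : s →⋆ₐ[ℂ] t := ((Φ : A →⋆ₐ[ℂ] B).comp s.subtype).codRestrict t fun x => (h x).1 x.2
  refine ⟨StarAlgEquiv.ofBijective f ⟨fun x y hxy => ?_, fun y => ?_⟩⟩
  · exact Subtype.ext (Φ.injective (congrArg Subtype.val hxy))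
  · obtain ⟨x, hx⟩ := Φ.surjective y
    exact ⟨⟨x, (h x).2 (hx ▸ y.2)⟩, Subtype.ext hx⟩

/-- a tracial algebra with a generating regular representation is the group algebra -/
theorem iso_of_basis {G : Type} [Group G] (b : HilbertBasis G ℂ K) {R : Set (K →L[ℂ] K)}
    (htr : Tracial (StarSubalgebra.centralizer ℂ R) (b 1))
    (hu : ∀ g, ∃ T ∈ StarSubalgebra.centralizer ℂ R, ∀ h, T (b h) = b (g * h)) :
    Nonempty (LG G ≃⋆ₐ[ℂ] StarSubalgebra.centralizer ℂ R) := by
  classical
  let Φ := b.repr.symm.conjStarAlgEquiv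
  let U : Set (K →L[ℂ] K) := {T | ∃ g, ∀ h, T (b h) = b (g * h)}
  have hU : ∀ T, T ∈ leftReg G ↔ Φ T ∈ U := by
    intro T
    constructor
    · rintro ⟨g, hg⟩
      refine ⟨g, fun h => ?_⟩
      have : T (lp.single 2 h 1) = lp.single 2 (g * h) 1 := by
        ext k
        rw [hg]
        simp only [lp.single_apply, Pi.single_apply, inv_mul_eq_iff_eq_mul]
      simp [Φ, b.repr_self, this]
    · rintro ⟨g, hg⟩
      refine ⟨g, fun ξ k => ?_⟩
      have h1 : ∀ h, T (lp.single 2 h 1) = lp.single 2 (g * h) 1 := by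
        intro h
        apply b.repr.symm.injective
        simpa [Φ, b.repr_self] using hg h
      have h2 : (innerSL ℂ (lp.single 2 k (1 : ℂ) : L2 G)) ∘L T =
          innerSL ℂ (lp.single 2 (g⁻¹ * k) (1 : ℂ) : L2 G) := by
        refine lp.ext_continuousLinearMap (by simp) fun h => ?_
        ext
        simp [h1, lp.inner_single_left, lp.single_apply, Pi.single_apply, inv_mul_eq_iff_eq_mul]
      have h3 := congrArg (fun F : L2 G →L[ℂ] ℂ => F ξ) h2
      simpa [lp.inner_single_left] using h3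
  have hUM : U ⊆ StarSubalgebra.centralizer ℂ R := by
    rintro T ⟨g, hg⟩
    obtain ⟨S, hS, hS'⟩ := hu g
    rwa [ext_basis b (S := T) (T := S) fun h => by rw [hg, hS']]
  have hcyc : Cyc U (b 1) := by
    intro N hN h1 hinv
    refine mem_of_basis b N hN fun g => ?_
    obtain ⟨S, -, hS'⟩ := hu g
    simpa [hS'] using hinv S ⟨g, hS'⟩ _ h1
  have hEq : StarSubalgebra.centralizer ℂ (StarSubalgebra.centralizer ℂ U : Set (K →L[ℂ] K)) =
      StarSubalgebra.centralizer ℂ R := by
    apply le_antisymm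
    · refine StarSubalgebra.centralizer_le ℂ _ _ fun r hr => ?_
      refine mem_cent.2 fun u hu => ⟨(mem_cent.1 (hUM hu) r hr).1.symm, ?_⟩
      exact (mem_cent.1 (star_mem (hUM hu)) r hr).1.symm
    · intro T hT
      have hA : Apx (StarAlgebra.adjoin ℂ U) (b 1) := hcyc.apx _ (StarAlgebra.subset_adjoin ℂ U)
      have key : ∀ S ∈ StarSubalgebra.centralizer ℂ U, S * T = T * S := fun S hS =>
        (htr.comm (StarAlgebra.adjoin_le hUM) hA hT fun x hx =>
          (mem_cent.1 (StarAlgebra.adjoin_le_centralizer_centralizer ℂ U hx) S hS).1.symm).symm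
      exact mem_cent.2 fun S hS => ⟨key S hS, key _ (star_mem hS)⟩
  rw [← hEq]
  exact equiv_of_mem Φ (mem_cent_equiv Φ (mem_cent_equiv Φ hU))

end Vale.Agent.P086
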