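import Mathlib

namespace Vale.Agent.P086

/-- The Hilbert space of square-summable complex functions on `G`. -/
abbrev L2 (G : Type) : Type := lp (fun _ : G => ℂ) 2

/-- The left regular operators: bounded `T` with `(T ξ)(h) = ξ(g⁻¹ h)` for some `g`. -/
def leftReg (G : Type) [Group G] : Set (L2 G →L[ℂ] L2 G) :=
  {T | ∃ g : G, ∀ (ξ : L2 G) (h : G), T ξ h = ξ (g⁻¹ * h)}

end Vale.Agent.P086
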