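import Vale.Agent.P086.Gen

open scoped InnerProductSpace ComplexConjugate Classical Nat

namespace Vale.Agent.P086

section general

variable {X K : Type} [NormedAddCommGroup K] [InnerProductSpace ℂ K]

lemma norm_sum_sq_orth (s : Finset X) (f : X → K) (h : ∀ x y, x ≠ y → ⟪f x, f y⟫_ℂ = 0) :
    ‖∑ x ∈ s, f x‖ ^ 2 = ∑ x ∈ s, ‖f x‖ ^ 2 := by
  induction s using Finset.induction_on with
  | empty => simp
  | insert a s ha ih =>
    rw [Finset.sum_insert ha, Finset.sum_insert ha, ← ih, sq, sq, sq]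
    refine norm_add_sq_eq_norm_sq_add_norm_sq_of_inner_eq_zero (𝕜 := ℂ) _ _ ?_
    rw [inner_sum]
    exact Finset.sum_eq_zero fun y hy => h _ _ fun e => ha (e ▸ hy)

lemma norm_lc_sq {v : X → K} (hv : Orthonormal ℂ v) (p : X →₀ ℂ) :
    ‖Finsupp.linearCombination ℂ v p‖ ^ 2 = ∑ x ∈ p.support, ‖p x‖ ^ 2 := by
  rw [Finsupp.linearCombination_apply, Finsupp.sum, norm_sum_sq_orth]
  · simp [norm_smul, hv.1]
  · intro x y hxy
    simp [hv.2 hxy]

lemma norm_iota_sq (e : HilbertBasis X ℂ K) (p : X →₀ ℂ) :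
    ‖iota e p‖ ^ 2 = ∑ x ∈ p.support, ‖p x‖ ^ 2 := norm_lc_sq e.orthonormal p

lemma norm_iota_map {Y : Type} (e : HilbertBasis X ℂ K) {f : Y → X} (hf : Function.Injective f)
    (p : Y →₀ ℂ) : ‖iota e (Finsupp.mapDomain f p)‖ ^ 2 = ∑ x ∈ p.support, ‖p x‖ ^ 2 := by
  rw [iota, Finsupp.linearCombination_mapDomain]
  exact norm_lc_sq (e.orthonormal.comp f hf) p

/-- columns with disjoint supports -/
def Disj (t : X → X →₀ ℂ) : Prop := ∀ x y w, t x w ≠ 0 → t y w ≠ 0 → x = y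

lemma Disj.norm_sq (e : HilbertBasis X ℂ K) {t : X → X →₀ ℂ} (h : Disj t) (v : X →₀ ℂ) :
    ‖iota e (Finsupp.linearCombination ℂ t v)‖ ^ 2 =
      ∑ x ∈ v.support, ‖v x‖ ^ 2 * ‖iota e (t x)‖ ^ 2 := by
  rw [Finsupp.linearCombination_apply, Finsupp.sum, map_sum, norm_sum_sq_orth]
  · simp [norm_smul, mul_pow]
  · intro x y hxy
    have : ⟪iota e (t x), iota e (t y)⟫_ℂ = 0 := by
      rw [iota, e.orthonormal.inner_finsupp_eq_sum_left, Finsupp.sum]
      refine Finset.sum_eq_zero fun w hw => ?_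
      by_contra h0
      exact hxy (h x y w (Finsupp.mem_support_iff.1 hw) (right_ne_zero_of_mul h0))
    simp [this]

end general

noncomputable section

open W

variable {H J : Type} [Group H] {len : H → ℕ} (D : Data H len) (j0 : J)

/-- number of group letters -/
def dg : W H J → ℕ
  | one _ => 1
  | cons _ _ w => dg w + 1

variable (len) in
/-- total length -/
def tl : W H J → ℕ
  | one g => len g
  | cons g _ w => len g + tl w

/-- apply an operator to the tail -/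
def dep (t : W H J → W H J →₀ ℂ) : W H J → W H J →₀ ℂ
  | one _ => 0
  | cons x j w => mp (cons x j) (t w)

/-- apply an operator at depth `k` -/
def dp (P : W H J → W H J →₀ ℂ) : ℕ → W H J → W H J →₀ ℂ
  | 0 => P
  | k + 1 => dep (dp P k)

omit [Group H] in
lemma disj_dep {t : W H J → W H J →₀ ℂ} (h : Disj t) : Disj (dep t) := by
  intro x y w hx hy
  cases x with
  | one x => simp [dep] at hx
  | cons a i x =>
    cases y with
    | one y => simp [dep] at hy
    | cons b j y =>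
      cases w with
      | one w => simp [dep] at hx
      | cons c k w =>
        simp only [dep, mp_cons_cons, ne_eq, ite_eq_right_iff, Classical.not_imp] at hx hy
        rw [hx.1.1, hx.1.2, hy.1.1, hy.1.2, h x y w hx.2 hy.2]

omit [Group H] in
lemma disj_dp {P : W H J → W H J →₀ ℂ} (h : Disj P) (k : ℕ) : Disj (dp P k) := by
  induction k with
  | zero => exact h
  | succ k ih => exact disj_dep ih

omit [Group H] in
lemma norm_mp_cons (x : H) (j : J) (v : W H J →₀ ℂ) :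
    ‖iota eb (mp (cons x j) v)‖ ^ 2 = ‖iota eb v‖ ^ 2 := by
  rw [norm_iota_sq eb v]
  exact norm_iota_map eb (cons_inj x j) v

omit [Group H] in
lemma sum_dp_le {P : W H J → W H J →₀ ℂ} {c : ℝ} (hc : 0 ≤ c)
    (h : ∀ w, ‖iota eb (P w)‖ ^ 2 ≤ c * len (hd w)) (w : W H J) (N : ℕ) :
    ∑ k ∈ Finset.range N, ‖iota eb (dp P k w)‖ ^ 2 ≤ c * tl len w := by
  induction w generalizing N with
  | one x =>
    cases N with
    | zero => simp; positivity
    | succ N => simpa [Finset.sum_range_succ', dp, dep, tl, hd] using h (one x)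
  | cons x j w ih =>
    cases N with
    | zero => simp; positivity
    | succ N =>
      simp only [Finset.sum_range_succ', dp, dep, tl, norm_mp_cons, Nat.cast_add, mul_add]
      have := h (cons x j w)
      have := ih N
      simp only [hd] at *
      linarith

namespace Data

lemma Lp_eq (w : W H J) (N : ℕ) (h : dg w ≤ N) :
    D.Lp j0 w = ∑ k ∈ Finset.range N, (dp (D.P2 j0) k w - dp (D.P1 j0) k w) := by
  induction w generalizing N with
  | one x =>
    obtain ⟨N, rfl⟩ := Nat.exists_eq_add_of_le' h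
    simp [Finset.sum_range_succ', dp, dep, Lp, dg]
  | cons x j w ih =>
    cases N with
    | zero => simp [dg] at h
    | succ N =>
      simp only [Finset.sum_range_succ', dp, dep, Lp, ih N (by simpa [dg] using h), map_sum,
        map_sub]
      abel

lemma disj_P1 : Disj (D.P1 j0) := by
  intro x y w hx hy
  cases w with
  | one w => simp at hx
  | cons u j v =>
    simp only [P1_cons, ne_eq, ite_eq_right_iff, Classical.not_imp] at hx hy
    rw [← hx.1.2, hy.1.2]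

lemma disj_P2 : Disj (D.P2 j0) := by
  intro x y w hx hy
  cases w with
  | one w => simp at hx
  | cons u j v =>
    simp only [P2_cons, ne_eq, ite_eq_right_iff, Classical.not_imp] at hx hy
    rw [← hx.1.2, hy.1.2]

lemma norm_P1 (w : W H J) : ‖iota eb (D.P1 j0 w)‖ ^ 2 ≤ 16 / D.n * len (hd w) := by
  rw [P1, norm_iota_map eb (D.F1_inj j0 w)]
  exact (D.l2 _).trans_eq (by ring)

lemma norm_P2 (w : W H J) : ‖iota eb (D.P2 j0 w)‖ ^ 2 ≤ 16 / D.n * len (hd w) := by
  rw [P2, norm_iota_map eb (D.F2_inj j0 w)]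
  exact (D.l2 _).trans_eq (by ring)

omit [Group H] in
lemma sum_op_dp_le {P : W H J → W H J →₀ ℂ} {c : ℝ} (hc : 0 ≤ c) (hd' : Disj P)
    (h : ∀ w, ‖iota eb (P w)‖ ^ 2 ≤ c * len (hd w)) (v : W H J →₀ ℂ) (N m : ℕ)
    (hv : ∀ x, v x ≠ 0 → tl len x ≤ m) :
    ∑ k ∈ Finset.range N, ‖iota eb (op (dp P k) v)‖ ^ 2 ≤ c * m * ‖iota eb v‖ ^ 2 := by
  simp only [(disj_dp hd' _).norm_sq eb]
  rw [Finset.sum_comm, norm_iota_sq, Finset.mul_sum]
  refine Finset.sum_le_sum fun x hx => ?_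
  rw [← Finset.mul_sum, mul_comm]
  gcongr
  refine (sum_dp_le hc h x N).trans ?_
  gcongr
  exact hv x (Finsupp.mem_support_iff.1 hx)

lemma norm_Lp_sq (v : W H J →₀ ℂ) (N m : ℕ) (hv : ∀ x, v x ≠ 0 → dg x ≤ N ∧ tl len x ≤ m) :
    ‖iota eb (op (D.Lp j0) v)‖ ^ 2 ≤ 64 * N * m / D.n * ‖iota eb v‖ ^ 2 := by
  have e1 : op (D.Lp j0) v =
      ∑ k ∈ Finset.range N, (op (dp (D.P2 j0) k) v - op (dp (D.P1 j0) k) v) := by
    simp only [Finsupp.linearCombination_apply, Finsupp.sum, ← Finset.sum_sub_distrib, ← smul_sub]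
    rw [Finset.sum_comm]
    refine Finset.sum_congr rfl fun x hx => ?_
    rw [D.Lp_eq j0 x N (hv x (Finsupp.mem_support_iff.1 hx)).1, Finset.smul_sum]
  have hc : (0 : ℝ) ≤ 16 / D.n := by positivity
  have h1 := sum_op_dp_le hc (D.disj_P1 j0) (D.norm_P1 j0) v N m fun x hx => (hv x hx).2
  have h2 := sum_op_dp_le hc (D.disj_P2 j0) (D.norm_P2 j0) v N m fun x hx => (hv x hx).2
  rw [e1, map_sum]
  calc _ ≤ (∑ k ∈ Finset.range N, (‖iota eb (op (dp (D.P2 j0) k) v)‖ +
        ‖iota eb (op (dp (D.P1 j0) k) v)‖)) ^ 2 := by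
        gcongr
        refine (norm_sum_le _ _).trans (Finset.sum_le_sum fun k _ => ?_)
        rw [map_sub]
        exact norm_sub_le _ _
    _ ≤ N * ∑ k ∈ Finset.range N, (‖iota eb (op (dp (D.P2 j0) k) v)‖ +
        ‖iota eb (op (dp (D.P1 j0) k) v)‖) ^ 2 := by
        simpa using sq_sum_le_card_mul_sum_sq (s := Finset.range N)
          (f := fun k => ‖iota eb (op (dp (D.P2 j0) k) v)‖ + ‖iota eb (op (dp (D.P1 j0) k) v)‖)
    _ ≤ N * ∑ k ∈ Finset.range N, (2 * ‖iota eb (op (dp (D.P2 j0) k) v)‖ ^ 2 +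
        2 * ‖iota eb (op (dp (D.P1 j0) k) v)‖ ^ 2) := by
        gcongr with k
        nlinarith [sq_nonneg (‖iota eb (op (dp (D.P2 j0) k) v)‖ -
          ‖iota eb (op (dp (D.P1 j0) k) v)‖)]
    _ ≤ N * (2 * (16 / D.n * m * ‖iota eb v‖ ^ 2) + 2 * (16 / D.n * m * ‖iota eb v‖ ^ 2)) := by
        rw [Finset.sum_add_distrib, ← Finset.mul_sum, ← Finset.mul_sum]
        gcongr
    _ = _ := by ring

/-- weight -/
def wt (w : W H J) : ℕ := tl len w + dg w * D.n

lemma wt_cons (x : H) (j : J) (w : W H J) : D.wt (cons x j w) = len x + D.n + D.wt w := by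
  simp only [wt, tl, dg]; ring

lemma wt_lam (g : H) (w : W H J) : D.wt (lam g w) + len (hd w) = D.wt w + len (g * hd w) := by
  cases w <;> simp only [wt, tl, dg, lam, hd] <;> ring

lemma P1_wt {x y : W H J} (h : D.P1 j0 x y ≠ 0) : D.wt x ≤ D.wt y ∧ D.wt y ≤ D.wt x + 4 * D.n := by
  cases y with
  | one y => simp at h
  | cons u j v =>
    simp only [P1_cons, ne_eq, ite_eq_right_iff, Classical.not_imp] at h
    obtain ⟨⟨-, rfl⟩, h⟩ := h
    have h1 := D.supp _ _ h
    have h2 := D.wt_lam (u * D.γ) v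
    have h3 := D.len_mul (u * D.γ) (hd v)
    have h4 := D.len_mul u D.γ
    have h5 := D.len_mul D.γ⁻¹ (D.γ * hd v)
    have h6 := D.len_γ
    rw [D.len_inv, inv_mul_cancel_left] at h5
    simp only [hd_lam, mul_assoc, inv_mul_cancel_left] at h1 h2 h3
    rw [wt_cons]
    omega

lemma P2_wt {x y : W H J} (h : D.P2 j0 x y ≠ 0) : D.wt x ≤ D.wt y ∧ D.wt y ≤ D.wt x + 4 * D.n := by
  cases y with
  | one y => simp at h
  | cons u j v =>
    simp only [P2_cons, ne_eq, ite_eq_right_iff, Classical.not_imp] at h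
    obtain ⟨⟨-, rfl⟩, h⟩ := h
    have h1 := D.supp _ _ h
    have h2 := D.wt_lam (u * D.γ⁻¹) v
    have h3 := D.len_mul (u * D.γ⁻¹) (hd v)
    have h4 := D.len_mul u D.γ⁻¹
    have h5 := D.len_mul (u * D.γ⁻¹) D.γ
    have h6 := D.len_γ
    rw [D.len_inv] at h4
    rw [inv_mul_cancel_right] at h5
    rw [hd_lam, inv_mul_cancel_left] at h1
    rw [wt_cons]
    omega

lemma Lp_wt {x y : W H J} (h : D.Lp j0 x y ≠ 0) : D.wt x ≤ D.wt y ∧ D.wt y ≤ D.wt x + 4 * D.n := by
  induction x generalizing y with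
  | one x =>
    by_contra hc
    exact h (by simp [Lp, of_not_not (mt (D.P1_wt j0) hc), of_not_not (mt (D.P2_wt j0) hc)])
  | cons x j w ih =>
    by_contra hc
    apply h
    simp only [Lp, Finsupp.add_apply, Finsupp.sub_apply, of_not_not (mt (D.P1_wt j0) hc),
      of_not_not (mt (D.P2_wt j0) hc), sub_zero, zero_add]
    cases y with
    | one y => simp
    | cons y i v =>
      rw [mp_cons_cons]
      split_ifs with h1
      · obtain ⟨rfl, rfl⟩ := h1
        by_contra h2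
        have := ih h2
        simp only [wt_cons] at hc
        omega
      · rfl

lemma Lm_wt {x y : W H J} (h : D.Lm j0 x y ≠ 0) : D.wt y ≤ D.wt x := by
  have := D.transp_L j0 y x
  rw [op_bv, op_bv] at this
  exact (D.Lp_wt j0 fun h0 => h (by simp [this, h0])).1

/-- vectors of bounded weight -/
def Sup (m : ℕ) (v : W H J →₀ ℂ) : Prop := ∀ x, v x ≠ 0 → D.wt x ≤ m

omit [Group H] in
lemma op_ne_zero {t : W H J → W H J →₀ ℂ} {v : W H J →₀ ℂ} {y : W H J} (h : op t v y ≠ 0) :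
    ∃ x, v x ≠ 0 ∧ t x y ≠ 0 := by
  rw [Finsupp.linearCombination_apply, Finsupp.sum, Finsupp.finsetSum_apply] at h
  obtain ⟨x, -, hx⟩ := Finset.exists_ne_zero_of_sum_ne_zero h
  exact ⟨x, left_ne_zero_of_mul hx, right_ne_zero_of_mul hx⟩

variable {D}

lemma Sup.mono {m m' : ℕ} {v : W H J →₀ ℂ} (h : D.Sup m v) (hm : m ≤ m') : D.Sup m' v :=
  fun x hx => (h x hx).trans hm

lemma Sup.Lm {m : ℕ} {v : W H J →₀ ℂ} (h : D.Sup m v) : D.Sup m (op (D.Lm j0) v) := by
  intro y hy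
  obtain ⟨x, h1, h2⟩ := op_ne_zero hy
  exact (D.Lm_wt j0 h2).trans (h x h1)

lemma Sup.LL {m : ℕ} {v : W H J →₀ ℂ} (h : D.Sup m v) : D.Sup (m + 4 * D.n) (D.LL j0 v) := by
  intro y hy
  by_cases h0 : op (D.Lm j0) v y = 0
  · have : op (D.Lp j0) v y ≠ 0 := by simpa [Data.LL, h0] using hy
    obtain ⟨x, h1, h2⟩ := op_ne_zero this
    have := h x h1
    have := (D.Lp_wt j0 h2).2
    omega
  · exact (h.Lm j0 y h0).trans (Nat.le_add_right _ _)

lemma Sup.norm_Lp {N : ℕ} {v : W H J →₀ ℂ} (h : D.Sup (4 * D.n * N) v) :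
    ‖iota eb (op (D.Lp j0) v)‖ ≤ 32 * N * ‖iota eb v‖ := by
  have h1 := D.norm_Lp_sq j0 v (4 * N) (4 * D.n * N) fun x hx => by
    have := h x hx
    have hn := D.n_pos
    rw [wt] at this
    refine ⟨?_, by omega⟩
    by_contra hc
    push Not at hc
    nlinarith
  have hn : (D.n : ℝ) ≠ 0 := by exact_mod_cast D.n_pos.ne'
  refine abs_le_of_sq_le_sq' (h1.trans_eq ?_) (by positivity) |>.2
  push_cast
  field_simp
  ring

lemma Sup.norm_LL {N : ℕ} {v : W H J →₀ ℂ} (h : D.Sup (4 * D.n * N) v) :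
    ‖iota eb (D.LL j0 v)‖ ≤ 64 * N * ‖iota eb v‖ := by
  have h1 := h.norm_Lp j0
  have h2 := (h.Lm j0).norm_Lp j0
  have h3 := (D.transp_L j0).inner eb (op (D.Lm j0) v) v
  have h4 : ‖iota eb (op (D.Lm j0) v)‖ ^ 2 ≤
      32 * N * ‖iota eb (op (D.Lm j0) v)‖ * ‖iota eb v‖ := by
    rw [norm_sq_eq_re, ← h3]
    refine (Complex.re_le_norm _).trans ((norm_inner_le_norm _ _).trans ?_)
    gcongr
  have h5 : ‖iota eb (op (D.Lm j0) v)‖ ≤ 32 * N * ‖iota eb v‖ := by
    by_contra hc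
    push Not at hc
    have : 0 ≤ 32 * N * ‖iota eb v‖ := by positivity
    nlinarith
  rw [Data.LL, LinearMap.sub_apply, map_sub]
  linarith [norm_sub_le (iota eb (op (D.Lp j0) v)) (iota eb (op (D.Lm j0) v))]

lemma Sup.pow {N : ℕ} {v : W H J →₀ ℂ} (h : D.Sup (4 * D.n * N) v) (k : ℕ) :
    D.Sup (4 * D.n * (N + k)) ((D.LL j0 ^ k) v) ∧
      ‖iota eb ((D.LL j0 ^ k) v)‖ ≤ 64 ^ k * N.ascFactorial k * ‖iota eb v‖ := by
  induction k with
  | zero => simpa using h
  | succ k ih =>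
    rw [pow_succ', Module.End.mul_apply]
    refine ⟨(ih.1.LL j0).mono (by ring_nf; rfl), (ih.1.norm_LL j0).trans ?_⟩
    rw [Nat.ascFactorial_succ]
    push_cast
    calc _ ≤ 64 * ((N : ℝ) + k) * (64 ^ k * N.ascFactorial k * ‖iota eb v‖) := by
          gcongr; exact ih.2
      _ = _ := by ring

lemma Sup.bound {N : ℕ} {v : W H J →₀ ℂ} (h : D.Sup (4 * D.n * (N + 1)) v) (k : ℕ) :
    ‖iota eb ((D.LL j0 ^ k) v)‖ ≤ (2 ^ N * ‖iota eb v‖) * 128 ^ k * k ! := by
  refine (h.pow j0 k).2.trans ?_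
  rw [Nat.ascFactorial_eq_factorial_mul_choose]
  have : ((N + k).choose k : ℝ) ≤ 2 ^ (N + k) := by exact_mod_cast Nat.choose_le_two_pow _ _
  push_cast
  calc _ ≤ (64 : ℝ) ^ k * (k ! * 2 ^ (N + k)) * ‖iota eb v‖ := by gcongr
    _ = _ := by rw [show (128 : ℝ) = 64 * 2 by norm_num, mul_pow, pow_add]; ring

variable (D)

lemma gen : Gen eb (D.LL j0) 128 := by
  refine ⟨D.skew j0, fun v => ?_⟩
  have : D.Sup (4 * D.n * (v.support.sup D.wt + 1)) v := fun x hx => by
    have h1 : D.wt x ≤ v.support.sup D.wt := Finset.le_sup (Finsupp.mem_support_iff.2 hx)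
    have := D.n_pos
    nlinarith
  exact ⟨_, this.bound j0⟩

end Data

end

end Vale.Agent.P086
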