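import Vale.Agent.P086.Bas

open scoped InnerProductSpace ComplexConjugate Nat

namespace Vale.Agent.P086

variable {X : Type} {K : Type} [NormedAddCommGroup K] [InnerProductSpace ℂ K]

lemma hasSum_inner_antidiag {a b : ℕ → K} {A B : K} (ha : HasSum a A) (hb : HasSum b B)
    (ha' : Summable fun n => ‖a n‖) (hb' : Summable fun n => ‖b n‖) :
    HasSum (fun N => ∑ p ∈ Finset.HasAntidiagonal.antidiagonal N, ⟪a p.1, b p.2⟫_ℂ) ⟪A, B⟫_ℂ := by
  have hs : Summable fun p : ℕ × ℕ => ⟪a p.1, b p.2⟫_ℂ :=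
    Summable.of_norm_bounded (ha'.mul_of_nonneg hb' (fun _ => norm_nonneg _)
      (fun _ => norm_nonneg _)) fun p => norm_inner_le_norm _ _
  have h1 : ∀ l, HasSum (fun k => ⟪a l, b k⟫_ℂ) ⟪a l, B⟫_ℂ := fun l =>
    (innerSL ℂ (a l)).hasSum hb
  have h2 : HasSum (fun l => ⟪a l, B⟫_ℂ) ⟪A, B⟫_ℂ := by
    have := ((innerSL ℂ B).hasSum ha).star
    simpa using this
  have h3 : HasSum (fun p : ℕ × ℕ => ⟪a p.1, b p.2⟫_ℂ) ⟪A, B⟫_ℂ := by
    have := hs.hasSum.prod_fiberwise h1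
    rw [← this.unique h2]
    exact hs.hasSum
  have h4 := (Finset.HasAntidiagonal.sigmaAntidiagonalEquivProd (A := ℕ)).hasSum_iff.2 h3
  refine h4.sigma fun N => ?_
  have := hasSum_fintype fun p : Finset.HasAntidiagonal.antidiagonal N => ⟪a p.1.1, b p.1.2⟫_ℂ
  rw [Finset.sum_coe_sort (Finset.HasAntidiagonal.antidiagonal N) fun p => ⟪a p.1, b p.2⟫_ℂ] at this
  exact this

/-- inner derivation -/
noncomputable def ad {A : Type} [Ring A] [Algebra ℂ A] (Λ : A) : Module.End ℂ A :=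
  LinearMap.mulLeft ℂ Λ - LinearMap.mulRight ℂ Λ

lemma ad_apply {A : Type} [Ring A] [Algebra ℂ A] (Λ t : A) : ad Λ t = Λ * t - t * Λ := rfl

lemma ad_mul {A : Type} [Ring A] [Algebra ℂ A] (Λ x y : A) :
    ad Λ (x * y) = ad Λ x * y + x * ad Λ y := by
  simp only [ad_apply]; noncomm_ring

lemma ad_pow {A : Type} [Ring A] [Algebra ℂ A] (Λ t : A) (N : ℕ) :
    (ad Λ ^ N) t = ∑ p ∈ Finset.HasAntidiagonal.antidiagonal N,
      ((N.choose p.1 : ℂ) * (-1) ^ p.2) • (Λ ^ p.1 * t * Λ ^ p.2) := by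
  have hc : Commute (LinearMap.mulLeft ℂ Λ : Module.End ℂ A) (LinearMap.mulRight ℂ (-Λ)) :=
    LinearMap.commute_mulLeft_right Λ (-Λ)
  have h0 : ad Λ = (LinearMap.mulLeft ℂ Λ : Module.End ℂ A) + LinearMap.mulRight ℂ (-Λ) := by
    ext x; simp [ad, sub_eq_add_neg]
  rw [h0, hc.add_pow', LinearMap.sum_apply]
  refine Finset.sum_congr rfl fun p _ => ?_
  rw [LinearMap.pow_mulLeft, LinearMap.pow_mulRight, ← Nat.cast_smul_eq_nsmul ℂ,
    ← neg_one_smul ℂ Λ, smul_pow]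
  simp [smul_smul, mul_assoc]

/-- terms of the exponential series -/
noncomputable def term (e : HilbertBasis X ℂ K) (Λ : Module.End ℂ (X →₀ ℂ)) (s : ℝ)
    (v : X →₀ ℂ) (k : ℕ) : K :=
  ((s : ℂ) ^ k / k !) • iota e ((Λ ^ k) v)

/-- skew symmetric with analytic vectors -/
structure Gen (e : HilbertBasis X ℂ K) (Λ : Module.End ℂ (X →₀ ℂ)) (r : ℝ) : Prop where
  skew : ∀ v w, ⟪iota e (Λ v), iota e w⟫_ℂ = -⟪iota e v, iota e (Λ w)⟫_ℂ
  bd : ∀ v, ∃ C : ℝ, ∀ k, ‖iota e ((Λ ^ k) v)‖ ≤ C * r ^ k * k !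

/-- `U` is the exponential of `s Λ` -/
def IsFlow (e : HilbertBasis X ℂ K) (Λ : Module.End ℂ (X →₀ ℂ)) (s : ℝ) (U : K →L[ℂ] K) : Prop :=
  ∀ v, HasSum (term e Λ s v) (U (iota e v))

variable {e : HilbertBasis X ℂ K} {Λ : Module.End ℂ (X →₀ ℂ)} {r s : ℝ}

lemma norm_term (v : X →₀ ℂ) (k : ℕ) :
    ‖term e Λ s v k‖ = |s| ^ k / k ! * ‖iota e ((Λ ^ k) v)‖ := by
  simp [term, norm_smul]

lemma term_le {v : X →₀ ℂ} {C : ℝ} {p : ℕ} (hr : 0 ≤ r) (hs : r * |s| ≤ 1 / 2)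
    (h : ∀ k, ‖iota e ((Λ ^ (k + p)) v)‖ ≤ C * r ^ k * (k + p)!) (k : ℕ) :
    ‖term e Λ s v (k + p)‖ ≤ C * |s| ^ p * (1 / 2) ^ k := by
  have hC : 0 ≤ C := by
    have := (norm_nonneg _).trans (h 0)
    simp only [pow_zero, mul_one] at this
    exact nonneg_of_mul_nonneg_left this (by positivity)
  rw [norm_term]
  have hf : (0 : ℝ) < (k + p)! := by positivity
  calc _ ≤ |s| ^ (k + p) / (k + p)! * (C * r ^ k * (k + p)!) := by gcongr; exact h k
    _ = C * |s| ^ p * (r * |s|) ^ k := by field_simp; ring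
    _ ≤ _ := by gcongr

lemma Gen.summable (h : Gen e Λ r) (hr : 0 ≤ r) (hs : r * |s| ≤ 1 / 2) (v : X →₀ ℂ) :
    Summable fun k => ‖term e Λ s v k‖ := by
  obtain ⟨C, hC⟩ := h.bd v
  refine Summable.of_nonneg_of_le (fun _ => norm_nonneg _)
    (fun k => term_le (p := 0) hr hs hC k) (summable_geometric_two.mul_left _)

lemma Gen.skew_pow (h : Gen e Λ r) (l : ℕ) (v w : X →₀ ℂ) :
    ⟪iota e ((Λ ^ l) v), iota e w⟫_ℂ = (-1) ^ l * ⟪iota e v, iota e ((Λ ^ l) w)⟫_ℂ := by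
  induction l generalizing w with
  | zero => simp
  | succ l ih =>
    rw [pow_succ', Module.End.mul_apply, h.skew, ih, pow_succ, ← pow_succ', pow_succ,
      Module.End.mul_apply]
    ring

lemma Gen.conj (h : Gen e Λ r) (hr : 0 ≤ r) (hs : r * |s| ≤ 1 / 2) {T : K →L[ℂ] K}
    {t : Module.End ℂ (X →₀ ℂ)} (hT : Lift e T t) {v w : X →₀ ℂ} {A B : K}
    (hA : HasSum (term e Λ s w) A) (hB : HasSum (term e Λ s v) B) :
    HasSum (fun N => ((-s : ℂ) ^ N / N !) * ⟪iota e w, iota e ((ad Λ ^ N) t v)⟫_ℂ)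
      ⟪A, T B⟫_ℂ := by
  have h1 := hasSum_inner_antidiag hA (T.hasSum hB) (h.summable hr hs w)
    (Summable.of_nonneg_of_le (fun _ => norm_nonneg _) (fun k => T.le_opNorm _)
      ((h.summable hr hs v).mul_left _))
  convert h1 using 2 with N
  rw [ad_pow, LinearMap.sum_apply, map_sum, inner_sum, Finset.mul_sum]
  refine Finset.sum_congr rfl fun p hp => ?_
  obtain ⟨l, k⟩ := p
  rw [Finset.HasAntidiagonal.mem_antidiagonal] at hp
  subst hp
  simp only [term, map_smul, inner_smul_left, inner_smul_right, hT _, h.skew_pow,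
    LinearMap.smul_apply, Module.End.mul_apply, map_div₀, map_pow, Complex.conj_ofReal,
    map_natCast]
  have h2 : ((l + k).choose l : ℂ) * k ! * l ! = (l + k)! := by
    rw [add_comm]; exact_mod_cast Nat.add_choose_mul_factorial_mul_factorial k l
  have h3 : (l ! : ℂ) ≠ 0 := by exact_mod_cast l.factorial_ne_zero
  have h4 : (k ! : ℂ) ≠ 0 := by exact_mod_cast k.factorial_ne_zero
  have h5 : ((l + k).choose l : ℂ) ≠ 0 := by
    exact_mod_cast (Nat.choose_pos (Nat.le_add_right l k)).ne'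
  have h6 : (-1 : ℂ) ^ k * (-1) ^ k = 1 := by rw [← mul_pow]; simp
  rw [← h2, neg_pow (s : ℂ)]
  field_simp
  rw [pow_add, pow_add]
  linear_combination ((-1) ^ l * (s : ℂ) ^ l * (s : ℂ) ^ k *
    ⟪iota e w, iota e ((Λ ^ l) (t ((Λ ^ k) v)))⟫_ℂ) * h6

lemma Gen.inner_eq (h : Gen e Λ r) (hr : 0 ≤ r) (hs : r * |s| ≤ 1 / 2) {v w : X →₀ ℂ} {A B : K}
    (hA : HasSum (term e Λ s w) A) (hB : HasSum (term e Λ s v) B) :
    ⟪A, B⟫_ℂ = ⟪iota e w, iota e v⟫_ℂ := by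
  have h1 := h.conj hr hs (T := 1) (t := 1) (fun _ => rfl) hA hB
  have h2 : ∀ N, (ad Λ ^ (N + 1)) 1 = 0 := fun N => by
    rw [pow_succ, Module.End.mul_apply, ad_apply, mul_one, one_mul, sub_self, map_zero]
  refine h1.unique ?_
  convert hasSum_single 0 _ using 1
  · simp
  · intro N hN
    obtain ⟨N, rfl⟩ := Nat.exists_eq_succ_of_ne_zero hN
    simp [h2]

variable [CompleteSpace K]

lemma Gen.exists_flow (h : Gen e Λ r) (hr : 0 ≤ r) (hs : r * |s| ≤ 1 / 2) :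
    ∃ U, IsFlow e Λ s U := by
  classical
  have hsum : ∀ v, HasSum (term e Λ s v) (∑' k, term e Λ s v k) := fun v =>
    (h.summable hr hs v).of_norm.hasSum
  have horth : Orthonormal ℂ fun x => ∑' k, term e Λ s (Finsupp.single x 1) k := by
    rw [orthonormal_iff_ite]
    intro x y
    rw [h.inner_eq hr hs (hsum _) (hsum _)]
    simpa using orthonormal_iff_ite.1 e.orthonormal x y
  refine ⟨(isoOf e _ horth).toContinuousLinearMap, fun v => ?_⟩
  induction v using Finsupp.induction_linear with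
  | zero =>
    convert hasSum_zero (α := K) (β := ℕ) (L := SummationFilter.unconditional ℕ) with k
    · simp [term]
    · simp
  | add v w hv hw =>
    convert hv.add hw using 1
    · ext k; simp [term]
    · simp
  | single x c =>
    convert (hsum (Finsupp.single x 1)).const_smul c using 1
    · ext k
      have e1 : Finsupp.single x c = c • Finsupp.single x (1 : ℂ) := by simp
      rw [e1]
      simp only [term, map_smul]
      rw [smul_comm]
    · simp [isoOf_apply]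

omit [CompleteSpace K] in
lemma ext_iota {S T : K →L[ℂ] K}
    (h : ∀ v w, ⟪iota e w, S (iota e v)⟫_ℂ = ⟪iota e w, T (iota e v)⟫_ℂ) : S = T := by
  refine ext_basis e fun x => vec_ext e fun y => ?_
  simpa using h (Finsupp.single x 1) (Finsupp.single y 1)

lemma Gen.star_eq (h : Gen e Λ r) {U V : K →L[ℂ] K} (hU : IsFlow e Λ s U)
    (hV : IsFlow e Λ (-s) V) : star U = V := by
  refine ext_iota (e := e) fun v w => ?_
  rw [inner_star_right]
  have h1 := (innerSL ℂ (iota e w)).hasSum (hV v)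
  have h2 := ((innerSL ℂ (iota e v)).hasSum (hU w)).star
  simp only [innerSL_apply_apply, RCLike.star_def, inner_conj_symm] at h1 h2
  refine h2.unique ?_
  convert h1 using 2 with k
  simp only [term, inner_smul_left, inner_smul_right, h.skew_pow, map_div₀, map_pow,
    Complex.conj_ofReal, map_natCast, Complex.ofReal_neg]
  rw [neg_pow (s : ℂ)]
  ring

lemma Gen.star_mul (h : Gen e Λ r) (hr : 0 ≤ r) (hs : r * |s| ≤ 1 / 2) {U : K →L[ℂ] K}
    (hU : IsFlow e Λ s U) : star U * U = 1 := by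
  refine ext_iota (e := e) fun v w => ?_
  rw [mul_apply_eq_comp, inner_star_right, h.inner_eq hr hs (hU w) (hU v)]
  rfl

lemma Gen.flow_star (h : Gen e Λ r) (hr : 0 ≤ r) (hs : r * |s| ≤ 1 / 2) {U : K →L[ℂ] K}
    (hU : IsFlow e Λ s U) : IsFlow e Λ (-s) (star U) := by
  obtain ⟨V, hV⟩ := h.exists_flow (s := -s) hr (by rwa [abs_neg])
  rwa [h.star_eq hU hV]

lemma Gen.unitary (h : Gen e Λ r) (hr : 0 ≤ r) (hs : r * |s| ≤ 1 / 2) {U : K →L[ℂ] K}
    (hU : IsFlow e Λ s U) : U ∈ unitary (K →L[ℂ] K) := by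
  refine ⟨h.star_mul hr hs hU, ?_⟩
  simpa using h.star_mul (s := -s) hr (by rwa [abs_neg]) (h.flow_star hr hs hU)

lemma Gen.comm (h : Gen e Λ r) (hr : 0 ≤ r) (hs : r * |s| ≤ 1 / 2) {U T R : K →L[ℂ] K}
    (hU : IsFlow e Λ s U) {t ρ ρ' : Module.End ℂ (X →₀ ℂ)} (hT : Lift e T t) (hR : Lift e R ρ)
    (hR' : Lift e (star R) ρ') (hc : ∀ N, ρ * (ad Λ ^ N) t = (ad Λ ^ N) t * ρ) :
    R * (star U * T * U) = (star U * T * U) * R := by
  refine ext_iota (e := e) fun v w => ?_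
  simp only [mul_apply_eq_comp]
  rw [← inner_star_left R, hR', inner_star_right, inner_star_right, hR]
  refine (h.conj hr hs hT (hU _) (hU _)).unique ?_
  convert h.conj hr hs hT (hU w) (hU (ρ v)) using 3 with N
  rw [← hR', inner_star_left, hR]
  exact congrArg (fun F : Module.End ℂ (X →₀ ℂ) => ⟪iota e w, iota e (F v)⟫_ℂ) (hc N)

omit [CompleteSpace K] in
lemma IsFlow.rem {U : K →L[ℂ] K} (hU : IsFlow e Λ s U) (hr : 0 ≤ r) (hs : r * |s| ≤ 1 / 2)
    {v : X →₀ ℂ} {C : ℝ} {p : ℕ}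
    (h : ∀ k, ‖iota e ((Λ ^ (k + p)) v)‖ ≤ C * r ^ k * (k + p)!) :
    ‖U (iota e v) - ∑ k ∈ Finset.range p, term e Λ s v k‖ ≤ 2 * C * |s| ^ p := by
  have h1 := (hasSum_nat_add_iff' p).2 (hU v)
  have h2 := hasSum_geometric_two.mul_left (C * |s| ^ p)
  have := h1.norm_le_of_bounded h2 (term_le hr hs h)
  linarith

end Vale.Agent.P086
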