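import Vale.Agent.P086.Flow

open scoped InnerProductSpace ComplexConjugate Classical

namespace Vale.Agent.P086

/-- alternating words -/
inductive W (H J : Type) : Type
  | one : H → W H J
  | cons : H → J → W H J → W H J

noncomputable section

variable {H J : Type} [Group H]

namespace W

/-- first group letter -/
def hd : W H J → H
  | one g => g
  | cons g _ _ => g

/-- left multiplication -/
def lam (g : H) : W H J → W H J
  | one x => one (g * x)
  | cons x j w => cons (g * x) j w

/-- right multiplication -/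
def rho (h : H) : W H J → W H J
  | one x => one (x * h)
  | cons x j w => cons x j (rho h w)

/-- right creation -/
def app (j : J) : W H J → W H J
  | one x => cons x j (one 1)
  | cons x i w => cons x i (app j w)

lemma lam_o (g x : H) : lam g (one x : W H J) = one (g * x) := rfl

lemma lam_c (g x : H) (j : J) (w : W H J) : lam g (cons x j w) = cons (g * x) j w := rfl

@[simp] lemma lam_lam (g h : H) (w : W H J) : lam g (lam h w) = lam (g * h) w := by
  cases w <;> simp [lam, mul_assoc]

@[simp] lemma lam_one (w : W H J) : lam (1 : H) w = w := by cases w <;> simp [lam]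

@[simp] lemma hd_lam (g : H) (w : W H J) : hd (lam g w) = g * hd w := by
  cases w <;> simp [lam, hd]

lemma lam_inj (g : H) : Function.Injective (lam g : W H J → W H J) := fun v w h => by
  simpa using congrArg (lam g⁻¹) h

lemma lam_eq_iff (g : H) (v w : W H J) : lam g v = w ↔ lam g⁻¹ w = v := by
  constructor <;> rintro rfl <;> simp

@[simp] lemma rho_rho (g h : H) (w : W H J) : rho g (rho h w) = rho (h * g) w := by
  induction w <;> simp_all [rho, mul_assoc]

@[simp] lemma rho_one (w : W H J) : rho (1 : H) w = w := by induction w <;> simp_all [rho]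

lemma rho_inj (g : H) : Function.Injective (rho g : W H J → W H J) := fun v w h => by
  simpa using congrArg (rho g⁻¹) h

lemma rho_eq_iff (g : H) (v w : W H J) : rho g v = w ↔ rho g⁻¹ w = v := by
  constructor <;> rintro rfl <;> simp

omit [Group H] in
lemma cons_inj (g : H) (j : J) : Function.Injective (cons g j : W H J → W H J) := fun v w h => by
  simpa using h

lemma app_ne_one (j : J) (w : W H J) (g : H) : app j w ≠ one g := by cases w <;> simp [app]

lemma app_inj (j : J) : Function.Injective (app j : W H J → W H J) := by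
  intro v
  induction v with
  | one x =>
    intro w h
    cases w with
    | one y => simpa [app] using h
    | cons y i w => simp [app, (app_ne_one j w 1).symm] at h
  | cons x k v ih =>
    intro w h
    cases w with
    | one y => simp [app, app_ne_one j v 1] at h
    | cons y i w =>
      simp only [app, cons.injEq] at h
      rw [h.1, h.2.1, ih h.2.2]

end W

open W

/-- basis vector -/
abbrev bv (x : W H J) : W H J →₀ ℂ := Finsupp.single x 1

/-- operator induced by a map of words -/
abbrev mp (f : W H J → W H J) : Module.End ℂ (W H J →₀ ℂ) := Finsupp.lmapDomain ℂ ℂ f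

/-- operator given by its columns -/
abbrev op (f : W H J → W H J →₀ ℂ) : Module.End ℂ (W H J →₀ ℂ) := Finsupp.linearCombination ℂ f

omit [Group H] in
@[simp] lemma mp_bv (f : W H J → W H J) (x : W H J) : mp f (bv x) = bv (f x) := by simp

omit [Group H] in
@[simp] lemma op_bv (f : W H J → W H J →₀ ℂ) (x : W H J) : op f (bv x) = f x := by simp

omit [Group H] in
lemma end_ext {s t : Module.End ℂ (W H J →₀ ℂ)} (h : ∀ x, s (bv x) = t (bv x)) : s = t := by
  ext1 x
  ext1
  exact h x

omit [Group H] in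
lemma mp_mp (f g : W H J → W H J) (v : W H J →₀ ℂ) : mp f (mp g v) = mp (f ∘ g) v :=
  Finsupp.mapDomain_comp.symm

omit [Group H] in
@[simp] lemma mp_cons_one (x y : H) (j : J) (v : W H J →₀ ℂ) : mp (cons x j) v (one y) = 0 :=
  Finsupp.mapDomain_of_notMem_range _ _ (by simp)

omit [Group H] in
@[simp] lemma mp_cons_cons (x y : H) (i j : J) (v : W H J →₀ ℂ) (w : W H J) :
    mp (cons x j) v (cons y i w) = if x = y ∧ j = i then v w else 0 := by
  split_ifs with h
  · obtain ⟨rfl, rfl⟩ := h
    exact Finsupp.mapDomain_apply (cons_inj x j) v w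
  · refine Finsupp.mapDomain_of_notMem_range _ _ ?_
    rintro ⟨u, hu⟩
    simp only [cons.injEq] at hu
    exact h ⟨hu.1, hu.2.1⟩

omit [Group H] in
@[simp] lemma md_cons_one (x y : H) (j : J) (v : W H J →₀ ℂ) :
    Finsupp.mapDomain (cons x j) v (one y) = 0 := mp_cons_one x y j v

/-- left annihilation -/
def ells (j : J) : W H J → W H J →₀ ℂ
  | one _ => 0
  | cons x i w => if x = 1 ∧ i = j then bv w else 0

/-- right annihilation -/
def rs (j : J) : W H J → W H J →₀ ℂ
  | one _ => 0
  | cons x i w => (if w = one 1 ∧ i = j then bv (one x) else 0) + mp (cons x i) (rs j w)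

/-- left semicircular operator -/
def zl (j : J) : Module.End ℂ (W H J →₀ ℂ) := mp (cons 1 j) + op (ells j)

/-- right semicircular operator -/
def zr (j : J) : Module.End ℂ (W H J →₀ ℂ) := mp (app j) + op (rs j)

lemma transp_ell (j : J) : Transp (mp (cons (1 : H) j)) (op (ells j)) := by
  intro x y
  rw [mp_bv, op_bv]
  cases y with
  | one y => simp [ells]
  | cons y i w =>
    simp only [ells, Finsupp.single_apply, cons.injEq]
    by_cases h : y = 1 ∧ i = j
    · obtain ⟨rfl, rfl⟩ := h
      simp [Finsupp.single_apply, eq_comm]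
    · rw [if_neg h, if_neg fun h' => h ⟨h'.1.symm, h'.2.1.symm⟩]
      simp

lemma rs_apply (j : J) (y x : W H J) : rs j y x = if app j x = y then 1 else 0 := by
  induction y generalizing x with
  | one y => simp [rs, app_ne_one]
  | cons y i w ih =>
    cases x with
    | one x =>
      simp only [rs, Finsupp.add_apply, mp_cons_one, add_zero, app, cons.injEq]
      by_cases h : w = one 1 ∧ i = j
      · obtain ⟨rfl, rfl⟩ := h
        simp [Finsupp.single_apply, eq_comm]
      · rw [if_neg h, if_neg fun h' => h ⟨h'.2.2.symm, h'.2.1.symm⟩]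
        simp
    | cons x k v =>
      have h0 : (if w = one 1 ∧ i = j then bv (one y) else 0 : W H J →₀ ℂ) (cons x k v) = 0 := by
        split_ifs <;> simp
      simp only [rs, Finsupp.add_apply, mp_cons_cons, h0, zero_add, app, cons.injEq, ih]
      by_cases h : y = x ∧ i = k
      · obtain ⟨rfl, rfl⟩ := h
        simp
      · rw [if_neg h, if_neg fun h' => h ⟨h'.1.symm, h'.2.1.symm⟩]

lemma transp_app (j : J) : Transp (mp (app j : W H J → W H J)) (op (rs j)) := by
  intro x y
  rw [mp_bv, op_bv, rs_apply, Finsupp.single_apply]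
  split_ifs <;> simp

lemma transp_lam (g : H) : Transp (mp (lam g : W H J → W H J)) (mp (lam g⁻¹)) := by
  intro x y
  simp only [mp_bv, Finsupp.single_apply, lam_eq_iff g x y]
  split_ifs <;> simp

lemma transp_rho (g : H) : Transp (mp (rho g : W H J → W H J)) (mp (rho g⁻¹)) := by
  intro x y
  simp only [mp_bv, Finsupp.single_apply, rho_eq_iff g x y]
  split_ifs <;> simp

lemma ells_mp_cons (x : H) (i k : J) (v : W H J →₀ ℂ) :
    op (ells i) (mp (cons x k) v) = if x = 1 ∧ k = i then v else 0 := by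
  have : op (ells i) * mp (cons x k) =
      (if x = 1 ∧ k = i then 1 else 0 : Module.End ℂ (W H J →₀ ℂ)) := by
    refine end_ext fun w => ?_
    rw [Module.End.mul_apply, mp_bv, op_bv, ells]
    split_ifs <;> simp
  have h2 := congrArg (fun F : Module.End ℂ (W H J →₀ ℂ) => F v) this
  simp only [Module.End.mul_apply] at h2
  rw [h2]
  split_ifs <;> simp

lemma lam_rho (g h : H) :
    (mp (lam g) : Module.End ℂ (W H J →₀ ℂ)) * mp (rho h) = mp (rho h) * mp (lam g) := by
  refine end_ext fun w => ?_
  cases w <;> simp [lam, rho, mul_assoc]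

lemma lam_zr (g : H) (j : J) :
    (mp (lam g) : Module.End ℂ (W H J →₀ ℂ)) * zr j = zr j * mp (lam g) := by
  refine end_ext fun w => ?_
  simp only [Module.End.mul_apply, zr, LinearMap.add_apply, mp_bv, op_bv, map_add]
  cases w with
  | one x => simp [lam, app, rs]
  | cons x i w =>
    simp only [lam, app, rs, map_add, mp_mp]
    congr 2
    split_ifs <;> simp [lam]

lemma zl_rho (h : H) (j : J) :
    (zl j : Module.End ℂ (W H J →₀ ℂ)) * mp (rho h) = mp (rho h) * zl j := by
  refine end_ext fun w => ?_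
  simp only [Module.End.mul_apply, zl, LinearMap.add_apply, mp_bv, op_bv, map_add]
  cases w with
  | one x => simp [rho, ells]
  | cons x i w =>
    simp only [rho, ells]
    congr 1
    split_ifs <;> simp

lemma zl_zr (i j : J) : (zl i : Module.End ℂ (W H J →₀ ℂ)) * zr j = zr j * zl i := by
  refine end_ext fun w => ?_
  simp only [Module.End.mul_apply, zl, zr, LinearMap.add_apply, mp_bv, op_bv, map_add]
  cases w with
  | one x =>
    simp only [app, ells, rs, map_zero, add_zero, one.injEq, eq_comm (a := i)]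
  | cons x k w =>
    have h0 : op (ells i) (if w = one 1 ∧ k = j then bv (one x) else 0 : W H J →₀ ℂ) = 0 := by
      split_ifs <;> simp [ells]
    simp only [app, ells, rs, map_add, ells_mp_cons, h0, reduceCtorEq, false_and, if_false,
      zero_add]
    split_ifs <;> simp <;> abel

/-- canonical basis of the Fock space -/
def eb : HilbertBasis (W H J) ℂ (L2 (W H J)) := default

/-- left translation -/
def Lam (g : H) : L2 (W H J) →L[ℂ] L2 (W H J) := iso eb (lam g) (lam_inj g)

/-- right translation -/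
def Rho (g : H) : L2 (W H J) →L[ℂ] L2 (W H J) := iso eb (rho g) (rho_inj g)

/-- left semicircular -/
def ZL (j : J) : L2 (W H J) →L[ℂ] L2 (W H J) :=
  iso eb (cons 1 j) (cons_inj 1 j) + star (iso eb (cons 1 j) (cons_inj 1 j))

/-- right semicircular -/
def ZR (j : J) : L2 (W H J) →L[ℂ] L2 (W H J) :=
  iso eb (app j) (app_inj j) + star (iso eb (app j) (app_inj j))

lemma lift_Lam (g : H) : Lift eb (Lam g : L2 (W H J) →L[ℂ] _) (mp (lam g)) := lift_iso _ _
lemma lift_Rho (g : H) : Lift eb (Rho g : L2 (W H J) →L[ℂ] _) (mp (rho g)) := lift_iso _ _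
lemma lift_ZL (j : J) : Lift eb (ZL j : L2 (W H J) →L[ℂ] _) (zl j) :=
  (lift_iso _ _).add ((lift_iso _ _).star (transp_ell j))
lemma lift_ZR (j : J) : Lift eb (ZR j : L2 (W H J) →L[ℂ] _) (zr j) :=
  (lift_iso _ _).add ((lift_iso _ _).star (transp_app j))

omit [Group H] in
lemma Lift.apply_eb {T : L2 (W H J) →L[ℂ] L2 (W H J)} {t : Module.End ℂ (W H J →₀ ℂ)}
    (h : Lift eb T t) (x : W H J) : T (eb x) = iota eb (t (bv x)) := by
  simpa using h (bv x)

@[simp] lemma Lam_eb (g : H) (x : W H J) : Lam g (eb x) = eb (lam g x) := iso_apply _ _ _ _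
@[simp] lemma Rho_eb (g : H) (x : W H J) : Rho g (eb x) = eb (rho g x) := iso_apply _ _ _ _

lemma ZL_eb (j : J) (x : W H J) : ZL j (eb x) = eb (cons 1 j x) + iota eb (ells j x) := by
  simp [(lift_ZL j).apply_eb, zl]

lemma star_Lam (g : H) : star (Lam g : L2 (W H J) →L[ℂ] _) = Lam g⁻¹ :=
  ext_basis eb fun x => by simp [((lift_Lam g).star (transp_lam g)).apply_eb]

lemma star_Rho (g : H) : star (Rho g : L2 (W H J) →L[ℂ] _) = Rho g⁻¹ :=
  ext_basis eb fun x => by simp [((lift_Rho g).star (transp_rho g)).apply_eb]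

lemma star_ZL (j : J) : star (ZL j : L2 (W H J) →L[ℂ] _) = ZL j := by simp [ZL, add_comm]

lemma star_ZR (j : J) : star (ZR j : L2 (W H J) →L[ℂ] _) = ZR j := by simp [ZR, add_comm]

lemma norm_ZL (j : J) : ‖(ZL j : L2 (W H J) →L[ℂ] _)‖ ≤ 2 := by
  have := norm_iso_le (eb (H := H) (J := J)) (cons 1 j) (cons_inj 1 j)
  refine (norm_add_le _ _).trans ?_
  rw [norm_star_op]
  linarith

lemma Lam_mul (g h : H) : (Lam g : L2 (W H J) →L[ℂ] _) * Lam h = Lam (g * h) :=
  ext_basis eb fun x => by simp [mul_apply_eq_comp]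

lemma Lam_one : (Lam (1 : H) : L2 (W H J) →L[ℂ] _) = 1 := ext_basis eb fun x => by simp

variable (H J) in
/-- left generators -/
def Lset : Set (L2 (W H J) →L[ℂ] L2 (W H J)) := Set.range Lam ∪ Set.range ZL

variable (H J) in
/-- right generators -/
def Rset : Set (L2 (W H J) →L[ℂ] L2 (W H J)) := Set.range Rho ∪ Set.range ZR

variable (H J) in
/-- the ambient algebra -/
abbrev MM : StarSubalgebra ℂ (L2 (W H J) →L[ℂ] L2 (W H J)) :=
  StarSubalgebra.centralizer ℂ (Rset H J)

variable (H J) in
/-- vacuum -/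
abbrev Om : L2 (W H J) := eb (one 1)

lemma mem_MM {T : L2 (W H J) →L[ℂ] L2 (W H J)} (h1 : ∀ g, Rho g * T = T * Rho g)
    (h2 : ∀ j, ZR j * T = T * ZR j) : T ∈ MM H J := by
  refine mem_cent.2 ?_
  rintro r (⟨g, rfl⟩ | ⟨j, rfl⟩)
  · exact ⟨h1 g, by rw [star_Rho]; exact h1 _⟩
  · exact ⟨h2 j, by rw [star_ZR]; exact h2 _⟩

lemma Lam_mem (g : H) : Lam g ∈ MM H J :=
  mem_MM (fun h => ((lift_Lam g).comm (lift_Rho h) (lam_rho g h)).symm)
    fun j => ((lift_Lam g).comm (lift_ZR j) (lam_zr g j)).symm

lemma ZL_mem (i : J) : ZL i ∈ MM H J :=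
  mem_MM (fun h => ((lift_ZL i).comm (lift_Rho h) (zl_rho h i)).symm)
    fun j => ((lift_ZL i).comm (lift_ZR j) (zl_zr i j)).symm

lemma Lset_sub : Lset H J ⊆ MM H J := by
  rintro _ (⟨g, rfl⟩ | ⟨j, rfl⟩)
  exacts [Lam_mem g, ZL_mem j]

lemma cyc_L : Cyc (Lset H J) (Om H J) := by
  intro N hN h1 hinv
  have hl : ∀ g, ∀ ξ ∈ N, Lam g ξ ∈ N := fun g => hinv _ (Or.inl ⟨g, rfl⟩)
  have hz : ∀ j, ∀ ξ ∈ N, ZL j ξ ∈ N := fun j => hinv _ (Or.inr ⟨j, rfl⟩)
  have key : ∀ w : W H J, eb w ∈ N ∧ ∀ j, iota eb (ells j w) ∈ N := by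
    intro w
    induction w with
    | one x => exact ⟨by simpa [lam] using hl x _ h1, fun j => by simp [ells]⟩
    | cons x i w ih =>
      refine ⟨?_, fun j => ?_⟩
      · have := hl x _ (sub_mem (hz i _ ih.1) (ih.2 i))
        simpa [ZL_eb, lam] using this
      · rw [ells]
        split_ifs
        · simpa using ih.1
        · simp
  exact mem_of_basis eb N hN fun w => (key w).1

lemma ZL_Om (j : J) : ZL j (Om H J) = eb (cons 1 j (one 1)) := by simp [ZL_eb, ells]

lemma tracial_MM : Tracial (MM H J) (Om H J) := by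
  refine tracial_of Lset_sub cyc_L ?_
  rintro _ (⟨g, rfl⟩ | ⟨j, rfl⟩)
  · exact ⟨Rho g, Or.inl ⟨g, rfl⟩, by simp [lam, rho], by simp [star_Lam, star_Rho, lam, rho]⟩
  · have : ZL j (Om H J) = ZR j (Om H J) := by
      rw [ZL_Om, (lift_ZR j).apply_eb]
      simp [zr, app, rs]
    exact ⟨ZR j, Or.inr ⟨j, rfl⟩, this, by rw [star_ZL, star_ZR, this]⟩

end

end Vale.Agent.P086
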