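import Vale.Agent.P086.Glob

open scoped ComplexConjugate Classical
open FreeGroup hiding map_mul map_inv norm_one map_one

namespace Vale.Agent.P086

noncomputable section

lemma letter_cases {ι : Type} [DecidableEq ι] (i : ι) (s : Bool) (w : FreeGroup ι) :
    toWord w = (i, !s) :: toWord (mk [(i, s)] * w) ∨
      ((toWord w).head? ≠ some (i, !s) ∧ toWord (mk [(i, s)] * w) = (i, s) :: toWord w) := by
  have h : toWord (mk [(i, s)] * w) = reduce ((i, s) :: toWord w) := by
    rw [toWord_mul, toWord_mk, reduce_singleton]; rfl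
  rw [h, reduce.cons, reduce_toWord]
  cases hw : toWord w with
  | nil => simp
  | cons x L =>
    obtain ⟨j, t⟩ := x
    by_cases hc : i = j ∧ s = !t
    · obtain ⟨rfl, rfl⟩ := hc
      simp
    · right
      simp only [if_neg hc, List.head?_cons, ne_eq, Option.some.injEq, Prod.mk.injEq, and_true]
      rintro ⟨rfl, rfl⟩
      simp at hc

lemma mk_false {ι : Type} (i : ι) : (mk [(i, false)] : FreeGroup ι) = (of i)⁻¹ := by
  rw [of, inv_mk]; rfl

lemma inv_letter {ι : Type} (i : ι) (s : Bool) :
    (mk [(i, s)] : FreeGroup ι)⁻¹ = mk [(i, !s)] := by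
  rw [inv_mk]; rfl

section leinert

variable {H : Type} [Group H]

omit [Group H] in
lemma sum_le_supp (f : H →₀ ℂ) {P : Type} (T : Finset P) (g : P → H) (hg : Set.InjOn g T) :
    ∑ p ∈ T, ‖f (g p)‖ ^ 2 ≤ ∑ u ∈ f.support, ‖f u‖ ^ 2 := by
  rw [← Finset.sum_image (f := fun u => ‖f u‖ ^ 2) hg,
    ← Finset.sum_filter_of_ne (p := fun u => u ∈ f.support) (by
      intro x _ hx; simpa using hx)]
  exact Finset.sum_le_sum_of_subset_of_nonneg (fun x hx => (Finset.mem_filter.1 hx).2)
    fun _ _ _ => by positivity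

lemma typeA (f : H →₀ ℂ) (π : ℕ → H) (κ : H → ℤ) (n : ℕ) (S : Finset H) :
    ∑ x ∈ S, (∑ k ∈ Finset.range n, if κ (x * π k) = k then ‖f (x * π k)‖ else 0) ^ 2 ≤
      n * ∑ u ∈ f.support, ‖f u‖ ^ 2 := by
  calc _ ≤ ∑ x ∈ S, n * ∑ k ∈ Finset.range n,
        (if κ (x * π k) = k then ‖f (x * π k)‖ else 0) ^ 2 := by
        gcongr with x
        simpa using sq_sum_le_card_mul_sum_sq (s := Finset.range n)
          (f := fun k => if κ (x * π k) = k then ‖f (x * π k)‖ else 0)
    _ = n * ∑ p ∈ (S ×ˢ Finset.range n).filter (fun p => κ (p.1 * π p.2) = p.2),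
        ‖f (p.1 * π p.2)‖ ^ 2 := by
        rw [← Finset.mul_sum, Finset.sum_filter, Finset.sum_product]
        simp
    _ ≤ _ := by
        gcongr
        refine sum_le_supp f _ (fun p : H × ℕ => p.1 * π p.2) ?_
        rintro ⟨x, k⟩ h1 ⟨y, l⟩ h2 h
        simp only [Finset.coe_filter, Set.mem_ofPred_eq] at h1 h2 h
        have : k = l := by
          have := h1.2.symm.trans (h ▸ h2.2)
          exact_mod_cast this
        subst this
        rw [mul_right_cancel h]

lemma typeB (f : H →₀ ℂ) (π : ℕ → H) (κ : H → ℤ) (n : ℕ) (S : Finset H) :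
    ∑ x ∈ S, (∑ k ∈ Finset.range n, if κ x = k then ‖f (x * π k)‖ else 0) ^ 2 ≤
      n * ∑ u ∈ f.support, ‖f u‖ ^ 2 := by
  calc _ ≤ ∑ x ∈ S, ∑ k ∈ Finset.range n, ‖f (x * π k)‖ ^ 2 := by
        gcongr with x
        by_cases h : ∃ k ∈ Finset.range n, κ x = k
        · obtain ⟨k, hk, h⟩ := h
          rw [Finset.sum_eq_single k (fun l _ hl => if_neg (by rw [h]; exact_mod_cast hl.symm))
            (fun h' => absurd hk h'), if_pos h]
          exact Finset.single_le_sum (f := fun k => ‖f (x * π k)‖ ^ 2)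
            (fun _ _ => by positivity) hk
        · rw [Finset.sum_eq_zero fun k hk => if_neg fun h' => h ⟨k, hk, h'⟩]
          simp only [ne_eq, OfNat.ofNat_ne_zero, not_false_eq_true, zero_pow]
          positivity
    _ ≤ ∑ k ∈ Finset.range n, ∑ u ∈ f.support, ‖f u‖ ^ 2 := by
        rw [Finset.sum_comm]
        gcongr with k
        exact sum_le_supp f S (· * π k) (mul_left_injective _).injOn
    _ = _ := by simp

lemma leinert (f : H →₀ ℂ) (π : ℕ → H) (κ1 κ2 κ3 κ4 : H → ℤ)
    (h : ∀ x k, κ1 (x * π k) = k ∨ κ2 (x * π k) = k ∨ κ3 x = k ∨ κ4 x = k) (n : ℕ) (S : Finset H) :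
    ∑ x ∈ S, ‖∑ k ∈ Finset.range n, f (x * π k)‖ ^ 2 ≤ 16 * n * ∑ u ∈ f.support, ‖f u‖ ^ 2 := by
  have h1 := typeA f π κ1 n S
  have h2 := typeA f π κ2 n S
  have h3 := typeB f π κ3 n S
  have h4 := typeB f π κ4 n S
  refine le_trans ?_ ((mul_le_mul_of_nonneg_left
    (add_le_add (add_le_add (add_le_add h1 h2) h3) h4) (by norm_num : (0 : ℝ) ≤ 4)).trans_eq
    (by ring))
  rw [← Finset.sum_add_distrib, ← Finset.sum_add_distrib, ← Finset.sum_add_distrib, Finset.mul_sum]
  refine Finset.sum_le_sum fun x _ => ?_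
  have key : ∀ a b c d e : ℝ, 0 ≤ e → e ≤ a + b + c + d →
      e ^ 2 ≤ 4 * (a ^ 2 + b ^ 2 + c ^ 2 + d ^ 2) := fun a b c d e h0 h1 => by
    have : e ^ 2 ≤ (a + b + c + d) ^ 2 := by gcongr
    nlinarith [sq_nonneg (a - b), sq_nonneg (a - c), sq_nonneg (a - d), sq_nonneg (b - c),
      sq_nonneg (b - d), sq_nonneg (c - d)]
  refine key _ _ _ _ _ (norm_nonneg _) ((norm_sum_le _ _).trans ?_)
  rw [← Finset.sum_add_distrib, ← Finset.sum_add_distrib, ← Finset.sum_add_distrib]
  refine Finset.sum_le_sum fun k _ => ?_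
  have := norm_nonneg (f (x * π k))
  rcases h x k with h | h | h | h <;> rw [if_pos h] <;> split_ifs <;> linarith

end leinert

variable {ι : Type} (a b : ι)

/-- number of letters `a` -/
def alen (g : FreeGroup ι) : ℕ := (toWord g).countP fun l => l.1 = a

lemma alen_mul (g h : FreeGroup ι) : alen a (g * h) ≤ alen a g + alen a h := by
  rw [alen, alen, alen, ← List.countP_append]
  exact (toWord_mul_sublist g h).countP_le

lemma alen_inv (g : FreeGroup ι) : alen a g⁻¹ = alen a g := by
  simp [alen, invRev, Function.comp_def]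

lemma alen_mk (L : List (ι × Bool)) : alen a (mk L) ≤ L.countP fun l => l.1 = a := by
  rw [alen, toWord_mk]
  exact (Red.sublist reduce.red).countP_le

/-- half tree -/
def chi (w : FreeGroup ι) : ℂ := if (toWord w).getLast? = some (a, false) then 1 else 0

/-- Fox derivative of a letter -/
def fox1 (l : ι × Bool) : FreeGroup ι →₀ ℂ :=
  if l.1 = a then (if l.2 then Finsupp.single 1 1 else -Finsupp.single (mk [l]) 1) else 0

/-- Fox derivative -/
def fox : List (ι × Bool) → FreeGroup ι →₀ ℂ
  | [] => 0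
  | l :: L => fox1 a l + Finsupp.mapDomain (mk [l] * ·) (fox L)

lemma chi_cons {l : ι × Bool} {v w : FreeGroup ι} (h : toWord v = l :: toWord w) :
    chi a v - chi a w = if w = 1 ∧ l = (a, false) then 1 else 0 := by
  rw [chi, chi, h]
  cases hw : toWord w with
  | nil => simp [toWord_eq_nil_iff.1 hw]
  | cons x L =>
    have : w ≠ 1 := by rintro rfl; simp at hw
    simp [this, List.getLast?_cons_cons]

lemma fox1_apply (l : ι × Bool) (x : FreeGroup ι) :
    fox1 a l x = chi a ((mk [l])⁻¹ * x) - chi a x := by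
  obtain ⟨i, s⟩ := l
  rw [inv_letter]
  rcases letter_cases i (!s) x with h | ⟨h1, h⟩
  · rw [← neg_sub, chi_cons a h, ← inv_letter, fox1]
    simp only [inv_mul_eq_one]
    have : x ≠ 1 := by rintro rfl; simp at h
    by_cases hi : i = a
    · cases s <;> simp [hi, Finsupp.single_apply, this.symm]
    · simp [hi]
  · rw [chi_cons a h, fox1]
    have : mk [(i, s)] ≠ x := by rintro rfl; simp at h1
    by_cases hi : i = a
    · subst hi
      cases s <;> simp [Finsupp.single_apply, this, eq_comm]
    · simp [hi]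

lemma fox_apply (L : List (ι × Bool)) (x : FreeGroup ι) :
    fox a L x = chi a ((mk L)⁻¹ * x) - chi a x := by
  induction L generalizing x with
  | nil => simp [fox, ← one_eq_mk]
  | cons l L ih =>
    have h1 := Finsupp.mapDomain_apply (mul_right_injective (mk [l])) (fox a L) ((mk [l])⁻¹ * x)
    rw [mul_inv_cancel_left] at h1
    rw [fox, Finsupp.add_apply, h1, ih, fox1_apply, show mk (l :: L) = mk [l] * mk L from rfl,
      mul_inv_rev, mul_assoc]
    ring

lemma fox_supp (L : List (ι × Bool)) (x : FreeGroup ι) (h : fox a L x ≠ 0) :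
    ∃ L1 L2, L = L1 ++ L2 ∧ x = mk L1 := by
  induction L generalizing x with
  | nil => simp [fox] at h
  | cons l L ih =>
    by_cases h1 : fox1 a l x = 0
    · have h2 := Finsupp.mapDomain_apply (mul_right_injective (mk [l])) (fox a L) ((mk [l])⁻¹ * x)
      rw [mul_inv_cancel_left] at h2
      rw [fox, Finsupp.add_apply, h1, zero_add, h2] at h
      obtain ⟨L1, L2, rfl, h3⟩ := ih _ h
      exact ⟨l :: L1, L2, rfl, by rw [show mk (l :: L1) = mk [l] * mk L1 from rfl, ← h3,
        mul_inv_cancel_left]⟩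
    · rw [fox1] at h1
      split_ifs at h1
      · exact ⟨[], l :: L, rfl, by by_contra hc; exact h1 (Finsupp.single_eq_of_ne hc)⟩
      · exact ⟨[l], L, rfl, by by_contra hc; simp [Finsupp.single_eq_of_ne hc] at h1⟩
      · simp at h1

lemma fox_card (L : List (ι × Bool)) : (fox a L).support.card ≤ L.countP fun l => l.1 = a := by
  induction L with
  | nil => simp [fox]
  | cons l L ih =>
    refine (Finset.card_le_card Finsupp.support_add).trans ((Finset.card_union_le _ _).trans ?_)
    have h1 : (fox1 a l).support.card ≤ if l.1 = a then 1 else 0 := by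
      rw [fox1]
      split_ifs <;> simp
    have h2 := (Finset.card_le_card (Finsupp.mapDomain_support (f := (mk [l] * ·))
      (s := fox a L))).trans Finset.card_image_le
    rw [List.countP_cons]
    simp only [decide_eq_true_eq]
    omega

/-- Fox derivative of a group element -/
def phi (g : FreeGroup ι) : FreeGroup ι →₀ ℂ := fox a (toWord g)

lemma phi_apply (g x : FreeGroup ι) : phi a g x = chi a (g⁻¹ * x) - chi a x := by
  rw [phi, fox_apply, mk_toWord]

lemma phi_mul (g h x : FreeGroup ι) : phi a (g * h) x = phi a g x + phi a h (g⁻¹ * x) := by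
  simp only [phi_apply, mul_inv_rev, mul_assoc]; ring

lemma phi_norm (g x : FreeGroup ι) : ‖phi a g x‖ ≤ 1 := by
  simp only [phi_apply, chi]
  split_ifs <;> simp

lemma phi_real (g x : FreeGroup ι) : conj (phi a g x) = phi a g x := by
  simp only [phi_apply, chi]
  split_ifs <;> simp

lemma phi_l2 (g : FreeGroup ι) : ∑ x ∈ (phi a g).support, ‖phi a g x‖ ^ 2 ≤ alen a g := by
  refine (Finset.sum_le_card_nsmul _ _ 1 fun x _ =>
    pow_le_one₀ (norm_nonneg _) (phi_norm a g x)).trans ?_
  simp only [nsmul_eq_mul, mul_one, Nat.cast_le]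
  exact fox_card a _

lemma phi_supp (g x : FreeGroup ι) (h : phi a g x ≠ 0) :
    alen a x + alen a (x⁻¹ * g) ≤ alen a g := by
  obtain ⟨L1, L2, h1, rfl⟩ := fox_supp a _ _ h
  have : g = mk L1 * mk L2 := by rw [mul_mk, ← h1, mk_toWord]
  rw [alen.eq_1 a g, h1, List.countP_append]
  conv_lhs => rw [this, inv_mul_cancel_left]
  exact add_le_add (alen_mk a _) (alen_mk a _)

/-- initial segments of the long word -/
def pw : ℕ → FreeGroup ι
  | 0 => 1
  | k + 1 => pw k * of a * of b ^ k

variable {a b}

lemma phi_pw (hab : a ≠ b) (m : ℕ) (x : FreeGroup ι) :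
    phi a (pw a b m) x = ∑ k ∈ Finset.range m, if x = pw a b k then 1 else 0 := by
  have h1 : ∀ y, phi a (of a) y = if y = 1 then 1 else 0 := fun y => by
    simp [phi, fox, fox1, Finsupp.single_apply, eq_comm]
  have h2 : ∀ k y, phi a (of b ^ k) y = 0 := fun k => by
    induction k with
    | zero => simp [phi, fox]
    | succ k ih => intro y; rw [pow_succ, phi_mul, ih]; simp [phi, fox, fox1, hab.symm]
  induction m with
  | zero => simp [pw, phi, fox]
  | succ m ih =>
    rw [pw, phi_mul, phi_mul, ih, h1, h2, Finset.sum_range_succ]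
    simp only [inv_mul_eq_one, eq_comm (a := x), add_zero]

lemma alen_pw (hab : a ≠ b) (m : ℕ) : alen a (pw a b m) ≤ m := by
  induction m with
  | zero => simp [pw, alen]
  | succ m ih =>
    have h1 := alen_mul a (pw a b m * of a) (of b ^ m)
    have h2 := alen_mul a (pw a b m) (of a)
    have h3 : alen a (of a) = 1 := by simp [alen]
    have h4 : alen a (of b ^ m) = 0 := by simp [alen, hab.symm]
    rw [pw]
    omega

/-- exponent sum -/
def ex (c : ι) (g : FreeGroup ι) : ℤ :=
  Multiplicative.toAdd (lift (fun i => Multiplicative.ofAdd (if i = c then (1 : ℤ) else 0)) g)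

lemma ex_mul (c : ι) (g h : FreeGroup ι) : ex c (g * h) = ex c g + ex c h := by simp [ex]

lemma ex_inv (c : ι) (g : FreeGroup ι) : ex c g⁻¹ = -ex c g := by simp [ex]

lemma ex_a (hab : a ≠ b) (m : ℕ) : ex a (pw a b m) = m := by
  induction m with
  | zero => simp [pw, ex]
  | succ m ih => rw [pw, ex_mul, ex_mul, ih]; simp [ex, hab.symm]

lemma ex_b (hab : a ≠ b) (m : ℕ) : 2 * ex b (pw a b m) = m * (m - 1) := by
  induction m with
  | zero => simp [pw, ex]
  | succ m ih =>
    rw [pw, ex_mul, ex_mul, mul_add, mul_add, ih]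
    simp [ex, hab]
    ring

lemma pw_inj (hab : a ≠ b) : Function.Injective (pw a b) := fun k l h => by
  have := congrArg (ex a) h
  rw [ex_a hab, ex_a hab] at this
  exact_mod_cast this

lemma sidon (hab : a ≠ b) {x : FreeGroup ι} (hx : x ≠ 1) {k l k' l' : ℕ}
    (h : x * pw a b k = pw a b l) (h' : x * pw a b k' = pw a b l') : k = k' := by
  have a1 := congrArg (ex a) h
  have a2 := congrArg (ex a) h'
  have b1 := congrArg (fun g => 2 * ex b g) h
  have b2 := congrArg (fun g => 2 * ex b g) h'
  simp only [ex_mul, mul_add, ex_a hab, ex_b hab] at a1 a2 b1 b2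
  have hd : ex a x ≠ 0 := fun h0 => by
    have : k = l := by rw [h0, zero_add] at a1; exact_mod_cast a1
    subst this
    exact hx (by simpa using h)
  rw [← a1] at b1
  rw [← a2] at b2
  have : (k : ℤ) * ex a x = k' * ex a x := by linarith
  exact_mod_cast mul_right_cancel₀ hd this

variable (a b) in
/-- rewriting action -/
def act : FreeGroup ι →* Equiv.Perm (FreeGroup ℤ × ℤ) :=
  lift fun i => if i = a then
    { toFun := fun p => (of p.2 * p.1, p.2)
      invFun := fun p => (mk [(p.2, false)] * p.1, p.2)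
      left_inv := fun p => by simp [mk_false]
      right_inv := fun p => by simp [mk_false] }
  else if i = b then Equiv.prodCongr (Equiv.refl _) (Equiv.addRight (-1)) else 1

variable (a b) in
/-- state -/
def st (x : FreeGroup ι) : FreeGroup ℤ × ℤ := act a b x⁻¹ (1, 0)

lemma st_pw (hab : a ≠ b) (x : FreeGroup ι) (k : ℕ) : st a b (x * pw a b (k + 1)) =
    (mk [((st a b (x * pw a b k)).2, false)] * (st a b (x * pw a b k)).1,
      (st a b (x * pw a b k)).2 + k) := by
  have h1 : ∀ y, st a b (y * of a) = (mk [((st a b y).2, false)] * (st a b y).1, (st a b y).2) :=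
    fun y => by
      simp only [st, mul_inv_rev, map_mul, map_inv, act, lift_apply_of, if_true]
      rfl
  have h2 : ∀ y, st a b (y * of b) = ((st a b y).1, (st a b y).2 + 1) := fun y => by
    simp only [st, mul_inv_rev, map_mul, map_inv, act, lift_apply_of, if_true, if_neg hab.symm,
      Equiv.Perm.mul_apply]
    rw [Equiv.Perm.inv_eq_iff_eq]
    simp
  have h3 : ∀ (k : ℕ) y, st a b (y * of b ^ k) = ((st a b y).1, (st a b y).2 + k) := fun k => by
    induction k with
    | zero => simp
    | succ k ih => intro y; rw [pow_succ, ← mul_assoc, h2, ih]; simp [add_assoc]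
  rw [pw, ← mul_assoc, h3, ← mul_assoc, h1]

lemma pingpong (hab : a ≠ b) : ∃ κ1 κ2 κ3 κ4 : FreeGroup ι → ℤ, ∀ x k,
    κ1 (x * pw a b k) = k ∨ κ2 (x * pw a b k) = k ∨ κ3 x = k ∨ κ4 x = k := by
  let up : FreeGroup ι → ℕ → Prop := fun x k =>
    (toWord (st a b (x * pw a b k)).1).head? ≠ some ((st a b (x * pw a b k)).2, true)
  let j : FreeGroup ι → ℕ := fun x => if h : ∃ i, up x i then Nat.find h else 0
  refine ⟨fun u => (st a b u).2 - ((toWord (st a b u).1).headD (0, true)).1 + 1,
    fun u => ((toWord (st a b u).1).tail.headD (0, true)).1 - (st a b u).2,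
    fun x => j x, fun x => j x - 1, fun x k => ?_⟩
  have hup : ∀ i, up x i → toWord (st a b (x * pw a b (i + 1))).1 =
      ((st a b (x * pw a b i)).2, false) :: toWord (st a b (x * pw a b i)).1 := fun i hi => by
    rw [st_pw hab]
    rcases letter_cases (st a b (x * pw a b i)).2 false (st a b (x * pw a b i)).1 with h | h
    · exact absurd (by rw [h]; rfl) hi
    · exact h.2
  have hdown : ∀ i, ¬up x i → toWord (st a b (x * pw a b i)).1 =
      ((st a b (x * pw a b i)).2, true) :: toWord (st a b (x * pw a b (i + 1))).1 := fun i hi => by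
    rw [st_pw hab]
    rcases letter_cases (st a b (x * pw a b i)).2 false (st a b (x * pw a b i)).1 with h | h
    · exact h
    · exact absurd h.1 hi
  have hmono : ∀ i l, i ≤ l → up x i → up x l := fun i l hil hi => by
    induction hil with
    | refl => exact hi
    | step _ ih => simp only [up]; rw [hup _ ih]; simp
  by_cases h1 : ∃ i < k, up x i
  · obtain ⟨i, hi, h1⟩ := h1
    obtain ⟨k, rfl⟩ : ∃ l, k = l + 1 := ⟨k - 1, by omega⟩
    left
    simp only [hup k (hmono i k (by omega) h1), List.headD_cons]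
    rw [st_pw hab]
    push_cast
    ring
  · by_cases h2 : up x k
    · right; right; left
      have : ∃ i, up x i := ⟨k, h2⟩
      simp only [j, dif_pos this, Nat.cast_inj, Nat.find_eq_iff]
      exact ⟨h2, fun i hi h => h1 ⟨i, hi, h⟩⟩
    · by_cases h3 : up x (k + 1)
      · right; right; right
        have : ∃ i, up x i := ⟨_, h3⟩
        have h4 : Nat.find this = k + 1 :=
          (Nat.find_eq_iff _).2 ⟨h3, fun i hi h => h2 (hmono i k (by omega) h)⟩
        simp [j, dif_pos this, h4]
      · right; left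
        simp only [hdown k h2, hdown _ h3, List.tail_cons, List.headD_cons]
        rw [st_pw hab]
        ring

variable (a b) in
/-- averaged cocycle -/
def psi (n : ℕ) (g : FreeGroup ι) : FreeGroup ι →₀ ℂ :=
  (1 / n : ℂ) • ∑ k ∈ Finset.range n, Finsupp.mapDomain (· * (pw a b k)⁻¹) (phi a g)

lemma psi_apply (n : ℕ) (g x : FreeGroup ι) :
    psi a b n g x = (1 / n : ℂ) * ∑ k ∈ Finset.range n, phi a g (x * pw a b k) := by
  rw [psi, Finsupp.smul_apply, Finsupp.finsetSum_apply, smul_eq_mul]
  congr 1
  refine Finset.sum_congr rfl fun k _ => ?_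
  rw [← Finsupp.mapDomain_apply (mul_left_injective (pw a b k)⁻¹) (phi a g)]
  simp

/-- the cocycle data -/
def freeData (hab : a ≠ b) (n : ℕ) (hn : 0 < n) : Data (FreeGroup ι) (alen a) where
  n := n
  γ := pw a b n
  ψ := psi a b n
  n_pos := hn
  coc g h x := by simp only [psi_apply, phi_mul, Finset.sum_add_distrib, mul_add, mul_assoc]
  real g x := by simp [psi_apply, phi_real]
  psi_one := by
    have : (n : ℂ) ≠ 0 := by exact_mod_cast hn.ne'
    rw [psi_apply, Finset.sum_congr rfl (g := fun _ => 1) fun k hk => by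
      simp [phi_pw hab, (pw_inj hab).eq_iff, Finset.mem_range.1 hk]]
    simp [this]
  l2 g := by
    obtain ⟨κ1, κ2, κ3, κ4, h⟩ := pingpong hab
    have h1 := leinert (phi a g) (pw a b) κ1 κ2 κ3 κ4 h n (psi a b n g).support
    have h2 := phi_l2 a g
    have hn' : (0 : ℝ) < n := by exact_mod_cast hn
    simp only [psi_apply, norm_mul, mul_pow, ← Finset.mul_sum, norm_div, norm_one,
      Complex.norm_natCast]
    calc _ ≤ (1 / n : ℝ) ^ 2 * (16 * n * alen a g) := by
          gcongr
          exact h1.trans (by gcongr)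
      _ = _ := by field_simp
  supp g x h := by
    rw [psi_apply] at h
    obtain ⟨k, hk, h1⟩ := Finset.exists_ne_zero_of_sum_ne_zero (right_ne_zero_of_mul h)
    have h2 := phi_supp a _ _ h1
    have h3 := alen_pw hab k
    have h4 := alen_mul a (x * pw a b k) (pw a b k)⁻¹
    have h5 := alen_mul a (pw a b k) ((x * pw a b k)⁻¹ * g)
    have := Finset.mem_range.1 hk
    rw [alen_inv, mul_inv_cancel_right] at h4
    rw [mul_inv_rev, mul_assoc, mul_inv_cancel_left, ← mul_assoc, ← mul_inv_rev] at h5
    omega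
  len_mul := alen_mul a
  len_inv := alen_inv a
  len_γ := alen_pw hab n
  len_one := by simp [alen]
  ne_inv h := by
    have := congrArg (ex a) h
    rw [ex_inv, ex_a hab] at this
    omega
  small x hx := by
    rw [psi_apply, norm_mul, norm_div, norm_one, Complex.norm_natCast]
    refine mul_le_of_le_one_right (by positivity) ?_
    have key : ∀ k, phi a (pw a b n) (x * pw a b k) ≠ 0 → ∃ l, x * pw a b k = pw a b l := by
      intro k hk
      rw [phi_pw hab] at hk
      obtain ⟨l, -, hl⟩ := Finset.exists_ne_zero_of_sum_ne_zero hk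
      exact ⟨l, by simpa using hl⟩
    by_cases h : ∃ k, phi a (pw a b n) (x * pw a b k) ≠ 0
    · obtain ⟨k, hk⟩ := h
      obtain ⟨l, hl⟩ := key k hk
      rw [← Finset.sum_filter_of_ne (p := fun i => i = k) fun i _ hi => by
        obtain ⟨l', hl'⟩ := key i hi
        exact sidon hab hx hl' hl, Finset.filter_eq']
      split_ifs
      · simpa using phi_norm a _ _
      · simp
    · push Not at h
      simp [h]

/-- the sequence of cocycle data -/
def freeSeq (hab : a ≠ b) : Seq (FreeGroup ι) (alen a) where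
  D i := freeData hab (i + 1) i.succ_pos
  hn := Filter.tendsto_add_atTop_nat 1
  hγ g := by
    filter_upwards [Filter.eventually_ge_atTop (ex a g).toNat] with i hi h
    have : ex a g = (i + 1 : ℕ) := by rw [← h]; exact ex_a hab _
    omega

theorem free_equiv (ι J : Type) [Countable ι] [Countable J] [Nontrivial ι] :
    Nonempty (LG (FreeGroup ι) ≃⋆ₐ[ℂ] MM (FreeGroup ι) J) := by
  obtain ⟨a, b, hab⟩ := exists_pair_ne ι
  have : Countable (FreeGroup ι) := toWord_injective.countable
  exact (freeSeq hab).equiv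

end

end Vale.Agent.P086
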