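import Vale.Agent.P086.Fock

open scoped InnerProductSpace ComplexConjugate Classical

namespace Vale.Agent.P086

/-- cocycle data -/
structure Data (H : Type) [Group H] (len : H → ℕ) where
  n : ℕ
  γ : H
  ψ : H → H →₀ ℂ
  n_pos : 0 < n
  coc : ∀ g h x, ψ (g * h) x = ψ g x + ψ h (g⁻¹ * x)
  real : ∀ g x, conj (ψ g x) = ψ g x
  psi_one : ψ γ 1 = 1
  l2 : ∀ g, ∑ x ∈ (ψ g).support, ‖ψ g x‖ ^ 2 ≤ 16 * len g / n
  supp : ∀ g x, ψ g x ≠ 0 → len x + len (x⁻¹ * g) ≤ len g + 2 * n
  len_mul : ∀ g h, len (g * h) ≤ len g + len h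
  len_inv : ∀ g, len g⁻¹ = len g
  len_γ : len γ ≤ n
  len_one : len 1 = 0
  ne_inv : γ ≠ γ⁻¹
  small : ∀ x, x ≠ 1 → ‖ψ γ x‖ ≤ 1 / n

noncomputable section

open W

variable {H J : Type} [Group H] {len : H → ℕ} (D : Data H len) (j0 : J)

namespace Data

lemma psi1 : D.ψ 1 = 0 := by
  ext x
  simpa using D.coc 1 1 x

lemma psi_inv (g x : H) : D.ψ g⁻¹ x = -D.ψ g (g * x) := by
  have := D.coc g⁻¹ g x
  rw [inv_mul_cancel, psi1, inv_inv] at this
  exact eq_neg_of_add_eq_zero_left this.symm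

lemma coc' (g h : H) : D.ψ (g * h) = D.ψ g + Finsupp.mapDomain (g * ·) (D.ψ h) := by
  ext x
  rw [D.coc, Finsupp.add_apply, ← Finsupp.mapDomain_apply (mul_right_injective g) (D.ψ h)]
  simp

/-- first insertion -/
def F1 (w : W H J) (u : H) : W H J := cons u j0 (lam (D.γ⁻¹ * u⁻¹) w)

/-- second insertion -/
def F2 (w : W H J) (u : H) : W H J := cons (u * D.γ) j0 (lam u⁻¹ w)

lemma F1_inj (w : W H J) : Function.Injective (D.F1 j0 w) := fun u v h => by
  simp only [F1, cons.injEq] at h; exact h.1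

lemma F2_inj (w : W H J) : Function.Injective (D.F2 j0 w) := fun u v h => by
  simp only [F2, cons.injEq] at h; simpa using h.1

/-- first head operator -/
def P1 (w : W H J) : W H J →₀ ℂ := Finsupp.mapDomain (D.F1 j0 w) (D.ψ (hd w))

/-- second head operator -/
def P2 (w : W H J) : W H J →₀ ℂ := Finsupp.mapDomain (D.F2 j0 w) (D.ψ (hd w))

/-- raising part -/
def Lp : W H J → W H J →₀ ℂ
  | one g => D.P2 j0 (one g) - D.P1 j0 (one g)
  | cons x j w => D.P2 j0 (cons x j w) - D.P1 j0 (cons x j w) + mp (cons x j) (Lp w)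

/-- head of the lowering part -/
def Hm (x : H) (w : W H J) : W H J →₀ ℂ :=
  D.ψ (hd (lam (x * D.γ⁻¹) w)) (x * D.γ⁻¹) • bv (lam (x * D.γ⁻¹) w) -
    D.ψ (hd (lam (x * D.γ) w)) x • bv (lam (x * D.γ) w)

/-- lowering part -/
def Lm : W H J → W H J →₀ ℂ
  | one _ => 0
  | cons x j w => (if j = j0 then D.Hm x w else 0) + mp (cons x j) (Lm w)

/-- the generator -/
def LL : Module.End ℂ (W H J →₀ ℂ) := op (D.Lp j0) - op (D.Lm j0)

@[simp] lemma P1_one (w : W H J) (y : H) : D.P1 j0 w (one y) = 0 :=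
  Finsupp.mapDomain_of_notMem_range _ _ (by simp [F1])

@[simp] lemma P2_one (w : W H J) (y : H) : D.P2 j0 w (one y) = 0 :=
  Finsupp.mapDomain_of_notMem_range _ _ (by simp [F2])

lemma P1_cons (w : W H J) (u : H) (j : J) (v : W H J) :
    D.P1 j0 w (cons u j v) = if j = j0 ∧ lam (u * D.γ) v = w then D.ψ (hd w) u else 0 := by
  split_ifs with h
  · obtain ⟨rfl, rfl⟩ := h
    rw [← Finsupp.mapDomain_apply (D.F1_inj j (lam (u * D.γ) v)) (D.ψ _) u]
    simp [P1, F1, mul_assoc]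
  · refine Finsupp.mapDomain_of_notMem_range _ _ ?_
    rintro ⟨x, hx⟩
    simp only [F1, cons.injEq] at hx
    obtain ⟨rfl, rfl, rfl⟩ := hx
    simp [mul_assoc] at h

lemma P2_cons (w : W H J) (u : H) (j : J) (v : W H J) :
    D.P2 j0 w (cons u j v) =
      if j = j0 ∧ lam (u * D.γ⁻¹) v = w then D.ψ (hd w) (u * D.γ⁻¹) else 0 := by
  split_ifs with h
  · obtain ⟨rfl, rfl⟩ := h
    rw [← Finsupp.mapDomain_apply (D.F2_inj j (lam (u * D.γ⁻¹) v)) (D.ψ _) (u * D.γ⁻¹)]
    simp [P2, F2, mul_assoc]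
  · refine Finsupp.mapDomain_of_notMem_range _ _ ?_
    rintro ⟨x, hx⟩
    simp only [F2, cons.injEq] at hx
    obtain ⟨rfl, rfl, rfl⟩ := hx
    simp [mul_assoc] at h

lemma head_transp (x : W H J) (u : H) (j : J) (v : W H J) :
    (if j = j0 then D.Hm u v else 0 : W H J →₀ ℂ) x =
      conj (D.P2 j0 x (cons u j v) - D.P1 j0 x (cons u j v)) := by
  rw [P1_cons, P2_cons]
  by_cases hj : j = j0
  · simp only [hj, if_true, true_and, Hm, Finsupp.sub_apply, Finsupp.smul_apply,
      Finsupp.single_apply, map_sub, smul_eq_mul]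
    congr 1
    · split_ifs with h
      · rw [h, D.real, mul_one]
      · simp
    · split_ifs with h
      · rw [h, D.real, mul_one]
      · simp
  · simp [hj]

lemma transp_L : Transp (op (D.Lp j0)) (op (D.Lm j0)) := by
  intro x y
  rw [op_bv, op_bv]
  induction y generalizing x with
  | one y => cases x <;> simp [Lm, Lp]
  | cons u j v ih =>
    rw [Lm, Finsupp.add_apply, head_transp]
    cases x with
    | one x => simp [Lp]
    | cons x i w =>
      simp only [Lp, Finsupp.add_apply, Finsupp.sub_apply, mp_cons_cons, map_add, ih]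
      congr 1
      by_cases h : u = x ∧ j = i
      · obtain ⟨rfl, rfl⟩ := h
        simp
      · rw [if_neg h, if_neg fun h' => h ⟨h'.1.symm, h'.2.symm⟩, map_zero]

lemma skew (v w : W H J →₀ ℂ) :
    ⟪iota eb (D.LL j0 v), iota eb w⟫_ℂ = -⟪iota eb v, iota eb (D.LL j0 w)⟫_ℂ := by
  have h1 := (D.transp_L j0).inner eb v w
  have h2 := (D.transp_L j0).inner eb w v
  rw [← inner_conj_symm, ← inner_conj_symm (iota eb w)] at h2
  have h3 := (starRingEnd ℂ).injective h2
  simp only [LL, LinearMap.sub_apply, map_sub, inner_sub_left, inner_sub_right, h1, h3]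
  ring

omit [Group H] in
lemma sum_pick (φ : H →₀ ℂ) (u0 : H) (f : H → W H J →₀ ℂ) :
    (φ.sum fun u c => c • if u = u0 then f u else 0) = φ u0 • f u0 := by
  rw [Finsupp.sum, Finset.sum_eq_single u0]
  · simp
  · intro u _ hu; simp [hu]
  · intro h; simp [Finsupp.notMem_support_iff.1 h]

omit [Group H] in
lemma mapDomain_eq_sum (φ : H →₀ ℂ) (f : H → W H J) :
    Finsupp.mapDomain f φ = φ.sum fun u c => c • bv (f u) := by
  simp [Finsupp.mapDomain]

lemma P1_lam (g : H) (w : W H J) : D.P1 j0 (lam g w) =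
    Finsupp.mapDomain (D.F1 j0 (lam g w)) (D.ψ g) + mp (lam g) (D.P1 j0 w) := by
  rw [P1, hd_lam, coc', Finsupp.mapDomain_add, P1, Finsupp.lmapDomain_apply,
    ← Finsupp.mapDomain_comp, ← Finsupp.mapDomain_comp]
  congr 2
  ext u
  simp [F1, lam_c, mul_assoc]

lemma P2_lam (g : H) (w : W H J) : D.P2 j0 (lam g w) =
    Finsupp.mapDomain (D.F2 j0 (lam g w)) (D.ψ g) + mp (lam g) (D.P2 j0 w) := by
  rw [P2, hd_lam, coc', Finsupp.mapDomain_add, P2, Finsupp.lmapDomain_apply,
    ← Finsupp.mapDomain_comp, ← Finsupp.mapDomain_comp]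
  congr 2
  ext u
  simp [F2, lam_c, mul_assoc]

lemma Lp_lam (g : H) (w : W H J) : D.Lp j0 (lam g w) = mp (lam g) (D.Lp j0 w) +
    (Finsupp.mapDomain (D.F2 j0 (lam g w)) (D.ψ g) -
      Finsupp.mapDomain (D.F1 j0 (lam g w)) (D.ψ g)) := by
  have h1 := D.P1_lam j0 g w
  have h2 := D.P2_lam j0 g w
  cases w with
  | one x =>
    simp only [lam] at h1 h2 ⊢
    simp only [Lp, h1, h2, map_sub]
    abel
  | cons x j w =>
    simp only [lam] at h1 h2 ⊢
    simp only [Lp, h1, h2, map_sub, map_add, mp_mp]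
    have : lam g ∘ cons x j = (cons (g * x) j : W H J → W H J) := rfl
    rw [this]
    abel

lemma Lm_lam (g : H) (w : W H J) : D.Lm j0 (lam g w) = mp (lam g) (D.Lm j0 w) -
    ((D.ψ g).sum (fun u c => c • mp (lam (u * D.γ)) (ells j0 (lam (u⁻¹ * g) w))) -
      (D.ψ g).sum (fun u c => c • mp (lam u) (ells j0 (lam (D.γ⁻¹ * u⁻¹ * g) w)))) := by
  cases w with
  | one x => simp [lam, Lm, ells]
  | cons x j w =>
    have h0 : lam g ∘ cons x j = (cons (g * x) j : W H J → W H J) := rfl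
    simp only [lam, Lm, ells, map_add, mp_mp, h0]
    by_cases hj : j = j0
    · have e1 : ∀ u, mp (lam (u * D.γ)) (if u⁻¹ * g * x = 1 ∧ j = j0 then bv w else 0) =
          if u = g * x then bv (lam (u * D.γ) w) else 0 := fun u => by
        simp only [hj, and_true, mul_assoc, inv_mul_eq_one]
        split_ifs <;> simp
      have e2 : ∀ u, mp (lam u) (if D.γ⁻¹ * u⁻¹ * g * x = 1 ∧ j = j0 then bv w else 0) =
          if u = g * x * D.γ⁻¹ then bv (lam u w) else 0 := fun u => by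
        have : D.γ⁻¹ * u⁻¹ * g * x = 1 ↔ u = g * x * D.γ⁻¹ := by
          rw [← mul_inv_rev, mul_assoc, inv_mul_eq_one, eq_mul_inv_iff_mul_eq]
        simp only [hj, and_true, this]
        split_ifs <;> simp
      simp only [e1, e2, sum_pick]
      simp only [hj, if_true, Hm, map_sub, map_smul, mp_bv, lam_lam, hd_lam, mul_assoc,
        D.coc g, inv_mul_cancel_left, add_smul]
      abel
    · simp [hj]

/-- the derivative of a group element -/
def DD (g : H) : Module.End ℂ (W H J →₀ ℂ) :=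
  (D.ψ g).sum fun u c => c • (mp (lam (u * D.γ)) * zl j0 * mp (lam (u⁻¹ * g)) -
    mp (lam u) * zl j0 * mp (lam (D.γ⁻¹ * u⁻¹ * g)))

lemma ad_lam (g : H) : ad (D.LL j0) (mp (lam g)) = D.DD j0 g := by
  refine end_ext fun w => ?_
  simp only [ad_apply, LL, LinearMap.sub_apply, Module.End.mul_apply, mp_bv, op_bv, map_sub,
    Lp_lam, Lm_lam, mapDomain_eq_sum, DD, Finsupp.sum, LinearMap.sum_apply, LinearMap.smul_apply,
    zl, LinearMap.add_apply, map_add, smul_sub, smul_add, Finset.sum_sub_distrib,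
    Finset.sum_add_distrib, F1, F2, lam_c, lam_lam, mul_one]
  abel

lemma psi_ells (j : J) (v : W H J) (u : H) : D.ψ (hd v) u • ells j v = 0 := by
  cases v with
  | one x => simp [ells]
  | cons x i w =>
    rw [ells]
    split_ifs with h
    · simp [hd, h.1, psi1]
    · simp

lemma ells_P1 (j : J) (w : W H J) : op (ells j) (D.P1 j0 w) =
    if j = j0 then D.ψ (hd w) 1 • bv (lam D.γ⁻¹ w) else 0 := by
  rw [P1, mapDomain_eq_sum, map_finsuppSum]
  simp only [map_smul, op_bv, F1, ells]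
  split_ifs with h
  · simp only [h, and_true, sum_pick]
    simp
  · simp [Ne.symm h]

lemma ells_P2 (j : J) (w : W H J) : op (ells j) (D.P2 j0 w) =
    if j = j0 then D.ψ (hd w) D.γ⁻¹ • bv (lam D.γ w) else 0 := by
  rw [P2, mapDomain_eq_sum, map_finsuppSum]
  simp only [map_smul, op_bv, F2, ells]
  split_ifs with h
  · simp only [h, and_true, mul_eq_one_iff_eq_inv, sum_pick]
    simp
  · simp [Ne.symm h]

lemma ells_Lp (j : J) (w : W H J) : op (ells j) (D.Lp j0 w) = op (D.Lp j0) (ells j w) +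
    if j = j0 then D.ψ (hd w) D.γ⁻¹ • bv (lam D.γ w) - D.ψ (hd w) 1 • bv (lam D.γ⁻¹ w)
    else 0 := by
  cases w with
  | one x =>
    simp only [Lp, map_sub, ells_P1, ells_P2, ells, map_zero, zero_add]
    split_ifs <;> simp
  | cons x i w =>
    simp only [Lp, map_sub, map_add, ells_P1, ells_P2, ells, ells_mp_cons]
    split_ifs
    · simp only [op_bv]; abel
    all_goals simp

lemma ells_Lm (j : J) (w : W H J) : op (ells j) (D.Lm j0 w) = op (D.Lm j0) (ells j w) := by
  cases w with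
  | one x => simp [Lm, ells]
  | cons x i w =>
    have : op (ells j) (if i = j0 then D.Hm x w else 0) = 0 := by
      split_ifs
      · simp only [Hm, map_sub, map_smul, op_bv, psi_ells, sub_zero]
      · simp
    simp only [Lm, map_add, this, ells, ells_mp_cons, zero_add]
    split_ifs <;> simp

lemma ad_zl (j : J) :
    ad (D.LL j0) (zl j) = if j = j0 then mp (lam D.γ) + mp (lam D.γ⁻¹) else 0 := by
  refine end_ext fun w => ?_
  have h1 : D.P1 j0 (cons 1 j w) = 0 := by simp [P1, hd, psi1]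
  have h2 : D.P2 j0 (cons 1 j w) = 0 := by simp [P2, hd, psi1]
  simp only [ad_apply, LL, LinearMap.sub_apply, Module.End.mul_apply, mp_bv, op_bv, map_sub,
    zl, LinearMap.add_apply, map_add, ells_Lp, ells_Lm, Lp, Lm, h1, h2]
  split_ifs
  · simp only [Hm, one_mul, hd_lam, D.coc, psi_inv, mul_inv_cancel, D.psi_one, inv_inv, mul_one,
      LinearMap.add_apply, mp_bv, add_smul, neg_smul, one_smul]
    abel
  · simp

end Data

/-- algebraic left algebra -/
inductive OO : Module.End ℂ (W H J →₀ ℂ) → Prop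
  | lam (g : H) : OO (mp (lam g))
  | zl (j : J) : OO (zl j)
  | add {s t : Module.End ℂ (W H J →₀ ℂ)} : OO s → OO t → OO (s + t)
  | mul {s t : Module.End ℂ (W H J →₀ ℂ)} : OO s → OO t → OO (s * t)
  | smul (c : ℂ) {t : Module.End ℂ (W H J →₀ ℂ)} : OO t → OO (c • t)

lemma OO.zero : OO (0 : Module.End ℂ (W H J →₀ ℂ)) := by
  simpa using (OO.lam (J := J) (1 : H)).smul 0

lemma OO.sub {s t : Module.End ℂ (W H J →₀ ℂ)} (hs : OO s) (ht : OO t) : OO (s - t) := by
  have : s - t = s + (-1 : ℂ) • t := end_ext fun x => by simp [sub_eq_add_neg]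
  rw [this]
  exact hs.add (ht.smul _)

lemma DD_mem (g : H) : OO (D.DD j0 g) := by
  have key : ∀ a b : H, OO (mp (lam a) * zl j0 * mp (lam b)) := fun a b =>
    ((OO.lam a).mul (OO.zl j0)).mul (OO.lam b)
  exact Finset.sum_induction _ OO (fun a b ha hb => ha.add hb) OO.zero fun u _ =>
    ((key _ _).sub (key _ _)).smul _

lemma OO.ad {t : Module.End ℂ (W H J →₀ ℂ)} (ht : OO t) : OO (ad (D.LL j0) t) := by
  induction ht with
  | lam g => rw [D.ad_lam]; exact DD_mem D j0 g
  | zl j =>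
    rw [D.ad_zl]
    split_ifs
    exacts [(OO.lam _).add (OO.lam _), OO.zero]
  | add _ _ hx hy => rw [map_add]; exact hx.add hy
  | mul hx' hy' hx hy => rw [ad_mul]; exact (hx.mul hy').add (hx'.mul hy)
  | smul c _ hx => rw [map_smul]; exact hx.smul c

lemma OO.ad_pow {t : Module.End ℂ (W H J →₀ ℂ)} (ht : OO t) (N : ℕ) :
    OO ((P086.ad (D.LL j0) ^ N) t) := by
  induction N with
  | zero => simpa using ht
  | succ N ih => rw [pow_succ', Module.End.mul_apply]; exact ih.ad D j0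

lemma OO.comm {ρ t : Module.End ℂ (W H J →₀ ℂ)} (h1 : ∀ g, mp (W.lam g) * ρ = ρ * mp (W.lam g))
    (h2 : ∀ j, P086.zl j * ρ = ρ * P086.zl j) (ht : OO t) : ρ * t = t * ρ := by
  induction ht with
  | lam g => exact (h1 g).symm
  | zl j => exact (h2 j).symm
  | add _ _ hx hy => rw [mul_add, add_mul, hx, hy]
  | mul _ _ hx hy => rw [← mul_assoc, hx, mul_assoc, hy, mul_assoc]
  | smul c _ hx => rw [mul_smul_comm, smul_mul_assoc, hx]

lemma flow_conj_L {r s : ℝ} (h : Gen eb (D.LL j0) r) (hr : 0 ≤ r) (hs : r * |s| ≤ 1 / 2)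
    {U : L2 (W H J) →L[ℂ] L2 (W H J)} (hU : IsFlow eb (D.LL j0) s U) :
    ∀ l ∈ Lset H J, star U * l * U ∈ MM H J := by
  have key : ∀ T t, Lift eb T t → OO t → star U * T * U ∈ MM H J := fun T t hT ht =>
    mem_MM (fun g => h.comm hr hs hU hT (lift_Rho g) ((lift_Rho g).star (transp_rho g))
      fun N => (ht.ad_pow D j0 N).comm (fun h => lam_rho h g) (zl_rho g))
    fun j => h.comm hr hs hU hT (lift_ZR j) (by rw [star_ZR]; exact lift_ZR j)
      fun N => (ht.ad_pow D j0 N).comm (fun h => lam_zr h j) (fun i => zl_zr i j)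
  rintro _ (⟨g, rfl⟩ | ⟨j, rfl⟩)
  exacts [key _ _ (lift_Lam g) (OO.lam g), key _ _ (lift_ZL j) (OO.zl j)]

end

end Vale.Agent.P086
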