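import Vale.Agent.P086.Loc

open scoped InnerProductSpace ComplexConjugate Topology Classical
open Filter

namespace Vale.Agent.P086

section general

variable {K : Type} [NormedAddCommGroup K] [InnerProductSpace ℂ K] [CompleteSpace K]

lemma proj_comm (N : Submodule ℂ K) [N.HasOrthogonalProjection] {T : K →L[ℂ] K}
    (h1 : ∀ ξ ∈ N, T ξ ∈ N) (h2 : ∀ ξ ∈ N, (star T) ξ ∈ N) :
    N.starProjection * T = T * N.starProjection := by
  have key : ∀ S : K →L[ℂ] K, (∀ ξ ∈ N, S ξ ∈ N) →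
      N.starProjection * S * N.starProjection = S * N.starProjection := fun S hS => by
    ext ξ
    exact Submodule.starProjection_eq_self_iff.2 (hS _ (N.starProjection_apply_mem ξ))
  have h3 := congrArg star (key _ h2)
  simp only [star_mul, star_star, (isSelfAdjoint_starProjection N).star_eq, ← mul_assoc] at h3
  rw [← h3, key _ h1]

/-- resolvent -/
noncomputable def res (x : K →L[ℂ] K) (c : ℂ) : K →L[ℂ] K := Ring.inverse (c • 1 - x)

variable {x : K →L[ℂ] K} {c : ℂ}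

lemma res_unit (hx : IsSelfAdjoint x) (hc : |c.im| = 1) : IsUnit (c • 1 - x) := by
  rw [← Algebra.algebraMap_eq_smul_one, ← spectrum.notMem_iff]
  intro h
  rw [hx.im_eq_zero_of_mem_spectrum h] at hc
  simp at hc

lemma mul_res (hx : IsSelfAdjoint x) (hc : |c.im| = 1) : (c • 1 - x) * res x c = 1 :=
  Ring.mul_inverse_cancel _ (res_unit hx hc)

lemma res_mul (hx : IsSelfAdjoint x) (hc : |c.im| = 1) : res x c * (c • 1 - x) = 1 :=
  Ring.inverse_mul_cancel _ (res_unit hx hc)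

lemma norm_res (hx : IsSelfAdjoint x) (hc : |c.im| = 1) : ‖res x c‖ ≤ 1 := by
  refine ContinuousLinearMap.opNorm_le_bound _ zero_le_one fun ξ => ?_
  set η := res x c ξ
  have h1 : (c • 1 - x) η = ξ := by rw [← mul_apply_eq_comp, mul_res hx hc]; rfl
  have h2 : (⟪η, x η⟫_ℂ).im = 0 := by
    rw [← Complex.conj_eq_iff_im, inner_conj_symm, ← inner_star_right, hx.star_eq]
  have h3 : (⟪η, ξ⟫_ℂ).im = c.im * ‖η‖ ^ 2 := by
    rw [← h1]
    simp only [sub_apply, smul_apply, one_apply_eq_self, inner_sub_right, inner_smul_right,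
      Complex.sub_im, h2, sub_zero, inner_self_eq_norm_sq_to_K]
    simp [← Complex.ofReal_pow]
  have h4 : ‖η‖ ^ 2 ≤ ‖η‖ * ‖ξ‖ := by
    have := (Complex.abs_im_le_norm _).trans (norm_inner_le_norm (𝕜 := ℂ) η ξ)
    rwa [h3, abs_mul, hc, one_mul, abs_of_nonneg (by positivity)] at this
  by_contra hlt
  push Not at hlt
  nlinarith [norm_nonneg ξ]

lemma res_comm (hx : IsSelfAdjoint x) (hc : |c.im| = 1) {r : K →L[ℂ] K} (h : r * x = x * r) :
    r * res x c = res x c * r := by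
  have h1 : (c • 1 - x) * r = r * (c • 1 - x) := by simp [sub_mul, mul_sub, h]
  calc r * res x c = res x c * ((c • 1 - x) * r) * res x c := by
        rw [← mul_assoc, res_mul hx hc, one_mul]
    _ = res x c * r := by rw [h1, mul_assoc, mul_assoc, mul_res hx hc, mul_one]

lemma star_res (hx : IsSelfAdjoint x) : star (res x c) = res x (conj c) := by
  rw [res, ← Ring.inverse_star, star_sub, star_smul, hx.star_eq, star_one]
  rfl

lemma res_mem (hx : IsSelfAdjoint x) (hc : |c.im| = 1) {R : Set (K →L[ℂ] K)}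
    (h : x ∈ StarSubalgebra.centralizer ℂ R) : res x c ∈ StarSubalgebra.centralizer ℂ R :=
  mem_cent.2 fun r hr => ⟨res_comm hx hc (mem_cent.1 h r hr).1, res_comm hx hc (mem_cent.1 h r hr).2⟩

lemma Apx.mem {M : StarSubalgebra ℂ (K →L[ℂ] K)} {Ω : K} (h : Apx M Ω) {N : Submodule ℂ K}
    (hN : IsClosed (N : Set K)) (h1 : ∀ x ∈ M, x Ω ∈ N) (ξ : K) : ξ ∈ N := by
  refine hN.closure_subset (Metric.mem_closure_iff.2 fun ε hε => ?_)
  obtain ⟨x, hx, hd⟩ := h ξ ε hε
  exact ⟨x Ω, h1 x hx, by rwa [dist_eq_norm]⟩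

lemma null_inv {ι : Type} {l : Filter ι} {M : StarSubalgebra ℂ (K →L[ℂ] K)} {Ω : K}
    (htr : Tracial M Ω) (hA : Apx M Ω) {Θ y : ι → K →L[ℂ] K} (hΘ : ∀ i, Θ i ∈ Nor M Ω)
    {P T : K →L[ℂ] K} (hT : T ∈ M) (hy : ∀ i, y i ∈ M) (hy1 : ∀ i, ‖y i‖ ≤ 1)
    (hP : ∀ i, P * y i = y i * P)
    (h : Tendsto (fun i => ‖Θ i (T Ω) - y i Ω‖) l (𝓝 0)) :
    ∀ ξ ∈ nullSub (fun i => P * Θ i) l, T ξ ∈ nullSub (fun i => P * Θ i) l := by
  let B : ι → K →L[ℂ] K := fun i => T - star (Θ i) * y i * Θ i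
  have hBM : ∀ i, B i ∈ M := fun i => sub_mem hT ((hΘ i).2.2 _ (hy i)).1
  have hΘB : ∀ i ξ, Θ i (B i ξ) = Θ i (T ξ) - y i (Θ i ξ) := fun i ξ => by
    have : Θ i * B i = Θ i * T - y i * Θ i := by
      simp only [B, mul_sub, ← mul_assoc, (hΘ i).1.2, one_mul]
    exact congrArg (fun F : K →L[ℂ] K => F ξ) this
  have hB : ∀ ξ, ξ ∈ nullSub B l := by
    refine hA.mem (isClosed_nullSub B l (C := ‖T‖ + 1) (by positivity) fun i v => ?_) fun x hx => ?_
    · rw [← norm_unitary (hΘ i).1, hΘB]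
      refine (norm_sub_le _ _).trans ?_
      have h1 := (y i).le_opNorm (Θ i v)
      rw [norm_unitary (hΘ i).1] at h1 ⊢
      nlinarith [T.le_opNorm v, hy1 i, norm_nonneg v]
    · refine squeeze_zero_norm (fun i => htr.norm_mul (hBM i) hx) ?_
      have := h.const_mul ‖x‖
      rw [mul_zero] at this
      refine this.congr fun i => ?_
      rw [← norm_unitary (hΘ i).1 (B i Ω), hΘB, (hΘ i).2.1]
  intro ξ hξ
  have h1 : Tendsto (fun i => P (Θ i (B i ξ))) l (𝓝 0) := by
    have h2 : Tendsto (fun i => Θ i (B i ξ)) l (𝓝 0) :=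
      squeeze_zero_norm (fun i => (norm_unitary (hΘ i).1 _).le) (by simpa using (hB ξ).norm)
    simpa [Function.comp_def] using (P.continuous.tendsto 0).comp h2
  have h2 : Tendsto (fun i => y i ((P * Θ i) ξ)) l (𝓝 0) := by
    refine squeeze_zero_norm (fun i => ((y i).le_opNorm _).trans
      (mul_le_of_le_one_left (norm_nonneg _) (hy1 i))) (by simpa using Tendsto.norm hξ)
  have h3 := h1.add h2
  rw [add_zero] at h3
  refine h3.congr fun i => ?_
  have h4 : P (y i (Θ i ξ)) = y i (P (Θ i ξ)) :=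
    congrArg (fun F : K →L[ℂ] K => F (Θ i ξ)) (hP i)
  simp only [hΘB, map_sub, mul_apply_eq_comp, h4, sub_add_cancel]

lemma res_close {M : StarSubalgebra ℂ (K →L[ℂ] K)} {Ω : K} (htr : Tracial M Ω)
    {Θ z : K →L[ℂ] K} (hΘ : Θ ∈ Nor M Ω) (hx : IsSelfAdjoint x) (hz : IsSelfAdjoint z)
    (hc : |c.im| = 1) (hxM : x ∈ M) (hzM : z ∈ M) (hr : res z c ∈ M) :
    ‖Θ (res z c Ω) - res x c Ω‖ ≤ ‖Θ (z Ω) - x Ω‖ := by
  have hΩ := star_fix hΘ.1 hΘ.2.1
  set T := Θ * res z c * star Θ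
  set z' := Θ * z * star Θ
  have h1 : (c • 1 - z') * T = 1 := by
    have : (c • 1 - z') = Θ * (c • 1 - z) * star Θ := by
      simp only [z', mul_sub, sub_mul, mul_smul_comm, smul_mul_assoc, mul_one, hΘ.1.2]
    rw [this]
    simp only [T, mul_assoc]
    rw [← mul_assoc (star Θ), hΘ.1.1, one_mul, ← mul_assoc (c • 1 - z), mul_res hz hc, one_mul,
      hΘ.1.2]
  have h2 : T - res x c = res x c * ((z' - x) * T) := by
    have : z' - x = (c • 1 - x) - (c • 1 - z') := by abel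
    rw [this, sub_mul (c • 1 - x), h1, mul_sub, ← mul_assoc, res_mul hx hc, one_mul, mul_one]
  have h3 : Θ (res z c Ω) - res x c Ω = res x c ((z' - x) (T Ω)) := by
    have := congrArg (fun F : K →L[ℂ] K => F Ω) h2
    simpa [T, mul_apply_eq_comp, hΩ] using this
  have hT1 : ‖T‖ ≤ 1 := ContinuousLinearMap.opNorm_le_bound _ zero_le_one fun ξ => by
    simp only [T, mul_apply_eq_comp, norm_unitary hΘ.1]
    refine ((res z c).le_opNorm _).trans ?_
    rw [norm_unitary (Unitary.star_mem hΘ.1)]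
    gcongr
    exact norm_res hz hc
  have h4 := htr.norm_mul (sub_mem (hΘ.2.2 z hzM).2 hxM) (hΘ.2.2 _ hr).2
  have h5 : (z' - x) Ω = Θ (z Ω) - x Ω := by simp [z', mul_apply_eq_comp, hΩ]
  rw [h3]
  refine ((res x c).le_opNorm _).trans ((mul_le_of_le_one_left (norm_nonneg _)
    (norm_res hx hc)).trans (h4.trans ?_))
  rw [h5]
  exact mul_le_of_le_one_left (norm_nonneg _) hT1

lemma sa_close {M : StarSubalgebra ℂ (K →L[ℂ] K)} {Ω : K} (htr : Tracial M Ω)
    {z : K →L[ℂ] K} (hz : IsSelfAdjoint z) (hxM : x ∈ M) (hzM : z ∈ M) :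
    ‖z Ω - ((1 / 2 : ℂ) • (x + star x)) Ω‖ ≤ ‖z Ω - x Ω‖ := by
  have h1 := htr.norm_star (sub_mem hzM hxM)
  rw [star_sub, hz.star_eq] at h1
  have : z Ω - ((1 / 2 : ℂ) • (x + star x)) Ω = (1 / 2 : ℂ) • ((z - x) Ω + (z - star x) Ω) := by
    simp only [smul_apply, add_apply, sub_apply]
    module
  rw [this, norm_smul]
  have h2 := norm_add_le ((z - x) Ω) ((z - star x) Ω)
  rw [h1] at h2
  simp only [one_div, norm_inv, Complex.norm_ofNat, sub_apply] at h2 ⊢
  linarith

end general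

noncomputable section

open W

variable {H J : Type} [Group H] {len : H → ℕ}

lemma Lam_K0 (g : H) : ∀ ξ ∈ K0 H J, Lam g ξ ∈ K0 H J :=
  K0_le (N := (K0 H J).comap (Lam (J := J) g).toLinearMap)
    ((Submodule.isClosed_topologicalClosure _).preimage (Lam g).continuous)
    fun h => by simpa [lam] using one_mem_K0 (g * h)

lemma proj_Lam (g : H) : (K0 H J).starProjection * Lam g = Lam g * (K0 H J).starProjection :=
  proj_comm _ (Lam_K0 g) (by rw [star_Lam]; exact Lam_K0 _)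

lemma exists_sa {η : L2 (W H J)} (hη : η ∈ K0 H J) {z : L2 (W H J) →L[ℂ] L2 (W H J)}
    (hz : IsSelfAdjoint z) (hzM : z ∈ MM H J) {ε : ℝ} (hε : 0 < ε) (h : ‖z (Om H J) - η‖ ≤ ε) :
    ∃ x, IsSelfAdjoint x ∧ x ∈ MM H J ∧
      (K0 H J).starProjection * x = x * (K0 H J).starProjection ∧
      ‖z (Om H J) - x (Om H J)‖ ≤ 2 * ε := by
  let A := MM H J ⊓ StarSubalgebra.centralizer ℂ {(K0 H J).starProjection}
  have hA : ∀ x ∈ A, (K0 H J).starProjection * x = x * (K0 H J).starProjection := fun x hx =>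
    (mem_cent.1 hx.2 _ rfl).1
  obtain ⟨ζ, hζ, hd⟩ := Metric.mem_closure_iff.1 hη ε hε
  have : ∃ x ∈ A, x (Om H J) = ζ := by
    refine Submodule.span_induction (p := fun ζ _ => ∃ x ∈ A, x (Om H J) = ζ) ?_ ?_ ?_ ?_ hζ
    · rintro _ ⟨g, rfl⟩
      refine ⟨Lam g, ⟨Lam_mem g, mem_cent.2 ?_⟩, by simp [lam]⟩
      rintro _ rfl
      rw [(isSelfAdjoint_starProjection _).star_eq]
      exact ⟨proj_Lam g, proj_Lam g⟩
    · exact ⟨0, zero_mem _, rfl⟩
    · rintro _ _ _ _ ⟨x, hx, rfl⟩ ⟨y, hy, rfl⟩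
      exact ⟨x + y, add_mem hx hy, rfl⟩
    · rintro c _ _ ⟨x, hx, rfl⟩
      exact ⟨c • x, SMulMemClass.smul_mem c hx, rfl⟩
  obtain ⟨x, hx, rfl⟩ := this
  have hx' : (1 / 2 : ℂ) • (x + star x) ∈ A := SMulMemClass.smul_mem _ (add_mem hx (star_mem hx))
  refine ⟨_, ?_, hx'.1, hA _ hx', (sa_close tracial_MM hz hx.1 hzM).trans ?_⟩
  · simp [IsSelfAdjoint, add_comm]
  · rw [dist_eq_norm] at hd
    linarith [norm_sub_le_norm_sub_add_norm_sub (z (Om H J)) η (x (Om H J))]

lemma absorb {ι : Type} {l : Filter ι} {Θ : ι → L2 (W H J) →L[ℂ] L2 (W H J)}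
    (hΘ : ∀ i, Θ i ∈ Nor (MM H J) (Om H J)) {ε : ι → ℝ} (hε : ∀ i, 0 < ε i)
    (hε0 : Tendsto ε l (𝓝 0)) (h1 : ∀ g, ∀ᶠ i in l, ‖Θ i (eb (one g)) - eb (one g)‖ ≤ ε i)
    (h2 : ∀ j, ∀ᶠ i in l, ∃ η ∈ K0 H J, ‖Θ i (eb (x0 j)) - η‖ ≤ ε i) (ξ : L2 (W H J)) :
    ξ ∈ nullSub (fun i => (1 - (K0 H J).starProjection) * Θ i) l := by
  set P := 1 - (K0 H J).starProjection with hP
  have hA : Apx (MM H J) (Om H J) := cyc_L.apx _ Lset_sub
  have hcl : IsClosed (nullSub (fun i => P * Θ i) l : Set (L2 (W H J))) :=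
    isClosed_nullSub _ _ (C := ‖P‖ + 1) (by positivity) fun i v => by
      have := P.le_opNorm (Θ i v)
      rw [norm_unitary (hΘ i).1] at this
      rw [mul_apply_eq_comp]
      nlinarith [norm_nonneg v]
  have hPc : ∀ y : L2 (W H J) →L[ℂ] L2 (W H J),
      (K0 H J).starProjection * y = y * (K0 H J).starProjection → P * y = y * P := fun y hy => by
    rw [hP, sub_mul, mul_sub, hy, one_mul, mul_one]
  refine cyc_L _ hcl ?_ ?_ ξ
  · refine tendsto_const_nhds.congr fun i => ?_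
    rw [mul_apply_eq_comp, (hΘ i).2.1, hP, sub_apply,
      Submodule.starProjection_eq_self_iff.2 (one_mem_K0 1)]
    simp
  · rintro _ (⟨g, rfl⟩ | ⟨j, rfl⟩)
    · refine null_inv tracial_MM hA hΘ (y := fun _ => Lam g) (Lam_mem g) (fun _ => Lam_mem g)
        (fun _ => norm_iso_le _ _ _) (fun _ => hPc _ (proj_Lam g)) ?_
      refine squeeze_zero' (Eventually.of_forall fun _ => norm_nonneg _) ?_ hε0
      simpa [lam] using h1 g
    · have hz : IsSelfAdjoint (ZL j : L2 (W H J) →L[ℂ] _) := star_ZL j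
      have hx : ∀ i, ∃ x, IsSelfAdjoint x ∧ x ∈ MM H J ∧
          (K0 H J).starProjection * x = x * (K0 H J).starProjection ∧
          ((∃ η ∈ K0 H J, ‖Θ i (eb (x0 j)) - η‖ ≤ ε i) →
            ‖Θ i (ZL j (Om H J)) - x (Om H J)‖ ≤ 2 * ε i) := by
        intro i
        by_cases h : ∃ η ∈ K0 H J, ‖Θ i (eb (x0 j)) - η‖ ≤ ε i
        · obtain ⟨η, hη, hd⟩ := h
          have e : (Θ i * ZL j * star (Θ i) : L2 (W H J) →L[ℂ] L2 (W H J)) (Om H J) = Θ i (eb (x0 j)) := by
            simp only [mul_apply_eq_comp, star_fix (hΘ i).1 (hΘ i).2.1, ZL_Om, x0]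
          obtain ⟨x, a1, a2, a3, a4⟩ := exists_sa hη (z := Θ i * ZL j * star (Θ i))
            (hz.conjugate _) ((hΘ i).2.2 _ (ZL_mem j)).2 (hε i) (by rwa [e])
          exact ⟨x, a1, a2, a3, fun _ => by rwa [e, x0, ← ZL_Om] at a4⟩
        · exact ⟨0, IsSelfAdjoint.zero _, zero_mem _, by simp, fun h' => absurd h' h⟩
      choose x a1 a2 a3 a4 using hx
      have key : ∀ c : ℂ, |c.im| = 1 → ∀ ξ ∈ nullSub (fun i => P * Θ i) l,
          res (ZL j) c ξ ∈ nullSub (fun i => P * Θ i) l := fun c hc => by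
        refine null_inv tracial_MM hA hΘ (y := fun i => res (x i) c) (res_mem hz hc (ZL_mem j))
          (fun i => res_mem (a1 i) hc (a2 i)) (fun i => norm_res (a1 i) hc)
          (fun i => hPc _ (res_comm (a1 i) hc (a3 i))) ?_
        refine squeeze_zero' (Eventually.of_forall fun _ => norm_nonneg _) ?_
          (by simpa using hε0.const_mul 2)
        filter_upwards [h2 j] with i hi
        exact (res_close tracial_MM (hΘ i) (a1 i) hz hc (a2 i) (ZL_mem j)
          (res_mem hz hc (ZL_mem j))).trans (a4 i hi)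
      have := hcl.completeSpace_coe
      set N := nullSub (fun i => P * Θ i) l
      have hI : |Complex.I.im| = 1 := by simp
      have hc := proj_comm N (key _ hI) (by rw [star_res hz]; exact key _ (by simp))
      have hc2 : N.starProjection * (Complex.I • 1 - ZL j) =
          (Complex.I • 1 - ZL j) * N.starProjection := by
        calc _ = (Complex.I • 1 - ZL j) * (res (ZL j) Complex.I * N.starProjection) *
              (Complex.I • 1 - ZL j) := by rw [← mul_assoc, mul_res hz hI, one_mul]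
          _ = _ := by rw [← hc, mul_assoc, mul_assoc, res_mul hz hI, mul_one]
      intro ξ hξ
      have h3 := congrArg (fun F : L2 (W H J) →L[ℂ] L2 (W H J) => F ξ) hc2
      simp only [mul_apply_eq_comp, Submodule.starProjection_eq_self_iff.2 hξ] at h3
      have h4 := sub_mem (N.smul_mem Complex.I hξ) (Submodule.starProjection_eq_self_iff.1 h3)
      simpa using h4

lemma Seq.abs (S : Seq H len) (ξ : L2 (W H J)) (F : Finset H) {δ : ℝ} (hδ : 0 < δ) :
    ∃ Θ ∈ Nor (MM H J) (Om H J), (∀ g ∈ F, ‖Θ (eb (one g)) - eb (one g)‖ < δ) ∧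
      ∃ η ∈ K0 H J, ‖Θ ξ - η‖ < δ := by
  have hloc := fun i : Finset H × Finset J × ℕ => S.loc i.2.1 (i.1.image fun g => eb (one g))
    (by simp only [Finset.mem_image]; rintro _ ⟨g, -, rfl⟩; exact one_mem_K0 g)
    (ε := 1 / ((i.2.2 : ℝ) + 1)) (by positivity)
  choose Θ hΘ _ h1 h2 using hloc
  have hε0 : Tendsto (fun i : Finset H × Finset J × ℕ => 1 / ((i.2.2 : ℝ) + 1)) atTop (𝓝 0) := by
    refine tendsto_one_div_add_atTop_nhds_zero_nat.comp ?_
    rw [← prod_atTop_atTop_eq, ← prod_atTop_atTop_eq]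
    exact tendsto_snd.comp tendsto_snd
  have e1 : ∀ g, ∀ᶠ i : Finset H × Finset J × ℕ in atTop,
      ‖Θ i (eb (one g)) - eb (one g)‖ ≤ 1 / ((i.2.2 : ℝ) + 1) := fun g => by
    filter_upwards [eventually_ge_atTop (({g}, ∅, 0) : Finset H × Finset J × ℕ)] with i hi
    exact h1 i _ (Finset.mem_image_of_mem _ (hi.1 (Finset.mem_singleton_self g)))
  have h3 := absorb hΘ (fun i => by positivity) hε0 e1 (fun j => by
    filter_upwards [eventually_ge_atTop ((∅, {j}, 0) : Finset H × Finset J × ℕ)] with i hi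
    exact h2 i _ (hi.2.1 (Finset.mem_singleton_self j))) ξ
  obtain ⟨i, ⟨b1, b2⟩, b3⟩ := ((((eventually_all_finset F).2 fun g _ => e1 g).and
    (hε0.eventually (gt_mem_nhds hδ))).and (Metric.tendsto_nhds.1 h3 δ hδ)).exists
  refine ⟨Θ i, hΘ i, fun g hg => (b1 g hg).trans_lt b2, _,
    (K0 H J).starProjection_apply_mem (Θ i ξ), ?_⟩
  simpa [mul_apply_eq_comp] using b3

omit [Group H] in
lemma countable_W [Countable H] [Countable J] : Countable (W H J) := by
  let f : W H J → List (H × Option J) := fun w =>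
    W.rec (fun g => [(g, none)]) (fun g j _ L => (g, some j) :: L) w
  refine Function.Injective.countable (f := f) fun v => ?_
  induction v with
  | one x => intro w h; cases w <;> simp_all [f]
  | cons x j v ih =>
    intro w h
    cases w with
    | one y => simp [f] at h
    | cons y i w =>
      simp only [f, List.cons.injEq, Prod.mk.injEq, Option.some.injEq] at h
      rw [h.1.1, h.1.2, ih h.2]

theorem Seq.equiv [Countable H] [Countable J] (S : Seq H len) :
    Nonempty (LG H ≃⋆ₐ[ℂ] MM H J) := by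
  have := countable_W (H := H) (J := J)
  let orb : Nor (MM H J) (Om H J) → H → L2 (W H J) := fun V g => V.1 (eb (one g))
  let Y : Set (H → L2 (W H J)) := closure (Set.range orb)
  have : TopologicalSpace.IsCompletelyMetrizableSpace Y :=
    isClosed_closure.isCompletelyMetrizableSpace
  let O : W H J × ℕ → Set (H → L2 (W H J)) := fun p =>
    {f | ∃ c : H →₀ ℂ, ‖eb p.1 - Finsupp.linearCombination ℂ f c‖ < 1 / ((p.2 : ℝ) + 1)}
  have hO : ∀ p, IsOpen (O p) := fun p => by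
    simp only [O, Set.ofPred_exists]
    refine isOpen_iUnion fun c => isOpen_lt ?_ continuous_const
    simp only [Finsupp.linearCombination_apply, Finsupp.sum]
    fun_prop
  have hD : ∀ p, Dense (Subtype.val ⁻¹' O p : Set Y) := fun p => by
    rw [Subtype.dense_iff, Subtype.image_preimage_coe]
    refine closure_minimal ?_ isClosed_closure
    rintro _ ⟨V, rfl⟩
    rw [mem_closure_iff_nhds]
    intro t ht
    rw [nhds_pi, Filter.mem_pi'] at ht
    obtain ⟨F, u, hu, hsub⟩ := ht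
    have : ∀ᶠ δ in 𝓝[>] (0 : ℝ), ∀ g ∈ F, Metric.ball (orb V g) δ ⊆ u g := by
      rw [eventually_all_finset]
      exact fun g _ => eventually_nhdsWithin_of_eventually_nhds (eventually_ball_subset (hu g))
    have hp : (0 : ℝ) < 1 / ((p.2 : ℝ) + 1) / 2 := by positivity
    obtain ⟨δ, ⟨hδ1, hδ2⟩, hδ⟩ := ((this.and (eventually_nhdsWithin_of_eventually_nhds
      (gt_mem_nhds hp))).and self_mem_nhdsWithin).exists
    obtain ⟨Θ, hΘ, b1, η, hη, b2⟩ := S.abs ((star V.1) (eb p.1)) F hδ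
    let V' : Nor (MM H J) (Om H J) := ⟨V.1 * star Θ, mul_mem V.2 (Nor.star_mem hΘ)⟩
    refine ⟨orb V', hsub fun g hg => hδ1 g hg ?_, subset_closure ⟨V', rfl⟩, ?_⟩
    · rw [mem_ball_iff_norm]
      simp only [orb, V', mul_apply_eq_comp]
      rw [← map_sub, norm_unitary V.2.1, norm_star_sub hΘ.1]
      exact b1 g hg
    · obtain ⟨ζ, hζ, hd⟩ := Metric.mem_closure_iff.1 hη δ hδ
      obtain ⟨c, rfl⟩ := Finsupp.mem_span_range_iff_exists_finsupp.1 hζ
      refine ⟨c, ?_⟩
      have e1 : Finsupp.linearCombination ℂ (orb V') c = V'.1 (c.sum fun g a => a • eb (one g)) := by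
        simp [Finsupp.linearCombination_apply, Finsupp.sum, orb]
      have e2 : eb p.1 = V'.1 (Θ ((star V.1) (eb p.1))) := by
        simp only [V', ← mul_apply_eq_comp, mul_assoc]
        rw [← mul_assoc (star Θ), hΘ.1.1, one_mul, V.2.1.2]
        rfl
      rw [e1, e2, ← map_sub, norm_unitary V'.2.1]
      rw [dist_eq_norm] at hd
      linarith [norm_sub_le_norm_sub_add_norm_sub (Θ ((star V.1) (eb p.1))) η
        (c.sum fun g a => a • eb (one g))]
  have : Nonempty Y := ⟨⟨orb 1, subset_closure ⟨1, rfl⟩⟩⟩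
  obtain ⟨⟨f, hfY⟩, hf⟩ :=
    (dense_iInter_of_isOpen (fun p => (hO p).preimage continuous_subtype_val) hD).nonempty
  simp only [Set.mem_iInter, Set.mem_preimage] at hf
  have horth : Orthonormal ℂ f := by
    rw [orthonormal_iff_ite]
    intro g h
    have hc : IsClosed {f : H → L2 (W H J) | ⟪f g, f h⟫_ℂ = if g = h then 1 else 0} :=
      isClosed_eq (by fun_prop) continuous_const
    refine closure_minimal ?_ hc hfY
    rintro _ ⟨V, rfl⟩
    simp only [orb, Set.mem_ofPred_eq]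
    rw [← inner_star_right, ← mul_apply_eq_comp, V.2.1.1]
    simpa using orthonormal_iff_ite.1 eb.orthonormal (one g : W H J) (one h)
  have htot : ⊤ ≤ (Submodule.span ℂ (Set.range f)).topologicalClosure := by
    intro ξ _
    refine mem_of_basis eb _ (Submodule.isClosed_topologicalClosure _) (fun x => ?_) ξ
    refine Metric.mem_closure_iff.2 fun ε hε => ?_
    obtain ⟨n, hn⟩ := exists_nat_one_div_lt hε
    obtain ⟨c, hc⟩ := hf (x, n)
    exact ⟨_, Finsupp.mem_span_range_iff_exists_finsupp.2 ⟨c, rfl⟩,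
      by rw [dist_eq_norm]; exact hc.trans hn⟩
  let b := HilbertBasis.mk horth htot
  have hb : ⇑b = f := HilbertBasis.coe_mk _ _
  obtain ⟨u, hu, hlim⟩ := mem_closure_iff_seq_limit.1 hfY
  choose V hV using hu
  have hlim' : ∀ g, Tendsto (fun i => (V i).1 (eb (one g))) atTop (𝓝 (b g)) := fun g => by
    rw [hb]
    refine (tendsto_pi_nhds.1 hlim g).congr fun i => ?_
    rw [← hV i]
  have h1 : b 1 = Om H J :=
    tendsto_nhds_unique (hlim' 1) (tendsto_const_nhds.congr fun i => (V i).2.2.1.symm)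
  refine iso_of_basis b (h1 ▸ tracial_MM) fun g => ?_
  let T := iso b (g * ·) (mul_right_injective g)
  refine ⟨T, ?_, fun h => iso_apply _ _ _ _⟩
  let β : ℕ → L2 (W H J) →L[ℂ] L2 (W H J) := fun i => (V i).1 * Lam g * star (V i).1
  have hβn : ∀ i ξ, ‖β i ξ‖ = ‖ξ‖ := fun i ξ => by
    simp only [β, mul_apply_eq_comp, norm_unitary (V i).2.1, Lam, norm_iso_apply,
      norm_unitary (Unitary.star_mem (V i).2.1)]
  have hβ : ∀ ξ, Tendsto (fun i => β i ξ) atTop (𝓝 (T ξ)) := fun ξ => by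
    refine tendsto_sub_nhds_zero_iff.1 (mem_of_basis b (nullSub (fun i => β i - T) atTop)
      (isClosed_nullSub _ _ two_pos fun i v => ?_) (fun h => ?_) ξ)
    · refine (norm_sub_le (β i v) (T v)).trans ?_
      rw [hβn, norm_iso_apply, two_mul]
    · have e : ∀ i, (β i - T) (b h) = β i (b h - (V i).1 (eb (one h))) +
          ((V i).1 (eb (one (g * h))) - b (g * h)) := fun i => by
        have : (star (V i).1) ((V i).1 (eb (one h))) = eb (one h) := by
          rw [← mul_apply_eq_comp, (V i).2.1.1]; rfl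
        simp [β, T, iso_apply, mul_apply_eq_comp, this, lam]
      have t1 : Tendsto (fun i => β i (b h - (V i).1 (eb (one h)))) atTop (𝓝 0) :=
        squeeze_zero_norm (fun i => (hβn i _).le)
          (by simpa using ((hlim' h).const_sub (b h)).norm)
      have t2 := t1.add (tendsto_sub_nhds_zero_iff.2 (hlim' (g * h)))
      rw [add_zero] at t2
      exact t2.congr fun i => (e i).symm
  have key : ∀ r : L2 (W H J) →L[ℂ] L2 (W H J), (∀ i, r * β i = β i * r) → r * T = T * r := by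
    intro r hr
    ext1 ξ
    refine tendsto_nhds_unique ((r.continuous.tendsto _).comp (hβ ξ)) ((hβ (r ξ)).congr fun i => ?_)
    exact (congrArg (fun F : L2 (W H J) →L[ℂ] L2 (W H J) => F ξ) (hr i)).symm
  have hβM : ∀ i, β i ∈ MM H J := fun i => ((V i).2.2.2 _ (Lam_mem g)).2
  exact mem_cent.2 fun r hr => ⟨key r fun i => (mem_cent.1 (hβM i) r hr).1,
    key _ fun i => (mem_cent.1 (hβM i) r hr).2⟩

end

end Vale.Agent.P086
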