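import Vale.Agent.P086.Semi

open scoped InnerProductSpace ComplexConjugate Topology Classical
open Filter
open FreeGroup hiding map_mul map_inv norm_one map_one

namespace Vale.Agent.P086

lemma isClosed_cent {K : Type} [NormedAddCommGroup K] [InnerProductSpace ℂ K] [CompleteSpace K]
    (R : Set (K →L[ℂ] K)) : IsClosed (StarSubalgebra.centralizer ℂ R : Set (K →L[ℂ] K)) := by
  have : (StarSubalgebra.centralizer ℂ R : Set (K →L[ℂ] K)) =
      ⋂ r ∈ R, ({T | r * T = T * r} ∩ {T | star r * T = T * star r}) := by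
    ext T
    simp only [SetLike.mem_coe, mem_cent, Set.mem_iInter, Set.mem_inter_iff, Set.mem_ofPred_eq]
  rw [this]
  exact isClosed_biInter fun r _ =>
    (isClosed_eq (by fun_prop) (by fun_prop)).inter (isClosed_eq (by fun_prop) (by fun_prop))

noncomputable section

open W

variable {H J : Type} [Group H]

/-- words not starting with a creation of colour `j` -/
def X0 (j : J) : Set (W H J) := {x | ∀ w, x ≠ cons 1 j w}

/-- vectors supported on a set of words -/
def Supp (S : Set (W H J)) (ξ : L2 (W H J)) : Prop := ∀ x, x ∉ S → ⟪eb x, ξ⟫_ℂ = 0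

omit [Group H] in
lemma Supp.mono {S T : Set (W H J)} {ξ : L2 (W H J)} (h : Supp S ξ) (hST : S ⊆ T) : Supp T ξ :=
  fun x hx => h x fun h' => hx (hST h')

omit [Group H] in
lemma inner_eb (x y : W H J) : ⟪eb x, eb y⟫_ℂ = if x = y then 1 else 0 :=
  orthonormal_iff_ite.1 eb.orthonormal x y

lemma ells_X0 {j : J} {x : W H J} (hx : x ∈ X0 j) : ells j x = 0 := by
  cases x with
  | one g => rfl
  | cons g i w =>
    rw [ells, if_neg]
    rintro ⟨rfl, rfl⟩
    exact hx w rfl

lemma moment {j : J} {x y : W H J} (hx : x ∈ X0 j) (hy : y ∈ X0 j) (p k : ℕ) :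
    ⟪eb y, (ZL j ^ p) (eb ((cons 1 j)^[k] x))⟫_ℂ = if y = x then (mom p k : ℂ) else 0 := by
  induction p generalizing k with
  | zero =>
    rw [pow_zero, one_apply_eq_self, inner_eb, mom_zero]
    cases k with
    | zero => by_cases h : y = x <;> simp [h]
    | succ k => simp [Function.iterate_succ_apply', hy _]
  | succ p ih =>
    rw [pow_succ, mul_apply_eq_comp, ZL_eb, map_add, inner_add_right,
      ← Function.iterate_succ_apply' (cons 1 j), ih]
    cases k with
    | zero => simp [ells_X0 hx, mom_succ_zero]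
    | succ k =>
      rw [Function.iterate_succ_apply', ells, if_pos (And.intro rfl rfl), iota_single, one_smul, ih,
        mom_succ_succ]
      split_ifs <;> simp

variable (H J) in
/-- functional calculus of the semicircular generators -/
def FC (j : J) : C(II, ℂ) →⋆ₐ[ℂ] (L2 (W H J) →L[ℂ] L2 (W H J)) :=
  (exists_fc (star_ZL (H := H) j) (norm_ZL j)).choose

lemma FC_cont (j : J) : Continuous (FC H J j) :=
  (exists_fc (star_ZL (H := H) j) (norm_ZL j)).choose_spec.1

lemma FC_cs (j : J) : FC H J j cs = ZL j :=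
  (exists_fc (star_ZL (H := H) j) (norm_ZL j)).choose_spec.2

lemma FC_mem (j : J) (f : C(II, ℂ)) : FC H J j f ∈ MM H J :=
  mem_of_pow ((MM H J).toSubalgebra.toSubmodule.comap (FC H J j).toAlgHom.toLinearMap)
    ((isClosed_cent _).preimage (FC_cont j)) (fun m => by
      show FC H J j (cs ^ m) ∈ MM H J
      rw [map_pow, FC_cs]
      exact pow_mem (ZL_mem j) m) f

lemma FC_inner {j : J} {x y : W H J} (hx : x ∈ X0 j) (hy : y ∈ X0 j) (f : C(II, ℂ)) :
    ⟪eb y, FC H J j f (eb x)⟫_ℂ = if y = x then sig f else 0 := by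
  let N : Submodule ℂ C(II, ℂ) :=
    { carrier := {f | ⟪eb y, FC H J j f (eb x)⟫_ℂ = if y = x then sig f else 0}
      add_mem' := fun {f g} hf hg => by
        simp only [Set.mem_ofPred_eq, map_add, add_apply, inner_add_right] at hf hg ⊢
        rw [hf, hg]
        split_ifs <;> simp
      zero_mem' := by simp
      smul_mem' := fun c f hf => by
        simp only [Set.mem_ofPred_eq, map_smul, smul_apply, inner_smul_right] at hf ⊢
        rw [hf]
        split_ifs <;> simp }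
  refine mem_of_pow N (isClosed_eq ?_ ?_) (fun m => ?_) f
  · have := FC_cont (H := H) j
    fun_prop
  · split_ifs <;> fun_prop
  · show ⟪eb y, FC H J j (cs ^ m) (eb x)⟫_ℂ = _
    rw [map_pow, FC_cs, sig_pow]
    exact moment hx hy m 0

lemma FC_supp {j : J} {f : C(II, ℂ)} (hf : sig f = 0) {η : L2 (W H J)} (hη : Supp (X0 j) η) :
    Supp (X0 j)ᶜ (FC H J j f η) := by
  intro y hy
  rw [Set.notMem_compl_iff] at hy
  have h1 := ((innerSL ℂ (eb y)).comp (FC H J j f)).hasSum (eb.hasSum_repr η)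
  rw [show (fun x => ((innerSL ℂ (eb y)).comp (FC H J j f)) (eb.repr η x • eb x)) = fun _ => 0
    from funext fun x => ?_] at h1
  · exact h1.unique hasSum_zero
  by_cases hx : x ∈ X0 j
  · simp [FC_inner hx hy, hf]
  · simp [eb.repr_apply_apply, hη x hx]

lemma Lam_supp {g : H} (hg : g ≠ 1) {η : L2 (W H J)} (hη : Supp {x | hd x = 1} η) :
    Supp {x | hd x ≠ 1} (Lam g η) := by
  intro x hx
  rw [← inner_star_left, star_Lam, Lam_eb]
  refine hη _ ?_
  simp only [Set.mem_ofPred_eq, not_not] at hx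
  simpa [hx] using hg

lemma Om_X0 (j : J) : (one 1 : W H J) ∈ X0 j := fun w => by simp

lemma Lam_unitary (g : H) : (Lam g : L2 (W H J) →L[ℂ] _) ∈ unitary _ :=
  ⟨by rw [star_Lam, Lam_mul, inv_mul_cancel, Lam_one],
    by rw [star_Lam, Lam_mul, mul_inv_cancel, Lam_one]⟩

lemma FC_unitary (j : J) (m : ℤ) : FC H J j (ee m) ∈ unitary _ :=
  ⟨by rw [← map_star, ← map_mul, star_ee, ee_add, neg_add_cancel, ee_zero, map_one],
    by rw [← map_star, ← map_mul, star_ee, ee_add, add_neg_cancel, ee_zero, map_one]⟩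

variable {ι : Type}

/-- the big free group inside the unitary group -/
def UU (ι J : Type) : FreeGroup (ι ⊕ J) →* unitary (L2 (W (FreeGroup ι) J) →L[ℂ] L2 (W (FreeGroup ι) J)) :=
  lift (Sum.elim (fun i => ⟨Lam (of i), Lam_unitary _⟩) fun j => ⟨FC _ J j (ee 1), FC_unitary j 1⟩)

/-- the operators -/
def uu (g : FreeGroup (ι ⊕ J)) : L2 (W (FreeGroup ι) J) →L[ℂ] L2 (W (FreeGroup ι) J) := UU ι J g

lemma uu_mul (g h : FreeGroup (ι ⊕ J)) : uu (g * h) = uu g * uu h := by simp [uu]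

lemma uu_one : uu (1 : FreeGroup (ι ⊕ J)) = 1 := by simp [uu]

lemma uu_inv (g : FreeGroup (ι ⊕ J)) : uu g⁻¹ = star (uu g) := by
  rw [uu, map_inv]; rfl

lemma uu_inl (i : ι) (s : Bool) : uu (mk [((Sum.inl i : ι ⊕ J), s)]) = Lam (mk [(i, s)]) := by
  have : uu (of (Sum.inl i : ι ⊕ J)) = Lam (of i) := by simp [uu, UU]
  cases s
  · rw [mk_false, mk_false, uu_inv, this, star_Lam]
  · exact this

lemma uu_inr (j : J) (s : Bool) :
    uu (mk [((Sum.inr j : ι ⊕ J), s)]) = FC _ J j (ee (if s then 1 else -1)) := by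
  have : uu (of (Sum.inr j : ι ⊕ J)) = FC _ J j (ee 1) := by simp [uu, UU]
  cases s
  · rw [mk_false, uu_inv, this, ← map_star, star_ee]; rfl
  · exact this

lemma uu_mem (g : FreeGroup (ι ⊕ J)) : uu g ∈ MM (FreeGroup ι) J := by
  induction g using FreeGroup.induction_on with
  | C1 => rw [uu_one]; exact one_mem _
  | of x =>
    cases x with
    | inl i => exact (uu_inl i true).symm ▸ Lam_mem _
    | inr j => exact (uu_inr j true).symm ▸ FC_mem _ _
  | inv_of x h => rw [uu_inv]; exact star_mem h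
  | mul x y hx hy => rw [uu_mul]; exact mul_mem hx hy

/-- invariant of reduced words -/
def Inv (l : (ι ⊕ J) × Bool) (ξ : L2 (W (FreeGroup ι) J)) : Prop :=
  match l with
  | (Sum.inl i, s) => ∃ g η, (toWord g).head? = some (i, s) ∧ Supp {x | hd x = 1} η ∧ ξ = Lam g η
  | (Sum.inr j, s) => ∃ (k : ℕ) (η : _), Supp (X0 j) η ∧
      ξ = FC _ J j (ee ((if s then 1 else -1) * (k + 1))) η

lemma Inv.inl {i : ι} {s : Bool} {ξ : L2 (W (FreeGroup ι) J)} (h : Inv (Sum.inl i, s) ξ) :
    Supp {x | hd x ≠ 1} ξ := by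
  obtain ⟨g, η, h1, h2, rfl⟩ := h
  exact Lam_supp (by rintro rfl; simp at h1) h2

lemma Inv.inr {j : J} {s : Bool} {ξ : L2 (W (FreeGroup ι) J)} (h : Inv (Sum.inr j, s) ξ) :
    Supp (X0 j)ᶜ ξ := by
  obtain ⟨k, η, h1, rfl⟩ := h
  refine FC_supp (sig_ee ?_) h1
  cases s <;> simp <;> omega

lemma compl_X0 {j : J} {x : W H J} (hx : x ∈ (X0 j)ᶜ) : ∃ w, x = cons 1 j w := by
  simpa [X0] using hx

lemma inv_cons (l : (ι ⊕ J) × Bool) (L : List ((ι ⊕ J) × Bool)) (h : IsReduced (l :: L)) :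
    Inv l (uu (mk (l :: L)) (Om _ J)) := by
  induction L generalizing l with
  | nil =>
    have hs : ∀ S : Set (W (FreeGroup ι) J), one 1 ∈ S → Supp S (Om _ J) := fun S hS x hx => by
      rw [inner_eb, if_neg]
      rintro rfl
      exact hx hS
    obtain ⟨i | j, s⟩ := l
    · exact ⟨mk [(i, s)], _, by simp, hs _ rfl, by rw [uu_inl]⟩
    · exact ⟨0, _, hs _ (Om_X0 j), by rw [uu_inr]; simp⟩
  | cons l' L ih =>
    rw [isReduced_cons_cons] at h
    have h1 := ih l' h.2
    rw [show mk (l :: l' :: L) = mk [l] * mk (l' :: L) from rfl, uu_mul, mul_apply_eq_comp]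
    generalize uu (mk (l' :: L)) (Om _ J) = ξ at h1
    obtain ⟨i | j, s⟩ := l <;> obtain ⟨i' | j', s'⟩ := l'
    · obtain ⟨g, η, a1, a2, rfl⟩ := h1
      refine ⟨mk [(i, s)] * g, η, ?_, a2, by rw [uu_inl, ← mul_apply_eq_comp, Lam_mul]⟩
      rcases letter_cases i s g with h3 | h3
      · rw [h3] at a1
        simp only [List.head?_cons, Option.some.injEq, Prod.mk.injEq] at a1
        obtain ⟨rfl, rfl⟩ := a1
        simpa using h.1
      · rw [h3.2]; rfl
    · refine ⟨mk [(i, s)], ξ, by simp, h1.inr.mono fun x hx => ?_, by rw [uu_inl]⟩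
      obtain ⟨w, rfl⟩ := compl_X0 hx
      rfl
    · refine ⟨0, ξ, h1.inl.mono fun x hx w => ?_, by rw [uu_inr]; simp⟩
      rintro rfl
      exact hx rfl
    · by_cases hj : j = j'
      · subst hj
        obtain rfl : s = s' := h.1 rfl
        obtain ⟨k, η, a1, rfl⟩ := h1
        refine ⟨k + 1, η, a1, ?_⟩
        rw [uu_inr, ← mul_apply_eq_comp, ← map_mul, ee_add]
        congr 3
        push_cast
        ring
      · refine ⟨0, ξ, h1.inr.mono fun x hx w => ?_, by rw [uu_inr]; simp⟩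
        obtain ⟨w, rfl⟩ := compl_X0 hx
        simp [Ne.symm hj]

lemma uu_trace {g : FreeGroup (ι ⊕ J)} (hg : g ≠ 1) : ⟪Om _ J, uu g (Om _ J)⟫_ℂ = 0 := by
  have h1 := isReduced_toWord (x := g)
  rw [← mk_toWord (x := g)]
  cases hw : toWord g with
  | nil => exact absurd (toWord_eq_nil_iff.1 hw) hg
  | cons l L =>
    rw [hw] at h1
    have h2 := inv_cons l L h1
    obtain ⟨i | j, s⟩ := l
    · exact h2.inl _ (by simp [hd])
    · exact h2.inr _ (by simpa using Om_X0 j)

lemma uu_orth : Orthonormal ℂ fun g : FreeGroup (ι ⊕ J) => uu g (Om _ J) := by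
  rw [orthonormal_iff_ite]
  intro g h
  rw [← inner_star_right, ← uu_inv, ← mul_apply_eq_comp, ← uu_mul]
  split_ifs with e
  · simp [e, uu_one, eb.orthonormal.1]
  · exact uu_trace (by rwa [Ne, inv_mul_eq_one])

lemma uu_total :
    ⊤ ≤ (Submodule.span ℂ (Set.range fun g : FreeGroup (ι ⊕ J) => uu g (Om _ J))).topologicalClosure := by
  set N := (Submodule.span ℂ (Set.range fun g : FreeGroup (ι ⊕ J) => uu g (Om _ J))).topologicalClosure
  have hN : IsClosed (N : Set (L2 (W (FreeGroup ι) J))) := Submodule.isClosed_topologicalClosure _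
  have h1 : ∀ g, uu g (Om _ J) ∈ N := fun g =>
    Submodule.le_topologicalClosure _ (Submodule.subset_span ⟨g, rfl⟩)
  have hle : ∀ T : L2 (W (FreeGroup ι) J) →L[ℂ] L2 (W (FreeGroup ι) J),
      (∀ g, T (uu g (Om _ J)) ∈ N) → ∀ ξ ∈ N, T ξ ∈ N := fun T hT =>
    Submodule.topologicalClosure_minimal _ (t := N.comap T.toLinearMap)
      (Submodule.span_le.2 (by rintro _ ⟨g, rfl⟩; exact hT g)) (hN.preimage T.continuous)
  have h2 : ∀ T ∈ MM (FreeGroup ι) J, T (Om _ J) ∈ N → ∀ ξ ∈ N, T ξ ∈ N := fun T hT hT' => by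
    refine hle T fun g => hN.closure_subset (Metric.mem_closure_iff.2 fun ε hε => ?_)
    obtain ⟨ζ, hζ, hd⟩ := Metric.mem_closure_iff.1 hT' ε hε
    have : ∃ x ∈ MM (FreeGroup ι) J, x (Om _ J) = ζ ∧ x (uu g (Om _ J)) ∈ N := by
      refine Submodule.span_induction (p := fun ζ _ => ∃ x ∈ MM (FreeGroup ι) J,
        x (Om _ J) = ζ ∧ x (uu g (Om _ J)) ∈ N) ?_ ?_ ?_ ?_ hζ
      · rintro _ ⟨h, rfl⟩
        exact ⟨uu h, uu_mem h, rfl, by rw [← mul_apply_eq_comp, ← uu_mul]; exact h1 _⟩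
      · exact ⟨0, zero_mem _, rfl, zero_mem _⟩
      · rintro _ _ _ _ ⟨x, hx, rfl, hx'⟩ ⟨y, hy, rfl, hy'⟩
        exact ⟨x + y, add_mem hx hy, rfl, add_mem hx' hy'⟩
      · rintro c _ _ ⟨x, hx, rfl, hx'⟩
        exact ⟨c • x, SMulMemClass.smul_mem c hx, rfl, N.smul_mem c hx'⟩
    obtain ⟨x, hx, rfl, hx'⟩ := this
    refine ⟨_, hx', ?_⟩
    have h3 := tracial_MM.norm_mul (sub_mem hT hx) (uu_mem g)
    have h4 : ‖uu g‖ ≤ 1 := ContinuousLinearMap.opNorm_le_bound _ zero_le_one fun ξ => by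
      rw [one_mul]; exact (norm_unitary (UU ι J g).2 ξ).le
    rw [dist_eq_norm] at hd ⊢
    exact (h3.trans (mul_le_of_le_one_left (norm_nonneg _) h4)).trans_lt hd
  have h0 : Om _ J ∈ N := by simpa [uu_one] using h1 1
  intro ξ _
  refine cyc_L N hN h0 ?_ ξ
  rintro _ (⟨g, rfl⟩ | ⟨j, rfl⟩)
  · have key : ∀ i s, ∀ ξ ∈ N, Lam (mk [(i, s)]) ξ ∈ N := fun i s =>
      h2 _ (Lam_mem _) (uu_inl (J := J) i s ▸ h1 _)
    induction g using FreeGroup.induction_on with
    | C1 => simp [Lam_one]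
    | of i => exact key i true
    | inv_of i _ => exact mk_false i ▸ key i false
    | mul x y hx hy => exact fun ξ hξ => Lam_mul (J := J) x y ▸ hx _ (hy _ hξ)
  · refine h2 _ (ZL_mem j) (hN.closure_subset (Metric.mem_closure_iff.2 fun ε hε => ?_))
    obtain ⟨F, hF, a1, a2⟩ := approx_cs (ε := ε / 3) (by positivity)
    let A : C(II, ℂ) →ₗ[ℂ] L2 (W (FreeGroup ι) J) :=
      (ContinuousLinearMap.apply ℂ _ (Om _ J)).toLinearMap ∘ₗ (FC _ J j).toAlgHom.toLinearMap
    refine ⟨FC _ J j (restr F hF) (Om _ J), mem_of_ee (N.comap A) (hN.preimage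
      ((ContinuousLinearMap.apply ℂ _ (Om _ J)).continuous.comp (FC_cont j))) (fun m => ?_) F hF a1,
      ?_⟩
    · show FC _ J j (ee m) (Om _ J) ∈ N
      have key : ∀ s : Bool, ∀ ξ ∈ N, FC _ J j (ee (if s then 1 else -1)) ξ ∈ N := fun s =>
        h2 _ (FC_mem _ _) (uu_inr (ι := ι) j s ▸ h1 _)
      induction m using Int.induction_on with
      | zero => simpa [ee_zero] using h0
      | succ m ih =>
        rw [add_comm, ← ee_add, map_mul]
        exact key true _ ih
      | pred m ih =>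
        rw [sub_eq_neg_add, ← ee_add, map_mul]
        exact key false _ ih
    · rw [dist_eq_norm, ← FC_cs, ← sub_apply, ← map_sub]
      have h3 : ‖FC _ J j (cs - restr F hF) (Om (FreeGroup ι) J)‖ ^ 2 ≤ 8 * (ε / 3) ^ 2 := by
        rw [norm_sq_eq_re, ← inner_star_right, ← mul_apply_eq_comp, ← map_star, ← map_mul,
          FC_inner (Om_X0 j) (Om_X0 j), if_pos rfl]
        exact (Complex.re_le_norm _).trans a2
      exact lt_of_pow_lt_pow_left₀ 2 hε.le (by nlinarith)

theorem sum_equiv {G : Type} [Group G] (e : G ≃* FreeGroup (ι ⊕ J)) :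
    Nonempty (LG G ≃⋆ₐ[ℂ] MM (FreeGroup ι) J) := by
  have h1 : Orthonormal ℂ fun g : G => uu (e g) (Om _ J) := uu_orth.comp e e.injective
  have h2 : ⊤ ≤ (Submodule.span ℂ (Set.range fun g : G => uu (e g) (Om _ J))).topologicalClosure := by
    rw [show (Set.range fun g : G => uu (e g) (Om _ J)) = Set.range fun g => uu g (Om _ J) from
      e.surjective.range_comp fun g => uu g (Om _ J)]
    exact uu_total
  refine iso_of_basis (HilbertBasis.mk h1 h2) ?_ fun g => ⟨uu (e g), uu_mem _, fun h => ?_⟩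
  · simpa [uu_one] using tracial_MM
  · simp [uu_mul, mul_apply_eq_comp]

end

theorem free_group_factors (α β : Type) [Countable α] [Countable β] [Nontrivial α] [Nontrivial β] :
    Nonempty (LG (FreeGroup α) ≃⋆ₐ[ℂ] LG (FreeGroup β)) := by
  obtain ⟨e1⟩ := free_equiv α β
  obtain ⟨e2⟩ := free_equiv β α
  obtain ⟨e3⟩ := sum_equiv (MulEquiv.refl (FreeGroup (α ⊕ β)))
  obtain ⟨e4⟩ := sum_equiv (freeGroupCongr (Equiv.sumComm α β))
  exact ⟨(e1.trans e3.symm).trans (e4.trans e2.symm)⟩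

end Vale.Agent.P086
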