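import Vale.Agent.P086.Step

open scoped InnerProductSpace ComplexConjugate Topology Classical Nat
open Filter

namespace Vale.Agent.P086

section general

variable {K E : Type} [NormedAddCommGroup K] [InnerProductSpace ℂ K] [NormedAddCommGroup E]
  [NormedSpace ℂ E] {ι : Type}

/-- vectors killed asymptotically -/
def nullSub (A : ι → K →L[ℂ] E) (l : Filter ι) : Submodule ℂ K where
  carrier := {v | Tendsto (fun i => A i v) l (𝓝 0)}
  add_mem' := fun ha hb => by simpa using ha.add hb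
  zero_mem' := by simpa using tendsto_const_nhds
  smul_mem' := fun c v hv => by simpa using hv.const_smul c

lemma isClosed_nullSub (A : ι → K →L[ℂ] E) (l : Filter ι) {C : ℝ} (hC : 0 < C)
    (h : ∀ i v, ‖A i v‖ ≤ C * ‖v‖) : IsClosed (nullSub A l : Set K) := by
  refine isClosed_of_closure_subset fun v hv => ?_
  refine Metric.tendsto_nhds.2 fun ε hε => ?_
  obtain ⟨w, hw, hd⟩ := Metric.mem_closure_iff.1 hv (ε / 2 / C) (by positivity)
  filter_upwards [Metric.tendsto_nhds.1 hw (ε / 2) (by positivity)] with i hi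
  rw [dist_zero_right] at hi ⊢
  rw [dist_eq_norm, lt_div_iff₀' hC] at hd
  have h1 := h i (v - w)
  rw [map_sub] at h1
  linarith [norm_sub_norm_le (A i v) (A i w)]

lemma weak_null {X : Type} (e : HilbertBasis X ℂ K) {η : ι → K} {l : Filter ι} {C : ℝ} (hC : 0 < C)
    (h : ∀ i, ‖η i‖ ≤ C) (h0 : ∀ x, Tendsto (fun i => ⟪η i, e x⟫_ℂ) l (𝓝 0)) (v : K) :
    Tendsto (fun i => ⟪η i, v⟫_ℂ) l (𝓝 0) :=
  mem_of_basis e (nullSub (fun i => innerSL ℂ (η i)) l) (isClosed_nullSub _ _ hC fun i v =>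
    (norm_inner_le_norm _ _).trans (by gcongr; exact h i)) h0 v

variable [CompleteSpace K]

lemma conj_mem_of_gens {L R : Set (K →L[ℂ] K)} {Ω : K}
    (htr : Tracial (StarSubalgebra.centralizer ℂ R) Ω) (hc : Cyc L Ω)
    (hLM : L ⊆ StarSubalgebra.centralizer ℂ R) (hst : ∀ l ∈ L, star l ∈ L) {U : K →L[ℂ] K}
    (hU : U ∈ unitary (K →L[ℂ] K)) (h : ∀ l ∈ L, star U * l * U ∈ StarSubalgebra.centralizer ℂ R) :
    ∀ T ∈ StarSubalgebra.centralizer ℂ R, star U * T * U ∈ StarSubalgebra.centralizer ℂ R := by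
  have hA : Apx (StarAlgebra.adjoin ℂ L) Ω := hc.apx _ (StarAlgebra.subset_adjoin ℂ L)
  intro T hT
  have key : ∀ r, (∀ l ∈ L, r * (star U * l * U) = star U * l * U * r) →
      r * (star U * T * U) = star U * T * U * r := by
    intro r hr
    have h1 : ∀ l ∈ L, l * (U * r * star U) = U * r * star U * l := fun l hl => by
      have := congrArg (fun x => U * x * star U) (hr l hl)
      simp only [mul_assoc, hU.2, mul_one] at this
      simp only [← mul_assoc, hU.2, one_mul] at this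
      simp only [← mul_assoc]
      exact this.symm
    have h2 : U * r * star U ∈ StarSubalgebra.centralizer ℂ L :=
      mem_cent.2 fun l hl => ⟨h1 l hl, h1 _ (hst l hl)⟩
    have h3 := htr.comm (StarAlgebra.adjoin_le hLM) hA hT fun x hx =>
      (mem_cent.1 (StarAlgebra.adjoin_le_centralizer_centralizer ℂ L hx) _ h2).1.symm
    have := congrArg (fun x => star U * x * U) h3
    simp only [mul_assoc, hU.1, mul_one] at this
    simp only [← mul_assoc, hU.1, one_mul] at this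
    simp only [← mul_assoc]
    exact this.symm
  exact mem_cent.2 fun r hr => ⟨key r fun l hl => (mem_cent.1 (h l hl) r hr).1,
    key _ fun l hl => (mem_cent.1 (h l hl) r hr).2⟩

/-- unitaries fixing the vacuum and normalising the algebra -/
def Nor (M : StarSubalgebra ℂ (K →L[ℂ] K)) (Ω : K) : Submonoid (K →L[ℂ] K) where
  carrier := {Θ | Θ ∈ unitary (K →L[ℂ] K) ∧ Θ Ω = Ω ∧
    ∀ T ∈ M, star Θ * T * Θ ∈ M ∧ Θ * T * star Θ ∈ M}
  one_mem' := ⟨one_mem _, rfl, fun T hT => by simpa using hT⟩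
  mul_mem' := by
    rintro a b ⟨a1, a2, a3⟩ ⟨b1, b2, b3⟩
    refine ⟨mul_mem a1 b1, by rw [mul_apply_eq_comp, b2, a2], fun T hT => ⟨?_, ?_⟩⟩
    · simpa [mul_assoc] using (b3 _ (a3 T hT).1).1
    · simpa [mul_assoc] using (a3 _ (b3 T hT).2).2

lemma star_fix {U : K →L[ℂ] K} (hU : U ∈ unitary (K →L[ℂ] K)) {ξ : K} (h : U ξ = ξ) :
    (star U) ξ = ξ := by
  rw [← sub_eq_zero, ← norm_eq_zero, norm_star_sub hU, h, sub_self, norm_zero]

lemma Nor.star_mem {M : StarSubalgebra ℂ (K →L[ℂ] K)} {Ω : K} {Θ : K →L[ℂ] K}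
    (h : Θ ∈ Nor M Ω) : star Θ ∈ Nor M Ω :=
  ⟨Unitary.star_mem h.1, star_fix h.1 h.2.1, fun T hT => by
    rw [star_star]; exact (h.2.2 T hT).symm⟩

omit [CompleteSpace K] in
lemma IsFlow.fix {X : Type} {e : HilbertBasis X ℂ K} {Λ : Module.End ℂ (X →₀ ℂ)} {s : ℝ}
    {U : K →L[ℂ] K} (hU : IsFlow e Λ s U) {v : X →₀ ℂ} (h : Λ v = 0) :
    U (iota e v) = iota e v := by
  have := hU.rem (r := 0) le_rfl (by simp) (v := v) (C := 0) (p := 1)
    fun k => by simp [pow_succ, h]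
  simpa [term, sub_eq_zero] using this

end general

noncomputable section

open W

variable {H J : Type} [Group H] {len : H → ℕ}

variable (H J) in
/-- the copy of the group Hilbert space -/
abbrev K0 : Submodule ℂ (L2 (W H J)) :=
  (Submodule.span ℂ (Set.range fun g : H => eb (one g))).topologicalClosure

omit [Group H] in
lemma one_mem_K0 (g : H) : eb (one g) ∈ K0 H J :=
  Submodule.le_topologicalClosure _ (Submodule.subset_span ⟨g, rfl⟩)

omit [Group H] in
lemma K0_le {N : Submodule ℂ (L2 (W H J))} (hN : IsClosed (N : Set (L2 (W H J))))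
    (h : ∀ g, eb (one g) ∈ N) : K0 H J ≤ N :=
  Submodule.topologicalClosure_minimal _ (Submodule.span_le.2 (by rintro _ ⟨g, rfl⟩; exact h g)) hN

/-- the word of a semicircular generator -/
def x0 (j : J) : W H J := cons 1 j (one 1)

lemma star_mem_Lset : ∀ l ∈ Lset H J, star l ∈ Lset H J := by
  rintro _ (⟨g, rfl⟩ | ⟨j, rfl⟩)
  exacts [Or.inl ⟨g⁻¹, (star_Lam g).symm⟩, Or.inr ⟨j, (star_ZL j).symm⟩]

namespace Data

variable (D : Data H len) (j0 : J)

lemma LL_one (g : H) : D.LL j0 (bv (one g)) = D.P2 j0 (one g) - D.P1 j0 (one g) := by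
  simp [LL, Lp, Lm]

lemma LL_Om : D.LL j0 (bv (one 1)) = 0 := by
  simp [LL_one, P1, P2, hd, psi1]

lemma LL_x0 (j : J) :
    D.LL j0 (bv (x0 j)) = if j = j0 then bv (one D.γ) + bv (one D.γ⁻¹) else 0 := by
  have := congrArg (fun F : Module.End ℂ (W H J →₀ ℂ) => F (bv (one 1))) (D.ad_zl j0 j)
  simp only [ad_apply, LinearMap.sub_apply, Module.End.mul_apply, LL_Om, map_zero, sub_zero, zl,
    LinearMap.add_apply, mp_bv, op_bv, ells, add_zero] at this
  rw [x0, this]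
  split_ifs <;> simp [lam]

lemma flow_mem {s : ℝ} (hs : 128 * |s| ≤ 1 / 2) {U : L2 (W H J) →L[ℂ] L2 (W H J)}
    (hU : IsFlow eb (D.LL j0) s U) : U ∈ Nor (MM H J) (Om H J) := by
  have h128 : (0 : ℝ) ≤ 128 := by norm_num
  have hu := (D.gen j0).unitary h128 hs hU
  have hU' := (D.gen j0).flow_star h128 hs hU
  refine ⟨hu, by simpa using hU.fix (D.LL_Om j0), fun T hT => ⟨?_, ?_⟩⟩
  · exact conj_mem_of_gens tracial_MM cyc_L Lset_sub star_mem_Lset hu
      (flow_conj_L D j0 (D.gen j0) h128 hs hU) T hT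
  · simpa using conj_mem_of_gens tracial_MM cyc_L Lset_sub star_mem_Lset (Unitary.star_mem hu)
      (flow_conj_L D j0 (D.gen j0) h128 (by rwa [abs_neg]) hU') T hT

/-- first derivative of the semicircular vector -/
def v1 : W H J →₀ ℂ := bv (one D.γ) + bv (one D.γ⁻¹)

lemma norm_v1 : ‖iota eb (D.v1 : W H J →₀ ℂ)‖ ^ 2 ≤ 2 := by
  have h := (eb (H := H) (J := J)).orthonormal
  rw [v1, map_add, iota_single, iota_single, one_smul, one_smul, sq,
    norm_add_sq_eq_norm_sq_add_norm_sq_of_inner_eq_zero (𝕜 := ℂ) _ _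
      (h.2 (by simpa using D.ne_inv)), h.1, h.1]
  norm_num

lemma norm_v1' : ‖iota eb (D.v1 : W H J →₀ ℂ)‖ ≤ 2 := by
  have := D.norm_v1 (J := J)
  nlinarith

omit [Group H] in
lemma bv_ne {x y : W H J} (h : bv x y ≠ 0) : y = x := by
  by_contra hc
  simp [Ne.symm hc] at h

lemma sup_x0 : D.Sup (4 * D.n * (0 + 1)) (bv (x0 j0)) := fun x hx => by
  rw [bv_ne hx]
  simp only [wt, x0, tl, dg, D.len_one]
  omega

lemma sup_v1 : D.Sup (4 * D.n * (0 + 1)) (D.v1 : W H J →₀ ℂ) := fun x hx => by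
  have h1 := D.len_γ
  have h2 := D.len_inv D.γ
  by_cases h : bv (one D.γ : W H J) x = 0
  · rw [bv_ne (x := one D.γ⁻¹) (y := x) (by simpa [v1, h] using hx)]
    simp only [wt, tl, dg]
    omega
  · rw [bv_ne h]
    simp only [wt, tl, dg]
    omega

lemma norm_x0 : ‖iota eb (bv (x0 j0 : W H J))‖ = 1 := by simp [eb.orthonormal.1]

lemma rotA {s : ℝ} (hs0 : 0 < s) (hs : 128 * |s| ≤ 1 / 2) {U : L2 (W H J) →L[ℂ] L2 (W H J)}
    (hU : IsFlow eb (D.LL j0) s U) :
    ‖U (eb (x0 j0)) - (eb (x0 j0) + (s : ℂ) • iota eb D.v1 +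
      ((s : ℂ) ^ 2 / 2) • iota eb (D.LL j0 D.v1))‖ ≤ 2 * 128 ^ 3 * s ^ 3 := by
  have := hU.rem (r := 128) (by norm_num) hs (v := bv (x0 j0)) (C := 128 ^ 3) (p := 3) fun k => by
    refine ((D.sup_x0 j0).bound j0 _).trans_eq ?_
    rw [norm_x0]; ring
  rw [abs_of_pos hs0] at this
  simpa [Finset.sum_range_succ, term, pow_succ, LL_x0, ← v1.eq_1, Nat.factorial] using this

lemma rotB {s : ℝ} (hs0 : 0 < s) (hs : 128 * |s| ≤ 1 / 2) {U : L2 (W H J) →L[ℂ] L2 (W H J)}
    (hU : IsFlow eb (D.LL j0) s U) :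
    ‖U (iota eb D.v1) - (iota eb D.v1 + (s : ℂ) • iota eb (D.LL j0 D.v1))‖ ≤
      2 * 128 ^ 3 * s ^ 2 := by
  have := hU.rem (r := 128) (by norm_num) hs (v := D.v1) (C := 128 ^ 3) (p := 2) fun k => by
    refine (D.sup_v1.bound j0 _).trans ?_
    have := D.norm_v1' (J := J)
    rw [pow_add, pow_zero, one_mul]
    have h2 : (0 : ℝ) ≤ 128 ^ k * (k + 2)! := by positivity
    nlinarith
  rw [abs_of_pos hs0] at this
  simpa [Finset.sum_range_succ, term] using this

lemma rotF {s : ℝ} (hs : 128 * |s| ≤ 1 / 2) {U : L2 (W H J) →L[ℂ] L2 (W H J)}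
    (hU : IsFlow eb (D.LL j0) s U) (g : H) :
    ‖U (eb (one g)) - eb (one g)‖ ≤ 2 ^ (len g + 1) * √(64 * len g / D.n) := by
  have h1 : D.Sup (4 * D.n * (len g + 1)) (bv (one g : W H J)) := fun x hx => by
    rw [bv_ne hx]
    simp only [wt, tl, dg]
    have := D.n_pos
    nlinarith
  have h2 : D.Sup (4 * D.n * (len g + 1 + 1)) (D.LL j0 (bv (one g))) :=
    (h1.LL j0).mono (by ring_nf; rfl)
  have h3 : ‖iota eb (D.LL j0 (bv (one g)))‖ ≤ √(64 * len g / D.n) := by
    refine Real.le_sqrt_of_sq_le ?_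
    have := D.norm_Lp_sq j0 (bv (one g)) 1 (len g) fun x hx => by
      rw [bv_ne hx]; simp [dg, tl]
    simpa [LL, Lm, eb.orthonormal.1] using this
  have := hU.rem (r := 128) (by norm_num) hs (v := bv (one g))
    (C := 2 ^ (len g + 1) * √(64 * len g / D.n)) (p := 1) fun k => by
      rw [pow_succ, Module.End.mul_apply]
      refine (h2.bound j0 k).trans ?_
      gcongr
      exact Nat.le_succ k
  have h4 : (0 : ℝ) ≤ 2 ^ (len g + 1) * √(64 * len g / D.n) := by positivity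
  simp only [Finset.range_one, Finset.sum_singleton, term, pow_zero, Nat.factorial_zero,
    Nat.cast_one, div_one, Module.End.one_apply, one_smul, iota_single, pow_one] at this
  nlinarith

lemma v2_coef (x : W H J) (h1 : D.γ ≠ hd x) (h2 : D.γ ≠ (hd x)⁻¹) :
    ‖D.LL j0 D.v1 x + 2 * bv (x0 j0) x‖ ≤ 4 / D.n := by
  rw [v1, map_add, LL_one, LL_one]
  cases x with
  | one y => simp [x0]; positivity
  | cons u j w =>
    have hn : (0 : ℝ) ≤ 1 / D.n := by positivity
    have hite : ∀ (p : Prop) [Decidable p] (c : ℂ), ‖c‖ ≤ 1 / D.n → ‖if p then c else 0‖ ≤ 1 / D.n :=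
      fun p _ c hc => by split_ifs <;> simp_all
    simp only [hd] at h1 h2
    have a1 : ‖D.P2 j0 (one D.γ) (cons u j w)‖ ≤ 1 / D.n := by
      rw [P2_cons]
      exact hite _ _ (D.small _ fun h => h1 (mul_inv_eq_one.1 h).symm)
    have a2 : ‖D.P1 j0 (one D.γ⁻¹) (cons u j w)‖ ≤ 1 / D.n := by
      rw [P1_cons]
      refine hite _ _ ?_
      rw [hd, psi_inv, norm_neg]
      exact D.small _ fun h => h2 (eq_inv_of_mul_eq_one_left h)
    have a3 : ‖bv (x0 j0) (cons u j w) - D.P1 j0 (one D.γ) (cons u j w)‖ ≤ 1 / D.n := by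
      rw [P1_cons]
      by_cases hu : u = 1
      · subst hu
        simp only [x0, Finsupp.single_apply, cons.injEq, true_and, one_mul, lam_eq_iff, lam_o,
          inv_mul_cancel, hd, D.psi_one, eq_comm (a := j), sub_self, norm_zero, hn]
      · rw [x0, Finsupp.single_apply, if_neg (by simp [Ne.symm hu]), zero_sub, norm_neg]
        exact hite _ _ (D.small _ hu)
    have a4 : ‖bv (x0 j0) (cons u j w) + D.P2 j0 (one D.γ⁻¹) (cons u j w)‖ ≤ 1 / D.n := by
      rw [P2_cons]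
      by_cases hu : u = 1
      · subst hu
        simp only [x0, Finsupp.single_apply, cons.injEq, true_and, one_mul, lam_eq_iff, lam_o,
          mul_inv_cancel, hd, D.psi_one, eq_comm (a := j), inv_inv, psi_inv]
        split_ifs <;> simp
      · rw [x0, Finsupp.single_apply, if_neg (by simp [Ne.symm hu]), zero_add]
        refine hite _ _ ?_
        rw [hd, psi_inv, norm_neg]
        exact D.small _ (by simpa [mul_inv_eq_iff_eq_mul, ← mul_assoc] using hu)
    have e : ((D.P2 j0 (one D.γ) - D.P1 j0 (one D.γ) +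
        (D.P2 j0 (one D.γ⁻¹) - D.P1 j0 (one D.γ⁻¹))) (cons u j w) + 2 * bv (x0 j0) (cons u j w)) =
        (D.P2 j0 (one D.γ) (cons u j w) - D.P1 j0 (one D.γ⁻¹) (cons u j w)) +
        ((bv (x0 j0) (cons u j w) - D.P1 j0 (one D.γ) (cons u j w)) +
        (bv (x0 j0) (cons u j w) + D.P2 j0 (one D.γ⁻¹) (cons u j w))) := by
      simp only [Finsupp.add_apply, Finsupp.sub_apply]; ring
    rw [e]
    refine (norm_add_le _ _).trans ((add_le_add (norm_sub_le _ _) (norm_add_le _ _)).trans ?_)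
    rw [show (4 : ℝ) / D.n = 4 * (1 / D.n) by ring]
    linarith

end Data

variable (H J) in
/-- normalisers fixing the other colours -/
def NorJ (j0 : J) : Submonoid (L2 (W H J) →L[ℂ] L2 (W H J)) where
  carrier := {Θ | Θ ∈ Nor (MM H J) (Om H J) ∧ ∀ j, j ≠ j0 → Θ (eb (x0 j)) = eb (x0 j)}
  one_mem' := ⟨one_mem _, fun _ _ => rfl⟩
  mul_mem' := fun ha hb => ⟨mul_mem ha.1 hb.1, fun j hj => by
    rw [mul_apply_eq_comp, hb.2 j hj, ha.2 j hj]⟩

/-- a good sequence of cocycle data -/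
structure Seq (H : Type) [Group H] (len : H → ℕ) where
  D : ℕ → Data H len
  hn : Tendsto (fun i => (D i).n) atTop atTop
  hγ : ∀ g, ∀ᶠ i in atTop, (D i).γ ≠ g

lemma Seq.rot (S : Seq H len) (j0 : J) (s : ℝ) (hs0 : 0 < s) (hs : s ≤ 1 / 256) :
    ∃ V ξ1 ξ2, Rot (K0 H J) (eb (x0 j0)) (2 * 128 ^ 3) s V ξ1 ξ2 ∧
      ∀ n, star (V n) ∈ NorJ H J j0 := by
  have hs' : 128 * |s| ≤ 1 / 2 := by rw [abs_of_pos hs0]; linarith
  have h128 : (0 : ℝ) ≤ 128 := by norm_num
  choose V hV using fun i => ((S.D i).gen j0).exists_flow h128 hs'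
  have hu := fun i => ((S.D i).gen j0).unitary h128 hs' (hV i)
  have hinv : ∀ c : ℝ, Tendsto (fun i => c / (S.D i).n) atTop (𝓝 0) := fun c =>
    (tendsto_natCast_atTop_atTop.comp S.hn).const_div_atTop c
  refine ⟨V, fun i => iota eb (S.D i).v1, fun i => iota eb ((S.D i).LL j0 (S.D i).v1),
    ⟨hu, fun i => ?_, fun i => (S.D i).norm_v1, fun i => (S.D i).rotA j0 hs0 hs' (hV i),
      fun i => (S.D i).rotB j0 hs0 hs' (hV i), ?_, fun v => ?_, fun η hη => ?_⟩, fun i => ?_⟩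
  · simpa [Data.v1] using add_mem (one_mem_K0 (S.D i).γ) (one_mem_K0 (S.D i).γ⁻¹)
  · refine weak_null eb two_pos (fun i => (S.D i).norm_v1') fun x => ?_
    refine tendsto_const_nhds.congr' ?_
    filter_upwards [S.hγ (hd x), S.hγ (hd x)⁻¹] with i h1 h2
    rw [inner_iota_e, Data.v1, Finsupp.add_apply, Finsupp.single_eq_of_ne', Finsupp.single_eq_of_ne']
    · simp
    · rintro rfl; exact h2 (by simp [hd])
    · rintro rfl; exact h1 rfl
  · have := weak_null eb (η := fun i => iota eb ((S.D i).LL j0 (S.D i).v1 + (2 : ℂ) • bv (x0 j0)))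
      (l := atTop) (C := 130) (by norm_num) (fun i => ?_) (fun x => ?_) v
    · have h2 := this.sub_const (2 * ⟪eb (x0 j0), v⟫_ℂ)
      simpa [inner_add_left, inner_smul_left, map_ofNat, mul_comm _ (2 : ℂ)] using h2
    · have h1 := ((S.D i).sup_v1.norm_LL j0)
      have h2 := (S.D i).norm_v1' (J := J)
      rw [map_add, map_smul]
      refine (norm_add_le _ _).trans ?_
      rw [norm_smul, Data.norm_x0]
      simp only [zero_add, Nat.cast_one, mul_one, Complex.norm_ofNat] at h1 ⊢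
      linarith
    · refine squeeze_zero_norm' ?_ (hinv 4)
      filter_upwards [S.hγ (hd x), S.hγ (hd x)⁻¹] with i h1 h2
      rw [inner_iota_e, Complex.norm_conj]
      exact (S.D i).v2_coef j0 x h1 h2
  · have := K0_le (isClosed_nullSub (fun i => V i - 1) atTop two_pos fun i v => by
      refine (norm_sub_le (V i v) v).trans ?_
      rw [norm_unitary (hu i), two_mul]) (fun g => ?_) hη
    · exact tendsto_sub_nhds_zero_iff.1 this
    · refine squeeze_zero_norm (fun i => (S.D i).rotF j0 hs' (hV i) g) ?_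
      simpa using ((hinv (64 * len g)).sqrt).const_mul (2 ^ (len g + 1) : ℝ)
  · refine ⟨Nor.star_mem ((S.D i).flow_mem j0 hs' (hV i)), fun j hj => star_fix (hu i) ?_⟩
    simpa using (hV i).fix (v := bv (x0 j)) (by rw [Data.LL_x0, if_neg hj])

lemma Seq.loc1 (S : Seq H len) (j0 : J) (F : Finset (L2 (W H J))) (hF : ∀ η ∈ F, η ∈ K0 H J)
    {ε : ℝ} (hε : 0 < ε) :
    ∃ Θ ∈ NorJ H J j0, (∀ η ∈ F, ‖Θ η - η‖ ≤ ε) ∧
      ‖Θ (eb (x0 j0)) - (K0 H J).starProjection (Θ (eb (x0 j0)))‖ ≤ ε :=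
  local_rot (s0 := 1 / 256) (eb.orthonormal.1 _) (by norm_num) (by norm_num) (NorJ H J j0)
    (fun _ h => h.1.1) (S.rot j0) F hF hε

lemma Seq.loc (S : Seq H len) (A : Finset J) (F : Finset (L2 (W H J))) (hF : ∀ η ∈ F, η ∈ K0 H J)
    {ε : ℝ} (hε : 0 < ε) :
    ∃ Θ ∈ Nor (MM H J) (Om H J), (∀ j, j ∉ A → Θ (eb (x0 j)) = eb (x0 j)) ∧
      (∀ η ∈ F, ‖Θ η - η‖ ≤ ε) ∧ ∀ j ∈ A, ∃ η ∈ K0 H J, ‖Θ (eb (x0 j)) - η‖ ≤ ε := by
  induction A using Finset.induction_on generalizing ε with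
  | empty => exact ⟨1, one_mem _, fun _ _ => rfl, fun _ _ => by simpa using hε.le, by simp⟩
  | insert j0 A hj ih =>
    obtain ⟨Θ, h1, h2, h3, h4⟩ := ih (ε := ε / 2) (by positivity)
    choose! η hη hη' using h4
    obtain ⟨Θ', ⟨g1, g2⟩, g3, g4⟩ := S.loc1 j0 (F ∪ A.image η) (by
      intro ξ hξ
      rcases Finset.mem_union.1 hξ with h | h
      · exact hF ξ h
      · obtain ⟨j, hj, rfl⟩ := Finset.mem_image.1 h
        exact hη j hj) (ε := ε / 2) (by positivity)
    have key : ∀ ξ ζ, ‖(Θ' * Θ) ξ - ζ‖ ≤ ‖Θ ξ - ζ‖ + ‖Θ' ζ - ζ‖ := fun ξ ζ => by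
      have : (Θ' * Θ) ξ - ζ = Θ' (Θ ξ - ζ) + (Θ' ζ - ζ) := by simp [mul_apply_eq_comp]
      rw [this]
      refine (norm_add_le _ _).trans ?_
      rw [norm_unitary g1.1]
    refine ⟨Θ' * Θ, mul_mem g1 h1, fun j hj' => ?_, fun ξ hξ => ?_, fun j hj' => ?_⟩
    · simp only [Finset.mem_insert, not_or] at hj'
      rw [mul_apply_eq_comp, h2 j hj'.2, g2 j hj'.1]
    · linarith [key ξ ξ, h3 ξ hξ, g3 ξ (Finset.mem_union_left _ hξ)]
    · rcases Finset.mem_insert.1 hj' with rfl | hj'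
      · refine ⟨_, (K0 H J).starProjection_apply_mem (Θ' (eb (x0 j))), ?_⟩
        rw [mul_apply_eq_comp, h2 j hj]
        linarith
      · exact ⟨η j, hη j hj', by
          linarith [key (eb (x0 j)) (η j), hη' j hj',
            g3 _ (Finset.mem_union_right _ (Finset.mem_image_of_mem η hj'))]⟩

end

end Vale.Agent.P086
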