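import Vale.Agent.P086.Free

open scoped InnerProductSpace ComplexConjugate Topology
open Filter Real Set

namespace Vale.Agent.P086

noncomputable section

/-- parameter interval -/
abbrev II : Type := Icc (0 : ℝ) π

/-- restriction of a continuous function -/
def restr (F : ℝ → ℂ) (hF : Continuous F) : C(II, ℂ) := ⟨fun θ => F θ, hF.comp continuous_subtype_val⟩

/-- twice the cosine -/
def cs : C(II, ℂ) := restr (fun θ => ((2 * cos θ : ℝ) : ℂ)) (by fun_prop)

lemma star_cs : star cs = cs := by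
  ext θ; simp [cs, restr, -Complex.ofReal_cos]

lemma mem_of_pow (N : Submodule ℂ C(II, ℂ)) (hN : IsClosed (N : Set C(II, ℂ)))
    (h : ∀ m : ℕ, cs ^ m ∈ N) (f : C(II, ℂ)) : f ∈ N := by
  have h1 := ContinuousMap.starSubalgebra_topologicalClosure_eq_top_of_separatesPoints
    (StarAlgebra.adjoin ℂ {cs}) (by
      intro x y hxy
      refine ⟨cs, ⟨cs, StarAlgebra.subset_adjoin ℂ _ rfl, rfl⟩, fun h => hxy ?_⟩
      simp only [cs, restr, ContinuousMap.coe_mk, Complex.ofReal_inj] at h
      exact Subtype.ext (injOn_cos x.2 y.2 (by linarith)))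
  have h2 : (StarAlgebra.adjoin ℂ {cs} : Set C(II, ℂ)) ⊆ N := by
    intro g hg
    have h3 : g ∈ Algebra.adjoin ℂ {cs} := by
      have := StarAlgebra.adjoin_toSubalgebra ℂ ({cs} : Set C(II, ℂ))
      rw [Set.star_singleton, star_cs, Set.union_self] at this
      rw [← this]
      exact hg
    rw [Algebra.adjoin_singleton_eq_range_aeval] at h3
    obtain ⟨p, rfl⟩ := h3
    clear hg
    induction p using Polynomial.induction_on' with
    | add p q hp hq => simpa using add_mem hp hq
    | monomial n c =>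
      simpa [Polynomial.aeval_monomial, ← Algebra.smul_def] using N.smul_mem c (h n)
  have h4 : f ∈ (StarAlgebra.adjoin ℂ {cs}).topologicalClosure := by rw [h1]; trivial
  exact closure_minimal h2 hN h4

/-- the semicircle functional -/
def sig : C(II, ℂ) →L[ℂ] ℂ :=
  LinearMap.mkContinuous
    { toFun := fun f => (2 / π : ℝ) * ∫ θ in (0 : ℝ)..π, f (projIcc 0 π pi_pos.le θ) * (sin θ ^ 2 : ℝ)
      map_add' := fun f g => by
        simp only [ContinuousMap.add_apply, add_mul]
        rw [intervalIntegral.integral_add, mul_add] <;>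
          exact Continuous.intervalIntegrable (by fun_prop) _ _
      map_smul' := fun c f => by
        simp only [ContinuousMap.smul_apply, smul_eq_mul, mul_assoc,
          intervalIntegral.integral_const_mul, RingHom.id_apply]
        ring } 2 fun f => by
    have := intervalIntegral.norm_integral_le_of_norm_le_const (a := 0) (b := π) (C := ‖f‖)
      (f := fun θ => f (projIcc 0 π pi_pos.le θ) * (sin θ ^ 2 : ℝ)) fun θ _ => by
        rw [norm_mul, Complex.norm_real, Real.norm_of_nonneg (by positivity)]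
        exact (mul_le_of_le_one_right (norm_nonneg _) (sin_sq_le_one θ)).trans (f.norm_coe_le_norm _)
    simp only [LinearMap.coe_mk, AddHom.coe_mk, norm_mul, Complex.norm_real]
    rw [sub_zero, abs_of_pos pi_pos] at this
    rw [Real.norm_of_nonneg (by positivity)]
    calc _ ≤ 2 / π * (‖f‖ * π) := by gcongr
      _ = _ := by field_simp

lemma sig_restr (F : ℝ → ℂ) (hF : Continuous F) :
    sig (restr F hF) = (2 / π : ℝ) * ∫ θ in (0 : ℝ)..π, F θ * (sin θ ^ 2 : ℝ) := by
  simp only [sig, LinearMap.mkContinuous_apply, LinearMap.coe_mk, AddHom.coe_mk]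
  congr 1
  refine intervalIntegral.integral_congr fun θ hθ => ?_
  rw [uIcc_of_le pi_pos.le] at hθ
  simp [restr, projIcc_of_mem _ hθ]

/-- moments -/
def mom (p k : ℕ) : ℝ := 2 / π * ∫ θ in (0 : ℝ)..π, (2 * cos θ) ^ p * (sin ((k + 1) * θ) * sin θ)

lemma mom_zero (k : ℕ) : mom 0 k = if k = 0 then 1 else 0 := by
  simp only [mom, pow_zero, one_mul]
  split_ifs with h
  · subst h
    simp only [Nat.cast_zero, zero_add, one_mul, ← sq, integral_sin_sq]
    simp
  · have hk : (k : ℝ) ≠ 0 := by exact_mod_cast h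
    have hk2 : (k : ℝ) + 2 ≠ 0 := by positivity
    rw [intervalIntegral.integral_eq_sub_of_hasDerivAt
      (f := fun θ => (sin (k * θ) / k - sin ((k + 2) * θ) / (k + 2)) / 2)]
    · have : sin ((k + 2) * π) = 0 := by exact_mod_cast sin_nat_mul_pi (k + 2)
      simp [this]
    · intro θ _
      have h1 := ((((hasDerivAt_id θ).const_mul (k : ℝ)).sin.div_const k).sub
        (((hasDerivAt_id θ).const_mul ((k : ℝ) + 2)).sin.div_const (k + 2))).div_const 2
      refine h1.congr_deriv ?_
      have e1 : (k : ℝ) * θ = (k + 1) * θ - θ := by ring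
      have e2 : ((k : ℝ) + 2) * θ = (k + 1) * θ + θ := by ring
      simp only [id, mul_one]
      rw [mul_div_cancel_right₀ _ hk, mul_div_cancel_right₀ _ hk2, e1, e2, cos_sub, cos_add]
      ring
    · exact Continuous.intervalIntegrable (by fun_prop) _ _

lemma mom_succ_zero (p : ℕ) : mom (p + 1) 0 = mom p 1 := by
  simp only [mom]
  congr 2
  ext θ
  rw [show ((1 : ℕ) + 1 : ℝ) * θ = 2 * θ by push_cast; ring, sin_two_mul]
  simp only [Nat.cast_zero, zero_add, one_mul]
  ring

lemma mom_succ_succ (p k : ℕ) : mom (p + 1) (k + 1) = mom p (k + 2) + mom p k := by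
  simp only [mom]
  rw [← mul_add, ← intervalIntegral.integral_add
    (Continuous.intervalIntegrable (by fun_prop) _ _)
    (Continuous.intervalIntegrable (by fun_prop) _ _)]
  congr 2
  ext θ
  have e1 : (((k + 2 : ℕ) : ℝ) + 1) * θ = (((k + 1 : ℕ) : ℝ) + 1) * θ + θ := by push_cast; ring
  have e2 : ((k : ℝ) + 1) * θ = (((k + 1 : ℕ) : ℝ) + 1) * θ - θ := by push_cast; ring
  rw [e1, e2, sin_add, sin_sub]
  ring

lemma sig_pow (p : ℕ) : sig (cs ^ p) = mom p 0 := by
  have : cs ^ p = restr (fun θ => (((2 * cos θ) ^ p : ℝ) : ℂ)) (by fun_prop) := by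
    ext θ; simp [cs, restr]
  rw [this, sig_restr, mom, Complex.ofReal_mul, ← intervalIntegral.integral_ofReal]
  congr 2
  ext θ
  simp [sq]

/-- distribution function -/
def uf (θ : ℝ) : ℝ := 2 * θ - sin (2 * θ)

lemma cont_uf : Continuous uf := by unfold uf; fun_prop

/-- characters -/
def ee (m : ℤ) : C(II, ℂ) :=
  restr (fun θ => Complex.exp (m * uf θ * Complex.I)) (by have := cont_uf; fun_prop)

lemma ee_add (m n : ℤ) : ee m * ee n = ee (m + n) := by
  ext θ; simp [ee, restr, ← Complex.exp_add, add_mul]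

lemma ee_zero : ee 0 = 1 := by ext θ; simp [ee, restr]

lemma star_ee (m : ℤ) : star (ee m) = ee (-m) := by
  ext θ; simp [ee, restr, ← Complex.exp_conj]

lemma sig_ee {m : ℤ} (hm : m ≠ 0) : sig (ee m) = 0 := by
  have hm' : (m : ℂ) ≠ 0 := by exact_mod_cast hm
  rw [ee, sig_restr, intervalIntegral.integral_eq_sub_of_hasDerivAt
    (f := fun θ => Complex.exp (m * uf θ * Complex.I) / (4 * m * Complex.I))]
  · have : Complex.exp (m * uf π * Complex.I) = 1 := by
      simp only [uf, sin_two_pi, sub_zero]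
      rw [← Complex.exp_int_mul_two_pi_mul_I m]
      push_cast
      ring_nf
    rw [this]
    simp [uf]
  · intro θ _
    have h0 : HasDerivAt uf (4 * sin θ ^ 2) θ := by
      refine (((hasDerivAt_id θ).const_mul 2).sub
        ((hasDerivAt_id θ).const_mul 2).sin).congr_deriv ?_
      simp only [id, mul_one, cos_two_mul, sin_sq]
      ring
    refine ((((h0.ofReal_comp.const_mul (m : ℂ)).mul_const Complex.I).cexp).div_const
      (4 * m * Complex.I)).congr_deriv ?_
    push_cast
    field_simp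
  · exact Continuous.intervalIntegrable (by have := cont_uf; fun_prop) _ _

lemma uf_mono : StrictMono uf := by
  intro x y hxy
  have h1 := sin_sub_sin (2 * y) (2 * x)
  have h2 := abs_sin_lt_abs (x := (2 * y - 2 * x) / 2) (by linarith)
  rw [abs_of_pos (a := (2 * y - 2 * x) / 2) (by linarith)] at h2
  have h3 : sin ((2 * y - 2 * x) / 2) * cos ((2 * y + 2 * x) / 2) ≤ |sin ((2 * y - 2 * x) / 2)| :=
    (le_abs_self _).trans (by
      rw [abs_mul]; exact mul_le_of_le_one_right (abs_nonneg _) (abs_cos_le_one _))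
  simp only [uf]
  linarith

lemma uf_surj : Function.Surjective uf := by
  refine cont_uf.surjective ?_ ?_
  · refine tendsto_atTop_mono (f := fun θ => 2 * θ + -1) (fun θ => ?_)
      (tendsto_atTop_add_const_right _ _ (tendsto_id.const_mul_atTop two_pos))
    simp only [uf]; linarith [sin_le_one (2 * θ)]
  · refine tendsto_atBot_mono (f := fun θ => 2 * θ + 1) (fun θ => ?_)
      (tendsto_atBot_add_const_right _ _ (tendsto_id.const_mul_atBot (two_pos (α := ℝ))))
    simp only [uf]; linarith [neg_one_le_sin (2 * θ)]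

lemma mem_of_ee (N : Submodule ℂ C(II, ℂ)) (hN : IsClosed (N : Set C(II, ℂ)))
    (h : ∀ m : ℤ, ee m ∈ N) (F : ℝ → ℂ) (hF : Continuous F) (h0 : F 0 = F π) : restr F hF ∈ N := by
  have : Fact (0 < 2 * π) := ⟨two_pi_pos⟩
  let v := (uf_mono.orderIsoOfSurjective uf uf_surj).toHomeomorph
  have hv : ∀ θ, v.symm (uf θ) = θ := fun θ => v.symm_apply_apply θ
  have u0 : uf 0 = 0 := by simp [uf]
  have u1 : uf π = 2 * π := by simp [uf]
  have v0 : v.symm 0 = 0 := by simpa [u0] using hv 0
  have v1 : v.symm (2 * π) = π := by simpa [u1] using hv π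
  let G : C(AddCircle (2 * π), ℂ) := ⟨AddCircle.liftIco (2 * π) 0 (F ∘ v.symm),
    AddCircle.liftIco_zero_continuous (by simp [v0, v1, h0])
      (hF.comp v.symm.continuous).continuousOn⟩
  let q : C(II, AddCircle (2 * π)) := ⟨fun θ => (uf θ : AddCircle (2 * π)),
    (AddCircle.continuous_mk' _).comp (cont_uf.comp continuous_subtype_val)⟩
  let ρ := ContinuousMap.compStarAlgHom' ℂ ℂ q
  have hρ : Continuous ρ := ContinuousMap.continuous_precomp q
  have h1 : restr F hF = ρ G := by
    ext θ
    show F θ = AddCircle.liftIco (2 * π) 0 (F ∘ v.symm) (uf θ : AddCircle (2 * π))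
    rcases θ.2.2.lt_or_eq with h | h
    · rw [AddCircle.liftIco_coe_apply, Function.comp_apply, hv]
      exact ⟨u0.symm.trans_le (uf_mono.monotone θ.2.1), by rw [zero_add, ← u1]; exact uf_mono h⟩
    · rw [h, u1, AddCircle.coe_period, ← AddCircle.coe_zero, AddCircle.liftIco_coe_apply,
        Function.comp_apply, v0, h0]
      exact ⟨le_rfl, by simp [pi_pos]⟩
  have h2 : (Submodule.span ℂ (range fourier)).topologicalClosure ≤
      N.comap ρ.toAlgHom.toLinearMap := by
    refine Submodule.topologicalClosure_minimal _ (Submodule.span_le.2 ?_) (hN.preimage hρ)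
    rintro _ ⟨m, rfl⟩
    have : ρ (fourier m) = ee m := by
      ext θ
      show fourier m (uf θ : AddCircle (2 * π)) = _
      rw [fourier_coe_apply]
      simp only [ee, restr, ContinuousMap.coe_mk]
      congr 1
      have : (π : ℂ) ≠ 0 := by exact_mod_cast pi_pos.ne'
      push_cast
      field_simp
    show ρ (fourier m) ∈ N
    rw [this]
    exact h m
  rw [span_fourier_closure_eq_top] at h2
  rw [h1]
  exact h2 trivial

lemma approx_cs {ε : ℝ} (hε : 0 < ε) : ∃ (F : ℝ → ℂ) (hF : Continuous F), F 0 = F π ∧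
    ‖sig (star (cs - restr F hF) * (cs - restr F hF))‖ ≤ 8 * ε ^ 2 := by
  have hp : ∀ θ, |sin θ| + ε ≠ 0 := fun θ => by positivity
  have hc : Continuous fun θ => 2 * cos θ * ε / (|sin θ| + ε) := by fun_prop (disch := exact hp)
  refine ⟨fun θ => ((2 * cos θ - 2 * cos θ * ε / (|sin θ| + ε) : ℝ) : ℂ), by fun_prop, ?_, ?_⟩
  · simp [hε.ne', neg_div]
  · rw [show star (cs - restr _ _) * (cs - restr _ _) =
      restr (fun θ => (((2 * cos θ * ε / (|sin θ| + ε)) ^ 2 : ℝ) : ℂ)) (by fun_prop) from by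
        ext θ
        simp [cs, restr, -Complex.ofReal_cos, -Complex.ofReal_div, sq], sig_restr]
    have := intervalIntegral.norm_integral_le_of_norm_le_const (a := 0) (b := π) (C := 4 * ε ^ 2)
      (f := fun θ => (((2 * cos θ * ε / (|sin θ| + ε)) ^ 2 : ℝ) : ℂ) * (sin θ ^ 2 : ℝ))
      fun θ _ => by
        rw [← Complex.ofReal_mul, Complex.norm_real, Real.norm_of_nonneg (by positivity), div_pow,
          div_mul_eq_mul_div, div_le_iff₀ (by positivity), ← sq_abs (sin θ)]
        have h1 := cos_sq_le_one θ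
        have h2 : |sin θ| ^ 2 ≤ (|sin θ| + ε) ^ 2 := by gcongr; linarith
        calc _ = 4 * ε ^ 2 * (cos θ ^ 2 * |sin θ| ^ 2) := by ring
          _ ≤ 4 * ε ^ 2 * (1 * (|sin θ| + ε) ^ 2) := by gcongr
          _ = _ := by ring
    rw [sub_zero, abs_of_pos pi_pos] at this
    rw [norm_mul, Complex.norm_real, Real.norm_of_nonneg (by positivity)]
    calc _ ≤ 2 / π * (4 * ε ^ 2 * π) := by gcongr
      _ = _ := by field_simp; ring

lemma exists_fc {K : Type} [NormedAddCommGroup K] [InnerProductSpace ℂ K] [CompleteSpace K]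
    {z : K →L[ℂ] K} (hz : IsSelfAdjoint z) (h2 : ‖z‖ ≤ 2) :
    ∃ Φ : C(II, ℂ) →⋆ₐ[ℂ] (K →L[ℂ] K), Continuous Φ ∧ Φ cs = z := by
  have hn : IsStarNormal z := hz.isStarNormal
  let q : C(spectrum ℂ z, II) :=
    ⟨fun w => ⟨arccos (w.1.re / 2), arccos_nonneg _, arccos_le_pi _⟩, by fun_prop⟩
  refine ⟨(cfcHom hn).comp (ContinuousMap.compStarAlgHom' ℂ ℂ q),
    (cfcHom_continuous hn).comp (ContinuousMap.continuous_precomp q), ?_⟩
  refine Eq.trans (congrArg (cfcHom hn) ?_) (cfcHom_id hn)
  ext w
  have h1 : ‖w.1‖ ≤ 2 := (spectrum.norm_le_norm_mul_of_mem w.2).trans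
    ((mul_le_of_le_one_right (norm_nonneg _) ContinuousLinearMap.norm_id_le).trans h2)
  have h3 := abs_le.1 ((Complex.abs_re_le_norm _).trans h1)
  show ((2 * cos (arccos (w.1.re / 2)) : ℝ) : ℂ) = w.1
  rw [cos_arccos (by linarith) (by linarith), mul_div_cancel₀ _ two_ne_zero]
  exact (hz.mem_spectrum_eq_re w.2).symm

end

end Vale.Agent.P086
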