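import Vale.Agent.P086.Est

open scoped InnerProductSpace ComplexConjugate Topology
open Filter

namespace Vale.Agent.P086

variable {K : Type} [NormedAddCommGroup K] [InnerProductSpace ℂ K] [CompleteSpace K]

lemma norm_unitary {U : K →L[ℂ] K} (hU : U ∈ unitary (K →L[ℂ] K)) (ξ : K) : ‖U ξ‖ = ‖ξ‖ := by
  have h1 : ‖U ξ‖ ^ 2 = ‖ξ‖ ^ 2 := by
    rw [norm_sq_eq_re, norm_sq_eq_re, ← inner_star_right, ← mul_apply_eq_comp, hU.1]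
    rfl
  exact (sq_eq_sq₀ (norm_nonneg _) (norm_nonneg _)).1 h1

lemma norm_star_sub {U : K →L[ℂ] K} (hU : U ∈ unitary (K →L[ℂ] K)) (ξ : K) :
    ‖(star U) ξ - ξ‖ = ‖U ξ - ξ‖ := by
  rw [← norm_unitary hU, map_sub, ← mul_apply_eq_comp, hU.2, norm_sub_rev]
  rfl

variable (K0 : Submodule ℂ K) [K0.HasOrthogonalProjection]

/-- hypotheses on a family of small rotations -/
structure Rot (ξ0 : K) (C s : ℝ) (V : ℕ → K →L[ℂ] K) (ξ1 ξ2 : ℕ → K) : Prop where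
  uni : ∀ n, V n ∈ unitary (K →L[ℂ] K)
  mem : ∀ n, ξ1 n ∈ K0
  nrm : ∀ n, ‖ξ1 n‖ ^ 2 ≤ 2
  hA : ∀ n, ‖V n ξ0 - (ξ0 + (s : ℂ) • ξ1 n + ((s : ℂ) ^ 2 / 2) • ξ2 n)‖ ≤ C * s ^ 3
  hB : ∀ n, ‖V n (ξ1 n) - (ξ1 n + (s : ℂ) • ξ2 n)‖ ≤ C * s ^ 2
  w1 : ∀ v, Tendsto (fun n => ⟪ξ1 n, v⟫_ℂ) atTop (𝓝 0)
  w2 : ∀ v, Tendsto (fun n => ⟪ξ2 n, v⟫_ℂ) atTop (𝓝 (-2 * ⟪ξ0, v⟫_ℂ))
  fix : ∀ η ∈ K0, Tendsto (fun n => V n η) atTop (𝓝 η)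

/-- potential -/
noncomputable def Phi (ξ0 v : K) : ℝ := ‖K0.starProjection v‖ ^ 2 + ‖⟪ξ0, v⟫_ℂ‖ ^ 2

omit [CompleteSpace K] in
lemma proj_ge (v q : K) (hq : q ∈ K0) :
    2 * (⟪q, v⟫_ℂ).re - ‖q‖ ^ 2 ≤ ‖K0.starProjection v‖ ^ 2 := by
  have h1 : ⟪q, v⟫_ℂ = ⟪q, K0.starProjection v⟫_ℂ := by
    rw [← Submodule.inner_starProjection_left_eq_right, Submodule.starProjection_eq_self_iff.2 hq]
  have h2 := norm_sub_sq (𝕜 := ℂ) q (K0.starProjection v)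
  rw [h1]
  simp only [RCLike.re_to_complex] at h2
  nlinarith [sq_nonneg ‖q - K0.starProjection v‖]

lemma ev_norm_le {f : ℕ → ℂ} {a : ℂ} (h : Tendsto f atTop (𝓝 a)) {δ : ℝ} (hδ : 0 < δ) :
    ∀ᶠ n in atTop, ‖f n - a‖ ≤ δ := by
  filter_upwards [Metric.tendsto_nhds.1 h δ hδ] with n hn
  rw [dist_eq_norm] at hn
  exact hn.le

lemma step_real {C s l b P Q x y : ℝ} (hC : 0 ≤ C) (hs : 0 < s) (hs1 : s ≤ 1) (hl : 0 ≤ l)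
    (hl1 : l ≤ 1) (f5 : -((C + 2) * s ^ 3) ≤ b - (1 - s ^ 2) * l)
    (f6 : b - (1 - s ^ 2) * l ≤ (C + 2) * s ^ 3) (hq : 2 * x - y ≤ Q)
    (f3 : P + 2 * s ^ 2 * l ^ 2 - (C + 3) * s ^ 3 ≤ x)
    (f4 : y ≤ P + 2 * s ^ 2 * l ^ 2 + 2 * s ^ 3) :
    P + l ^ 2 - (4 * C + 12) * s ^ 3 ≤ Q + b ^ 2 ∧ b ≤ (1 - s ^ 2) * l + (4 * C + 12) * s ^ 3 := by
  have hss : 0 ≤ 1 - s ^ 2 := by nlinarith
  have hs3 : 0 ≤ s ^ 3 := by positivity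
  have hs4 : 0 ≤ C * s ^ 3 := by positivity
  constructor
  · set a := (1 - s ^ 2) * l with ha'
    have ha0 : 0 ≤ a := by positivity
    have ha1 : a ≤ 1 := by nlinarith
    have h1 : a ^ 2 - 2 * ((C + 2) * s ^ 3) ≤ b ^ 2 := by
      have hd : 0 ≤ (C + 2) * s ^ 3 := by positivity
      nlinarith [sq_nonneg (b - a)]
    have h2 : (1 - 2 * s ^ 2) * l ^ 2 ≤ a ^ 2 := by
      rw [ha', mul_pow]
      gcongr
      nlinarith [sq_nonneg (s ^ 2)]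
    linarith
  · linarith

variable {K0}

lemma Rot.step {ξ0 : K} {C s : ℝ} {V : ℕ → K →L[ℂ] K} {ξ1 ξ2 : ℕ → K}
    (h : Rot K0 ξ0 C s V ξ1 ξ2) (h0 : ‖ξ0‖ = 1) (hC : 0 ≤ C) (hs : 0 < s) (hs1 : s ≤ 1) (v : K)
    (hv : ‖v‖ = 1) :
    ∀ᶠ n in atTop, Phi K0 ξ0 v - (4 * C + 12) * s ^ 3 ≤ Phi K0 ξ0 ((star (V n)) v) ∧
      ‖⟪ξ0, (star (V n)) v⟫_ℂ‖ ≤ (1 - s ^ 2) * ‖⟪ξ0, v⟫_ℂ‖ + (4 * C + 12) * s ^ 3 := by
  set p := K0.starProjection v with hp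
  set l := ⟪ξ0, v⟫_ℂ with hl
  have hpm : p ∈ K0 := K0.starProjection_apply_mem v
  have hl1 : ‖l‖ ≤ 1 := by simpa [h0, hv] using norm_inner_le_norm (𝕜 := ℂ) ξ0 v
  have hpv : ⟪p, v⟫_ℂ = (‖p‖ ^ 2 : ℝ) := by
    rw [← Submodule.starProjection_eq_self_iff.2 hpm, Submodule.inner_starProjection_left_eq_right,
      Submodule.starProjection_eq_self_iff.2 hpm, ← hp, inner_self_eq_norm_sq_to_K]
    simp
  have ha : Tendsto (fun n => ⟪V n p, v⟫_ℂ) atTop (𝓝 ⟪p, v⟫_ℂ) :=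
    (h.fix p hpm).inner tendsto_const_nhds
  have hs2 : 0 < s ^ 2 := by positivity
  have hs3 : 0 < s ^ 3 := by positivity
  filter_upwards [ev_norm_le (h.w1 v) hs2, ev_norm_le (h.w2 v) hs, ev_norm_le ha hs3,
    ev_norm_le (h.w1 p) hs2] with n e1 e2 e3 e4
  rw [sub_zero] at e1 e4
  set v' := (star (V n)) v with hv'
  have hns : ‖(s : ℂ)‖ = s := by simp [hs.le]
  have hin : ∀ ξ, ‖⟪ξ, v⟫_ℂ‖ ≤ ‖ξ‖ := fun ξ => by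
    simpa [hv] using norm_inner_le_norm (𝕜 := ℂ) ξ v
  have f1 : ‖⟪ξ0, v'⟫_ℂ - (1 - (s : ℂ) ^ 2) * l‖ ≤ (C + 2) * s ^ 3 := by
    have e : ⟪ξ0, v'⟫_ℂ - (1 - (s : ℂ) ^ 2) * l =
        ⟪V n ξ0 - (ξ0 + (s : ℂ) • ξ1 n + ((s : ℂ) ^ 2 / 2) • ξ2 n), v⟫_ℂ + s * ⟪ξ1 n, v⟫_ℂ +
          (s : ℂ) ^ 2 / 2 * (⟪ξ2 n, v⟫_ℂ - -2 * l) := by
      simp only [hv', inner_star_right, inner_sub_left, inner_add_left, inner_smul_left, map_div₀,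
        map_pow, Complex.conj_ofReal, map_ofNat, hl]
      ring
    rw [e]
    refine (norm_add₃_le).trans ?_
    rw [norm_mul, norm_mul, norm_div, norm_pow, hns]
    have := (hin _).trans (h.hA n)
    simp only [Complex.norm_ofNat]
    nlinarith [mul_le_mul_of_nonneg_left e1 hs.le, mul_le_mul_of_nonneg_left e2 hs2.le]
  have f2 : ‖⟪ξ1 n, v'⟫_ℂ + 2 * s * l‖ ≤ (C + 2) * s ^ 2 := by
    have e : ⟪ξ1 n, v'⟫_ℂ + 2 * s * l =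
        ⟪V n (ξ1 n) - (ξ1 n + (s : ℂ) • ξ2 n), v⟫_ℂ + ⟪ξ1 n, v⟫_ℂ + s * (⟪ξ2 n, v⟫_ℂ - -2 * l) := by
      simp only [hv', inner_star_right, inner_sub_left, inner_add_left, inner_smul_left,
        Complex.conj_ofReal, hl]
      ring
    rw [e]
    refine (norm_add₃_le).trans ?_
    rw [norm_mul, hns]
    have := (hin _).trans (h.hB n)
    nlinarith [mul_le_mul_of_nonneg_left e2 hs.le]
  have hq := proj_ge K0 v' (p - ((s : ℂ) * l) • ξ1 n) (sub_mem hpm (K0.smul_mem _ (h.mem n)))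
  have f3 : ‖p‖ ^ 2 + 2 * s ^ 2 * ‖l‖ ^ 2 - (C + 3) * s ^ 3 ≤
      (⟪p - ((s : ℂ) * l) • ξ1 n, v'⟫_ℂ).re := by
    have e : ⟪p - ((s : ℂ) * l) • ξ1 n, v'⟫_ℂ = ((‖p‖ ^ 2 + 2 * s ^ 2 * ‖l‖ ^ 2 : ℝ) : ℂ) +
        ((⟪V n p, v⟫_ℂ - ⟪p, v⟫_ℂ) - s * conj l * (⟪ξ1 n, v'⟫_ℂ + 2 * s * l)) := by
      have : (‖l‖ : ℂ) ^ 2 = conj l * l := by rw [Complex.conj_mul']
      rw [hpv, inner_sub_left, inner_smul_left, hv', inner_star_right (V n) p]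
      simp only [map_mul, Complex.conj_ofReal]
      push_cast
      rw [this]
      ring
    rw [e, Complex.add_re, Complex.ofReal_re]
    have h1 := Complex.abs_re_le_norm
      ((⟪V n p, v⟫_ℂ - ⟪p, v⟫_ℂ) - s * conj l * (⟪ξ1 n, v'⟫_ℂ + 2 * s * l))
    have h2 := norm_sub_le (⟪V n p, v⟫_ℂ - ⟪p, v⟫_ℂ) (s * conj l * (⟪ξ1 n, v'⟫_ℂ + 2 * s * l))
    have h3 : ‖s * conj l * (⟪ξ1 n, v'⟫_ℂ + 2 * s * l)‖ ≤ s * 1 * ((C + 2) * s ^ 2) := by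
      rw [norm_mul, norm_mul, hns, Complex.norm_conj]
      gcongr
    have := neg_abs_le ((⟪V n p, v⟫_ℂ - ⟪p, v⟫_ℂ) - s * conj l * (⟪ξ1 n, v'⟫_ℂ + 2 * s * l)).re
    nlinarith
  have f4 : ‖p - ((s : ℂ) * l) • ξ1 n‖ ^ 2 ≤ ‖p‖ ^ 2 + 2 * s ^ 2 * ‖l‖ ^ 2 + 2 * s ^ 3 := by
    rw [norm_sub_sq (𝕜 := ℂ), norm_smul, mul_pow, norm_mul, hns, mul_pow, inner_smul_right]
    have h1 := Complex.abs_re_le_norm (s * l * ⟪p, ξ1 n⟫_ℂ)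
    have h2 : ‖s * l * ⟪p, ξ1 n⟫_ℂ‖ ≤ s * 1 * s ^ 2 := by
      rw [norm_mul, norm_mul, hns, norm_inner_symm p]
      gcongr
    have h3 := neg_abs_le (s * l * ⟪p, ξ1 n⟫_ℂ).re
    have h4 : s ^ 2 * ‖l‖ ^ 2 * ‖ξ1 n‖ ^ 2 ≤ s ^ 2 * ‖l‖ ^ 2 * 2 := by gcongr; exact h.nrm n
    simp only [RCLike.re_to_complex]
    nlinarith
  have hss : 0 ≤ 1 - s ^ 2 := by nlinarith
  have hn1 : ‖(1 - (s : ℂ) ^ 2) * l‖ = (1 - s ^ 2) * ‖l‖ := by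
    rw [norm_mul]
    congr 1
    rw [← Complex.ofReal_pow, ← Complex.ofReal_one, ← Complex.ofReal_sub, Complex.norm_real,
      Real.norm_of_nonneg hss]
  have f5 := abs_le.1 ((abs_norm_sub_norm_le _ _).trans f1)
  rw [hn1] at f5
  simp only [Phi, ← hp, ← hl]
  exact step_real hC hs hs1 (norm_nonneg l) hl1 f5.1 f5.2 hq f3 f4

lemma Rot.iter {ξ0 : K} {C s : ℝ} {V : ℕ → K →L[ℂ] K} {ξ1 ξ2 : ℕ → K}
    (h : Rot K0 ξ0 C s V ξ1 ξ2) (h0 : ‖ξ0‖ = 1) (hC : 0 ≤ C) (hs : 0 < s) (hs1 : s ≤ 1)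
    (G : Submonoid (K →L[ℂ] K)) (hG : G ≤ unitary (K →L[ℂ] K)) (hV : ∀ n, star (V n) ∈ G)
    (S : Finset K) (hS : ∀ η ∈ S, η ∈ K0) {δ : ℝ} (hδ : 0 < δ) (m : ℕ) :
    ∃ Θ ∈ G, (∀ η ∈ S, ‖Θ η - η‖ ≤ m * δ) ∧ 1 - m * ((4 * C + 12) * s ^ 3) ≤ Phi K0 ξ0 (Θ ξ0) ∧
      ‖⟪ξ0, Θ ξ0⟫_ℂ‖ ≤ (1 - s ^ 2) ^ m + m * ((4 * C + 12) * s ^ 3) := by
  induction m with
  | zero =>
    refine ⟨1, one_mem _, by simp, ?_, ?_⟩
    · simp [Phi, h0]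
    · simp [h0]
  | succ m ih =>
    obtain ⟨Θ, hΘ, h1, h2, h3⟩ := ih
    have e1 := h.step h0 hC hs hs1 (Θ ξ0) (by rw [norm_unitary (hG hΘ), h0])
    have e2 : ∀ᶠ n in atTop, ∀ η ∈ S, ‖V n η - η‖ ≤ δ := by
      rw [eventually_all_finset]
      intro η hη
      filter_upwards [Metric.tendsto_nhds.1 (h.fix η (hS η hη)) δ hδ] with n hn
      rw [dist_eq_norm] at hn
      exact hn.le
    obtain ⟨n, ⟨a1, a2⟩, a3⟩ := (e1.and e2).exists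
    refine ⟨star (V n) * Θ, mul_mem (hV n) hΘ, fun η hη => ?_, ?_, ?_⟩
    · have : (star (V n) * Θ) η - η = (star (V n)) (Θ η - η) + ((star (V n)) η - η) := by
        simp [mul_apply_eq_comp]
      rw [this]
      refine (norm_add_le _ _).trans ?_
      rw [norm_unitary (hG (hV n)), norm_star_sub (h.uni n)]
      push_cast
      linarith [h1 η hη, a3 η hη]
    · rw [mul_apply_eq_comp]
      push_cast
      linarith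
    · rw [mul_apply_eq_comp]
      have hss : 0 ≤ 1 - s ^ 2 := by nlinarith
      have h4 := mul_le_mul_of_nonneg_left h3 hss
      have h5 : 0 ≤ s ^ 2 * (m * ((4 * C + 12) * s ^ 3)) := by positivity
      push_cast
      rw [pow_succ]
      nlinarith

lemma exists_params {s0 C η : ℝ} (hs0 : 0 < s0) (hη : 0 < η) :
    ∃ (s : ℝ) (m : ℕ), 0 < s ∧ s ≤ s0 ∧ s ≤ 1 ∧ (1 - s ^ 2) ^ m ≤ η ∧ m * (C * s ^ 3) ≤ η := by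
  obtain ⟨T, hT⟩ := exists_nat_ge (1 / η)
  obtain ⟨N, hN⟩ := exists_nat_ge (max (max (1 / s0) 1) (T * C / η))
  simp only [max_le_iff] at hN
  obtain ⟨⟨h1, h2⟩, h3⟩ := hN
  have hN0 : (0 : ℝ) < N := by linarith
  refine ⟨1 / N, T * N ^ 2, by positivity, ?_, ?_, ?_, ?_⟩
  · rwa [one_div_le hN0 hs0]
  · rw [div_le_one hN0]; exact h2
  · set x : ℝ := (1 / N) ^ 2 with hx
    have hx0 : 0 ≤ x := by positivity
    have hx1 : x ≤ 1 := by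
      rw [hx]; exact pow_le_one₀ (by positivity) (by rw [div_le_one hN0]; exact h2)
    have b1 := one_add_mul_le_pow (a := x) (by linarith) (T * N ^ 2)
    have b2 : (1 - x) ^ (T * N ^ 2) * (1 + x) ^ (T * N ^ 2) ≤ 1 := by
      rw [← mul_pow]
      exact pow_le_one₀ (by nlinarith) (by nlinarith)
    have b3 : ((T * N ^ 2 : ℕ) : ℝ) * x = T := by
      rw [hx]; push_cast; field_simp
    rw [b3] at b1
    have b4 : 0 ≤ (1 - x) ^ (T * N ^ 2) := pow_nonneg (by linarith) _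
    have b5 : 1 ≤ η * T := by rwa [div_le_iff₀' hη] at hT
    by_contra hc
    push Not at hc
    nlinarith [mul_le_mul_of_nonneg_left b1 b4, Nat.cast_nonneg (α := ℝ) T]
  · rw [div_le_iff₀ hη] at h3
    have : ((T * N ^ 2 : ℕ) : ℝ) * (C * (1 / N) ^ 3) = T * C / N := by
      push_cast; field_simp
    rw [this, div_le_iff₀ hN0]
    linarith

theorem local_rot {ξ0 : K} {C s0 : ℝ} (h0 : ‖ξ0‖ = 1) (hC : 0 ≤ C) (hs0 : 0 < s0)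
    (G : Submonoid (K →L[ℂ] K)) (hG : G ≤ unitary (K →L[ℂ] K))
    (h : ∀ s, 0 < s → s ≤ s0 → ∃ V ξ1 ξ2, Rot K0 ξ0 C s V ξ1 ξ2 ∧ ∀ n, star (V n) ∈ G)
    (S : Finset K) (hS : ∀ η ∈ S, η ∈ K0) {ε : ℝ} (hε : 0 < ε) :
    ∃ Θ ∈ G, (∀ η ∈ S, ‖Θ η - η‖ ≤ ε) ∧ ‖Θ ξ0 - K0.starProjection (Θ ξ0)‖ ≤ ε := by
  obtain ⟨s, m, hs, hs0', hs1, b1, b2⟩ := exists_params (C := 4 * C + 12) hs0
    (η := min (ε ^ 2 / 5) 1) (by positivity)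
  obtain ⟨V, ξ1, ξ2, hR, hV⟩ := h s hs hs0'
  obtain ⟨Θ, hΘ, h1, h2, h3⟩ := hR.iter h0 hC hs hs1 G hG hV S hS
    (δ := ε / (m + 1)) (by positivity) m
  refine ⟨Θ, hΘ, fun η hη => (h1 η hη).trans ?_, ?_⟩
  · rw [← mul_div_assoc, div_le_iff₀ (by positivity)]
    nlinarith
  · have hn : ‖Θ ξ0‖ = 1 := by rw [norm_unitary (hG hΘ), h0]
    have hp := K0.norm_sq_eq_add_norm_sq_starProjection (Θ ξ0)
    rw [Submodule.starProjection_orthogonal_val, hn] at hp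
    set η := min (ε ^ 2 / 5) 1
    have hη1 : η ≤ 1 := min_le_right _ _
    have hη2 : η ≤ ε ^ 2 / 5 := min_le_left _ _
    have h4 : ‖⟪ξ0, Θ ξ0⟫_ℂ‖ ≤ 2 * η := by linarith
    have h5 : ‖⟪ξ0, Θ ξ0⟫_ℂ‖ ^ 2 ≤ (2 * η) ^ 2 := by gcongr
    have hη0 : 0 ≤ η := by positivity
    simp only [Phi] at h2
    refine (abs_le_of_sq_le_sq' ?_ hε.le).2
    nlinarith

end Vale.Agent.P086
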