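import Vale.Agent.P086.Defs

namespace Vale.Agent.P086

/-- The double commutant of a subset of a complex star-algebra, as a star-subalgebra. -/
def dcomm {A : Type} [Ring A] [StarRing A] [Algebra ℂ A] [StarModule ℂ A] (S : Set A) :
    StarSubalgebra ℂ A :=
  StarSubalgebra.centralizer ℂ (StarSubalgebra.centralizer ℂ S : Set A)

/-- The double commutants of two subsets of star-algebras are star-isomorphic. -/
def IsoDcomm {A B : Type} [Ring A] [StarRing A] [Algebra ℂ A] [StarModule ℂ A]
    [Ring B] [StarRing B] [Algebra ℂ B] [StarModule ℂ B] (S : Set A) (T : Set B) : Prop :=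
  Nonempty (dcomm S ≃⋆ₐ[ℂ] dcomm T)

/-- The same for sets of bounded operators on two Hilbert spaces. -/
def IsoVN {E F : Type} [NormedAddCommGroup E] [InnerProductSpace ℂ E] [CompleteSpace E]
    [NormedAddCommGroup F] [InnerProductSpace ℂ F] [CompleteSpace F]
    (S : Set (E →L[ℂ] E)) (T : Set (F →L[ℂ] F)) : Prop :=
  IsoDcomm S T

end Vale.Agent.P086
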