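import Vale.Agent.P086.Defs

open scoped InnerProductSpace

namespace Vale.Agent.P086

/-- The group von Neumann algebra: the double commutant of the left regular operators. -/
noncomputable def LG (G : Type) [Group G] : StarSubalgebra ℂ (L2 G →L[ℂ] L2 G) :=
  StarSubalgebra.centralizer ℂ
    (StarSubalgebra.centralizer ℂ (leftReg G) : Set (L2 G →L[ℂ] L2 G))

variable {K : Type} [NormedAddCommGroup K] [InnerProductSpace ℂ K] [CompleteSpace K]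

/-- the vector state of `Ω` is a trace on `M` -/
def Tracial (M : StarSubalgebra ℂ (K →L[ℂ] K)) (Ω : K) : Prop :=
  ∀ S ∈ M, ∀ T ∈ M, ⟪Ω, S (T Ω)⟫_ℂ = ⟪Ω, T (S Ω)⟫_ℂ

/-- cyclicity -/
def Cyc (L : Set (K →L[ℂ] K)) (Ω : K) : Prop :=
  ∀ N : Submodule ℂ K, IsClosed (N : Set K) → Ω ∈ N → (∀ l ∈ L, ∀ ξ ∈ N, l ξ ∈ N) → ∀ ξ, ξ ∈ N

/-- approximation of vectors -/
def Apx (A : StarSubalgebra ℂ (K →L[ℂ] K)) (Ω : K) : Prop :=
  ∀ ξ : K, ∀ ε > 0, ∃ x ∈ A, ‖ξ - x Ω‖ < ε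

lemma inner_star_left (T : K →L[ℂ] K) (ξ η : K) : ⟪(star T) ξ, η⟫_ℂ = ⟪ξ, T η⟫_ℂ := by
  rw [ContinuousLinearMap.star_eq_adjoint, ContinuousLinearMap.adjoint_inner_left]

lemma inner_star_right (T : K →L[ℂ] K) (ξ η : K) : ⟪ξ, (star T) η⟫_ℂ = ⟪T ξ, η⟫_ℂ := by
  rw [ContinuousLinearMap.star_eq_adjoint, ContinuousLinearMap.adjoint_inner_right]

lemma norm_star_op (T : K →L[ℂ] K) : ‖star T‖ = ‖T‖ := norm_star T

lemma Cyc.apx {L : Set (K →L[ℂ] K)} {Ω : K} (h : Cyc L Ω) (A : StarSubalgebra ℂ (K →L[ℂ] K))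
    (hL : L ⊆ A) : Apx A Ω := by
  let N0 : Submodule ℂ K :=
    { carrier := {ξ | ∃ x ∈ A, x Ω = ξ}
      add_mem' := by
        rintro _ _ ⟨x, hx, rfl⟩ ⟨y, hy, rfl⟩
        exact ⟨x + y, add_mem hx hy, rfl⟩
      zero_mem' := ⟨0, zero_mem _, rfl⟩
      smul_mem' := by
        rintro c _ ⟨x, hx, rfl⟩
        exact ⟨c • x, SMulMemClass.smul_mem c hx, rfl⟩ }
  have hN := h N0.topologicalClosure (Submodule.isClosed_topologicalClosure _)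
    (Submodule.le_topologicalClosure _ ⟨1, one_mem _, rfl⟩) (by
      intro l hl ξ hξ
      have hmaps : Set.MapsTo l (N0 : Set K) (N0 : Set K) := by
        rintro _ ⟨x, hx, rfl⟩
        exact ⟨l * x, mul_mem (hL hl) hx, rfl⟩
      exact hmaps.closure l.continuous hξ)
  intro ξ ε hε
  obtain ⟨_, ⟨x, hx, rfl⟩, hd⟩ := Metric.mem_closure_iff.1 (hN ξ) ε hε
  exact ⟨x, hx, by rwa [dist_eq_norm] at hd⟩

lemma eq_of_forall_norm_le {a b : ℂ} (C : ℝ) (h : ∀ ε > 0, ‖a - b‖ ≤ C * ε) : a = b := by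
  have h0 : ‖a - b‖ ≤ 0 := by
    refine le_of_forall_pos_le_add fun δ hδ => ?_
    have := h (δ / (|C| + 1)) (by positivity)
    have h2 : C * (δ / (|C| + 1)) ≤ δ := by
      rw [← mul_div_assoc, div_le_iff₀ (by positivity)]
      nlinarith [le_abs_self C]
    linarith
  exact sub_eq_zero.1 (norm_le_zero_iff.1 h0)

lemma Apx.ext {A : StarSubalgebra ℂ (K →L[ℂ] K)} {Ω : K} (h : Apx A Ω) {f g : K → ℂ}
    (hf : Continuous f) (hg : Continuous g) (hfg : ∀ x ∈ A, f (x Ω) = g (x Ω)) (ξ : K) :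
    f ξ = g ξ := by
  have hc : IsClosed {ξ | f ξ = g ξ} := isClosed_eq hf hg
  have : ξ ∈ closure {ξ | f ξ = g ξ} := by
    rw [Metric.mem_closure_iff]
    intro ε hε
    obtain ⟨x, hx, hd⟩ := h ξ ε hε
    exact ⟨x Ω, hfg x hx, by rwa [dist_eq_norm]⟩
  exact hc.closure_subset this

omit [CompleteSpace K] in
lemma norm_sq_eq_re (ξ : K) : ‖ξ‖ ^ 2 = (⟪ξ, ξ⟫_ℂ).re := by
  rw [inner_self_eq_norm_sq_to_K]; norm_cast

namespace Tracial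

variable {M : StarSubalgebra ℂ (K →L[ℂ] K)} {Ω : K}

lemma norm_star (h : Tracial M Ω) {T : K →L[ℂ] K} (hT : T ∈ M) : ‖(star T) Ω‖ = ‖T Ω‖ := by
  have h1 : ‖(star T) Ω‖ ^ 2 = ‖T Ω‖ ^ 2 := by
    rw [norm_sq_eq_re, norm_sq_eq_re, inner_star_left, h T hT _ (star_mem hT), inner_star_right]
  exact (sq_eq_sq₀ (norm_nonneg _) (norm_nonneg _)).1 h1

lemma norm_mul (h : Tracial M Ω) {S T : K →L[ℂ] K} (hS : S ∈ M) (hT : T ∈ M) :
    ‖S (T Ω)‖ ≤ ‖T‖ * ‖S Ω‖ := by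
  have h1 : ‖S (T Ω)‖ = ‖(star T) ((star S) Ω)‖ := by
    have := h.norm_star (mul_mem hS hT)
    rw [star_mul] at this
    exact this.symm
  rw [h1, ← h.norm_star hS]
  refine ((star T).le_opNorm _).trans ?_
  rw [_root_.norm_star]

/-- commutation theorem -/
lemma comm (h : Tracial M Ω) {A : StarSubalgebra ℂ (K →L[ℂ] K)} (hAM : A ≤ M) (hA : Apx A Ω)
    {S T : K →L[ℂ] K} (hT : T ∈ M) (hS : ∀ x ∈ A, x * S = S * x) : T * S = S * T := by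
  have key : ∀ T ∈ M, ⟪Ω, T (S Ω)⟫_ℂ = ⟪Ω, S (T Ω)⟫_ℂ := by
    intro T hT
    refine eq_of_forall_norm_le (‖S Ω‖ + ‖(star S) Ω‖) fun ε hε => ?_
    obtain ⟨x, hx, hd⟩ := hA (T Ω) ε hε
    have hTx : T - x ∈ M := sub_mem hT (hAM hx)
    have e1 : x (S Ω) = S (x Ω) := congrArg (fun F : K →L[ℂ] K => F Ω) (hS x hx)
    have e2 : ⟪Ω, T (S Ω)⟫_ℂ - ⟪Ω, S (T Ω)⟫_ℂ =
        ⟪(star (T - x)) Ω, S Ω⟫_ℂ - ⟪(star S) Ω, (T - x) Ω⟫_ℂ := by
      rw [inner_star_left, inner_star_left]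
      simp only [sub_apply, map_sub, inner_sub_right, e1]
      ring
    rw [e2]
    have h3 : ‖(T - x) Ω‖ < ε := by simpa using hd
    have h4 : ‖(star (T - x)) Ω‖ < ε := by rwa [h.norm_star hTx]
    calc _ ≤ ‖⟪(star (T - x)) Ω, S Ω⟫_ℂ‖ + ‖⟪(star S) Ω, (T - x) Ω⟫_ℂ‖ := norm_sub_le _ _
      _ ≤ ‖(star (T - x)) Ω‖ * ‖S Ω‖ + ‖(star S) Ω‖ * ‖(T - x) Ω‖ :=
        add_le_add (norm_inner_le_norm _ _) (norm_inner_le_norm _ _)
      _ ≤ ε * ‖S Ω‖ + ‖(star S) Ω‖ * ε := by gcongr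
      _ = _ := by ring
  have k2 : ∀ x ∈ A, ∀ y ∈ A, ⟪y Ω, T (S (x Ω))⟫_ℂ = ⟪y Ω, S (T (x Ω))⟫_ℂ := by
    intro x hx y hy
    have := key (star y * T * x) (mul_mem (mul_mem (star_mem (hAM hy)) hT) (hAM hx))
    have e1 : x (S Ω) = S (x Ω) := congrArg (fun F : K →L[ℂ] K => F Ω) (hS x hx)
    have e2 : ∀ ξ, S ((star y) ξ) = (star y) (S ξ) := fun ξ =>
      congrArg (fun F : K →L[ℂ] K => F ξ) (hS _ (star_mem hy)).symm
    simp only [mul_apply_eq_comp, e1, e2, inner_star_right] at this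
    exact this
  ext ξ
  refine ext_inner_left ℂ fun η => ?_
  simp only [mul_apply_eq_comp]
  refine hA.ext (f := fun ξ => ⟪η, T (S ξ)⟫_ℂ) (g := fun ξ => ⟪η, S (T ξ)⟫_ℂ)
    (by fun_prop) (by fun_prop) (fun x hx => ?_) ξ
  exact hA.ext (f := fun η => ⟪η, T (S (x Ω))⟫_ℂ) (g := fun η => ⟪η, S (T (x Ω))⟫_ℂ)
    (by fun_prop) (by fun_prop) (fun y hy => k2 x hx y hy) η

end Tracial

lemma mem_cent {R : Set (K →L[ℂ] K)} {T : K →L[ℂ] K} :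
    T ∈ StarSubalgebra.centralizer ℂ R ↔ ∀ r ∈ R, r * T = T * r ∧ star r * T = T * star r :=
  StarSubalgebra.mem_centralizer_iff ℂ

lemma tracial_of {L R : Set (K →L[ℂ] K)} {Ω : K}
    (hLM : L ⊆ StarSubalgebra.centralizer ℂ R) (hc : Cyc L Ω)
    (hr : ∀ l ∈ L, ∃ r ∈ R, l Ω = r Ω ∧ (star l) Ω = (star r) Ω) :
    Tracial (StarSubalgebra.centralizer ℂ R) Ω := by
  set M := StarSubalgebra.centralizer ℂ R with hM
  let A : StarSubalgebra ℂ (K →L[ℂ] K) :=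
    { carrier := {x | x ∈ M ∧ ∀ T ∈ M, ⟪Ω, x (T Ω)⟫_ℂ = ⟪Ω, T (x Ω)⟫_ℂ}
      mul_mem' := by
        rintro x y ⟨hx, hx'⟩ ⟨hy, hy'⟩
        refine ⟨mul_mem hx hy, fun T hT => ?_⟩
        have h1 := hx' (y * T) (mul_mem hy hT)
        have h2 := hy' (T * x) (mul_mem hT hx)
        simp only [mul_apply_eq_comp] at h1 h2 ⊢
        rw [h1, h2]
      add_mem' := by
        rintro x y ⟨hx, hx'⟩ ⟨hy, hy'⟩
        refine ⟨add_mem hx hy, fun T hT => ?_⟩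
        simp only [add_apply, map_add, inner_add_right, hx' T hT, hy' T hT]
      algebraMap_mem' := by
        intro c
        refine ⟨algebraMap_mem _ c, fun T hT => ?_⟩
        simp [Algebra.algebraMap_eq_smul_one]
      star_mem' := by
        rintro x ⟨hx, hx'⟩
        refine ⟨star_mem hx, fun T hT => ?_⟩
        have h1 := hx' (star T) (star_mem hT)
        rw [inner_star_right T, ← inner_star_left x] at h1
        rw [inner_star_right x, ← inner_star_left T Ω, ← inner_conj_symm (x Ω), ← h1,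
          inner_conj_symm] }
  have hLA : L ⊆ A := by
    intro l hl
    refine ⟨hLM hl, fun T hT => ?_⟩
    obtain ⟨r, hrR, h1, h2⟩ := hr l hl
    have h3 : r (T Ω) = T (r Ω) := congrArg (fun F : K →L[ℂ] K => F Ω) (mem_cent.1 hT r hrR).1
    rw [← inner_star_left l, h2, inner_star_left, h3, h1]
  have hA : Apx A Ω := hc.apx A hLA
  have hn : ∀ x ∈ A, ‖(star x) Ω‖ = ‖x Ω‖ := by
    intro x hx
    have h1 : ‖(star x) Ω‖ ^ 2 = ‖x Ω‖ ^ 2 := by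
      rw [norm_sq_eq_re, norm_sq_eq_re, inner_star_left, hx.2 _ (star_mem hx.1), inner_star_right]
    exact (sq_eq_sq₀ (norm_nonneg _) (norm_nonneg _)).1 h1
  have hle : ∀ T ∈ M, ‖(star T) Ω‖ ≤ ‖T Ω‖ := by
    intro T hT
    have hcl : IsClosed {ξ : K | ‖⟪(star T) Ω, ξ⟫_ℂ‖ ≤ ‖ξ‖ * ‖T Ω‖} :=
      isClosed_le (by fun_prop) (by fun_prop)
    have hall : ∀ ξ : K, ‖⟪(star T) Ω, ξ⟫_ℂ‖ ≤ ‖ξ‖ * ‖T Ω‖ := by
      intro ξ
      refine hcl.closure_subset (Metric.mem_closure_iff.2 fun ε hε => ?_)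
      obtain ⟨y, hy, hd⟩ := hA ξ ε hε
      refine ⟨y Ω, ?_, by rwa [dist_eq_norm]⟩
      show ‖⟪(star T) Ω, y Ω⟫_ℂ‖ ≤ ‖y Ω‖ * ‖T Ω‖
      rw [inner_star_left, ← hy.2 T hT, ← inner_star_left y, ← hn y hy]
      exact norm_inner_le_norm _ _
    have h1 := hall ((star T) Ω)
    rw [inner_self_eq_norm_sq_to_K] at h1
    simp only [norm_pow, Complex.coe_algebraMap, Complex.norm_real, norm_norm] at h1
    by_contra hlt
    push Not at hlt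
    nlinarith [norm_nonneg (T Ω)]
  intro S hS T hT
  refine eq_of_forall_norm_le (‖S Ω‖ + ‖(star S) Ω‖) fun ε hε => ?_
  obtain ⟨x, hx, hd⟩ := hA (T Ω) ε hε
  have hTx : T - x ∈ M := sub_mem hT hx.1
  have e2 : ⟪Ω, S (T Ω)⟫_ℂ - ⟪Ω, T (S Ω)⟫_ℂ =
      ⟪(star S) Ω, (T - x) Ω⟫_ℂ - ⟪(star (T - x)) Ω, S Ω⟫_ℂ := by
    rw [inner_star_left, inner_star_left]
    simp only [sub_apply, map_sub, inner_sub_right, hx.2 S hS]
    ring
  rw [e2]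
  have h3 : ‖(T - x) Ω‖ < ε := by simpa using hd
  have h4 : ‖(star (T - x)) Ω‖ < ε := (hle _ hTx).trans_lt h3
  calc _ ≤ ‖⟪(star S) Ω, (T - x) Ω⟫_ℂ‖ + ‖⟪(star (T - x)) Ω, S Ω⟫_ℂ‖ := norm_sub_le _ _
    _ ≤ ‖(star S) Ω‖ * ‖(T - x) Ω‖ + ‖(star (T - x)) Ω‖ * ‖S Ω‖ :=
      add_le_add (norm_inner_le_norm _ _) (norm_inner_le_norm _ _)
    _ ≤ ‖(star S) Ω‖ * ε + ε * ‖S Ω‖ := by gcongr
    _ = _ := by ring

end Vale.Agent.P086
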